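import Mathlib

set_option autoImplicit false
open Finset

namespace Crest.Agent.R299

variable {Ω : Type*} [Fintype Ω]

/-- plain inner product -/
def ip (f g : Ω → ℝ) : ℝ := ∑ x, f x * g x

lemma ip_comm (f g : Ω → ℝ) : ip f g = ip g f := by
  unfold ip; exact sum_congr rfl fun x _ => mul_comm _ _

lemma ip_add_left (f g h : Ω → ℝ) : ip (f + g) h = ip f h + ip g h := by
  unfold ip; simp [add_mul, sum_add_distrib]

lemma ip_add_right (f g h : Ω → ℝ) : ip f (g + h) = ip f g + ip f h := by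
  unfold ip; simp [mul_add, sum_add_distrib]

lemma ip_sub_left (f g h : Ω → ℝ) : ip (f - g) h = ip f h - ip g h := by
  unfold ip; simp [sub_mul, sum_sub_distrib]

lemma ip_sub_right (f g h : Ω → ℝ) : ip f (g - h) = ip f g - ip f h := by
  unfold ip; simp [mul_sub, sum_sub_distrib]

lemma ip_smul_left (c : ℝ) (f g : Ω → ℝ) : ip (c • f) g = c * ip f g := by
  unfold ip; simp [mul_sum, mul_assoc]

lemma ip_smul_right (c : ℝ) (f g : Ω → ℝ) : ip f (c • g) = c * ip f g := by
  rw [ip_comm, ip_smul_left, ip_comm]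

lemma ip_self_nonneg (f : Ω → ℝ) : 0 ≤ ip f f :=
  sum_nonneg fun _ _ => mul_self_nonneg _

lemma ip_zero_left (f : Ω → ℝ) : ip 0 f = 0 := by simp [ip]
lemma ip_zero_right (f : Ω → ℝ) : ip f 0 = 0 := by simp [ip]

lemma eq_zero_of_ip_self (f : Ω → ℝ) (h : ip f f ≤ 0) : f = 0 := by
  have h0 : ip f f = 0 := le_antisymm h (ip_self_nonneg f)
  unfold ip at h0
  rw [sum_eq_zero_iff_of_nonneg (fun _ _ => mul_self_nonneg _)] at h0
  funext x
  exact mul_self_eq_zero.mp (h0 x (mem_univ _))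

lemma ip_self_pos (f : Ω → ℝ) (h : f ≠ 0) : 0 < ip f f := by
  by_contra hc
  exact h (eq_zero_of_ip_self f (not_lt.mp hc))

lemma ip_sum_left {ι : Type*} (s : Finset ι) (f : ι → Ω → ℝ) (g : Ω → ℝ) :
    ip (∑ i ∈ s, f i) g = ∑ i ∈ s, ip (f i) g := by
  unfold ip; simp only [Finset.sum_apply, sum_mul]; rw [sum_comm]

lemma ip_sum_right {ι : Type*} (s : Finset ι) (f : ι → Ω → ℝ) (g : Ω → ℝ) :
    ip g (∑ i ∈ s, f i) = ∑ i ∈ s, ip g (f i) := by
  rw [ip_comm, ip_sum_left]; exact sum_congr rfl fun i _ => ip_comm _ _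

lemma ip_self_eq (f : Ω → ℝ) : ip f f = ∑ x, f x ^ 2 := by
  unfold ip; simp [sq]

/-- orthogonal projections -/
structure IsProj (P : (Ω → ℝ) →ₗ[ℝ] (Ω → ℝ)) : Prop where
  symm : ∀ f g, ip (P f) g = ip f (P g)
  idem : ∀ f, P (P f) = P f

lemma IsProj.ip_self {P : (Ω → ℝ) →ₗ[ℝ] (Ω → ℝ)} (h : IsProj P) (f : Ω → ℝ) :
    ip f (P f) = ip (P f) (P f) := by
  rw [h.symm, h.idem]

lemma IsProj.one_sub {P : (Ω → ℝ) →ₗ[ℝ] (Ω → ℝ)} (h : IsProj P) :
    IsProj (LinearMap.id - P) := by
  constructor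
  · intro f g
    simp only [LinearMap.sub_apply, LinearMap.id_apply, ip_sub_left, ip_sub_right, h.symm]
  · intro f
    simp [h.idem]

lemma IsProj.sub {P Q : (Ω → ℝ) →ₗ[ℝ] (Ω → ℝ)} (h : IsProj P) (h' : IsProj Q)
    (h1 : ∀ f, P (Q f) = Q f) (h2 : ∀ f, Q (P f) = Q f) : IsProj (P - Q) := by
  constructor
  · intro f g
    simp only [LinearMap.sub_apply, ip_sub_left, ip_sub_right, h.symm, h'.symm]
  · intro f
    simp [h.idem, h'.idem, h1, h2]

/-- two projections commuting on `Q f` and `f` have a nonnegative pairing -/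
lemma IsProj.pair_nonneg {P Q : (Ω → ℝ) →ₗ[ℝ] (Ω → ℝ)} (h : IsProj P) (h' : IsProj Q)
    (f : Ω → ℝ) (h1 : P (Q f) = Q (P f)) : 0 ≤ ip (P f) (Q f) := by
  have : ip (P f) (Q f) = ip (Q (P f)) (Q (P f)) := by
    calc ip (P f) (Q f) = ip (P (P f)) (Q f) := by rw [h.idem]
      _ = ip (P f) (P (Q f)) := h.symm _ _
      _ = ip (P f) (Q (P f)) := by rw [h1]
      _ = ip (Q (P f)) (Q (P f)) := h'.ip_self _
  rw [this]; exact ip_self_nonneg _

lemma IsProj.min_dist {P : (Ω → ℝ) →ₗ[ℝ] (Ω → ℝ)} (h : IsProj P) (f g : Ω → ℝ) (hg : P g = g) :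
    ip (f - P f) (f - P f) ≤ ip (f - g) (f - g) := by
  have e : f - g = (f - P f) + (P f - g) := by abel
  have h0 : ip (f - P f) (P f - g) = 0 := by
    have : P f - g = P (f - g) := by rw [map_sub, hg]
    rw [this, ← h.symm, map_sub, h.idem, sub_self, ip_zero_left]
  rw [e, ip_add_left, ip_add_right, ip_add_right, h0, ip_comm (P f - g) (f - P f), h0]
  have := ip_self_nonneg (P f - g)
  linarith

/-- spectral lemma -/
theorem spectral (H : (Ω → ℝ) →ₗ[ℝ] (Ω → ℝ)) (hs : ∀ f g, ip (H f) g = ip f (H g)) (c : ℝ)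
    (hc : 0 ≤ c) (he : ∀ (η : ℝ) (v : Ω → ℝ), v ≠ 0 → H v = η • v → η = 0 ∨ c ≤ η) (f : Ω → ℝ) :
    c * ip f (H f) ≤ ip (H f) (H f) ∧
      ∃ f0, H f0 = 0 ∧ c * ip (f - f0) (f - f0) ≤ ip f (H f) := by
  classical
  let e := WithLp.linearEquiv 2 ℝ (Ω → ℝ)
  let H' : EuclideanSpace ℝ Ω →ₗ[ℝ] EuclideanSpace ℝ Ω :=
    e.symm.toLinearMap ∘ₗ H ∘ₗ e.toLinearMap
  have hin : ∀ u w : EuclideanSpace ℝ Ω, inner ℝ u w = ip (e u) (e w) := by
    intro u w
    simp [PiLp.inner_apply, ip, e, mul_comm]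
  have hH' : ∀ u, e (H' u) = H (e u) := by intro u; simp [H']
  have hsym : H'.IsSymmetric := by
    intro u w
    rw [hin, hin, hH', hH', hs]
  let b := hsym.eigenvectorBasis rfl
  let μ := hsym.eigenvalues rfl
  have hμ : ∀ i, μ i = 0 ∨ c ≤ μ i := by
    intro i
    apply he (μ i) (e (b i))
    · intro h0
      have : b i = 0 := by simpa using h0
      exact b.orthonormal.ne_zero i this
    · rw [← hH', hsym.apply_eigenvectorBasis rfl i]; simp [μ, b]
  have hrep : ∀ v i, b.repr (H' v) i = μ i * b.repr v i := fun v i =>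
    hsym.eigenvectorBasis_apply_self_apply rfl v i
  have hsum : ∀ u w : EuclideanSpace ℝ Ω, ip (e u) (e w) = ∑ i, b.repr u i * b.repr w i := by
    intro u w
    rw [← hin, ← b.repr.inner_map_map, PiLp.inner_apply]
    simp [mul_comm]
  obtain ⟨v, rfl⟩ : ∃ v, f = e v := ⟨e.symm f, by simp⟩
  refine ⟨?_, ?_⟩
  · rw [← hH', hsum, hsum, mul_sum]
    apply sum_le_sum
    intro i _
    rw [hrep]
    rcases hμ i with h | h
    · simp [h]
    · have h0 : 0 ≤ μ i := hc.trans h
      have := mul_le_mul_of_nonneg_right h (mul_nonneg h0 (mul_self_nonneg (b.repr v i)))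
      nlinarith
  · let w : EuclideanSpace ℝ Ω :=
      b.repr.symm (WithLp.toLp 2 fun i => if μ i = 0 then b.repr v i else 0)
    have hw : ∀ i, b.repr w i = if μ i = 0 then b.repr v i else 0 := by
      intro i; simp [w]
    refine ⟨e w, ?_, ?_⟩
    · rw [← hH']
      have : H' w = 0 := by
        apply b.repr.injective
        ext i
        rw [hrep, hw]
        by_cases h : μ i = 0 <;> simp [h]
      rw [this, map_zero]
    · rw [← hH', ← map_sub, hsum, hsum, mul_sum]
      apply sum_le_sum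
      intro i _
      rw [hrep, map_sub, PiLp.sub_apply, hw]
      by_cases h : μ i = 0
      · simp [h]
      · rcases hμ i with h' | h'
        · exact absurd h' h
        · simp only [h, if_false, sub_zero]
          have := mul_le_mul_of_nonneg_right h' (mul_self_nonneg (b.repr v i))
          nlinarith

/-! ### class averages -/

/-- the class of `x` -/
noncomputable def cls (r : Ω → Ω → Prop) (x : Ω) : Finset Ω := by
  classical exact univ.filter (r x)

@[simp] lemma mem_cls {r : Ω → Ω → Prop} {x y : Ω} : y ∈ cls r x ↔ r x y := by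
  simp [cls]

/-- average over the class -/
noncomputable def Eop (r : Ω → Ω → Prop) : (Ω → ℝ) →ₗ[ℝ] (Ω → ℝ) where
  toFun f x := (∑ y ∈ cls r x, f y) / (cls r x).card
  map_add' f g := by funext x; simp [sum_add_distrib, add_div]
  map_smul' c f := by funext x; simp [← mul_sum, mul_div_assoc]

lemma Eop_apply (r : Ω → Ω → Prop) (f : Ω → ℝ) (x : Ω) :
    Eop r f x = (∑ y ∈ cls r x, f y) / (cls r x).card := rfl

variable {r : Ω → Ω → Prop}

lemma cls_eq (hr : Equivalence r) {x y : Ω} (h : r x y) : cls r x = cls r y := by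
  ext z; simp only [mem_cls]
  exact ⟨fun h' => hr.trans (hr.symm h) h', fun h' => hr.trans h h'⟩

lemma card_cls_pos (hr : Equivalence r) (x : Ω) : (0 : ℝ) < (cls r x).card := by
  have : 0 < (cls r x).card := card_pos.mpr ⟨x, mem_cls.mpr (hr.refl x)⟩
  exact_mod_cast this

lemma Eop_congr (hr : Equivalence r) (f : Ω → ℝ) {x y : Ω} (h : r x y) :
    Eop r f x = Eop r f y := by
  rw [Eop_apply, Eop_apply, cls_eq hr h]

lemma Eop_eq_of_const (hr : Equivalence r) (f : Ω → ℝ) (x : Ω) (c : ℝ)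
    (hf : ∀ y, r x y → f y = c) : Eop r f x = c := by
  rw [Eop_apply, sum_congr rfl (fun y hy => hf y (mem_cls.mp hy)), sum_const, nsmul_eq_mul]
  have := card_cls_pos hr x
  field_simp

lemma Eop_of_inv (hr : Equivalence r) (f : Ω → ℝ) (hf : ∀ x y, r x y → f x = f y) :
    Eop r f = f := by
  funext x
  exact Eop_eq_of_const hr f x _ fun y hy => (hf x y hy).symm

lemma Eop_congr_fun (f g : Ω → ℝ) (x : Ω) (h : ∀ y, r x y → f y = g y) :
    Eop r f x = Eop r g x := by
  rw [Eop_apply, Eop_apply, sum_congr rfl (fun y hy => h y (mem_cls.mp hy))]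

lemma Eop_symm (hr : Equivalence r) (f g : Ω → ℝ) : ip (Eop r f) g = ip f (Eop r g) := by
  classical
  unfold ip
  simp only [Eop_apply]
  have h1 : ∀ x, (∑ y ∈ cls r x, f y) / (cls r x).card * g x
      = ∑ y, if r x y then f y * g x / (cls r x).card else 0 := by
    intro x
    rw [← sum_filter, div_mul_eq_mul_div, sum_mul, sum_div]
    apply sum_congr _ (fun _ _ => rfl)
    ext y; simp
  have h2 : ∀ y, f y * ((∑ x ∈ cls r y, g x) / (cls r y).card)
      = ∑ x, if r x y then f y * g x / (cls r x).card else 0 := by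
    intro y
    rw [← sum_filter, ← mul_div_assoc, mul_sum, sum_div]
    apply sum_congr
    · ext x; simp only [mem_cls, mem_filter, mem_univ, true_and]
      exact ⟨hr.symm, hr.symm⟩
    · intro x hx
      have : r x y := by simpa using hx
      rw [cls_eq hr this]
  simp only [h1, h2]
  exact sum_comm

lemma Eop_isProj (hr : Equivalence r) : IsProj (Eop r) :=
  ⟨Eop_symm hr, fun f => Eop_of_inv hr _ fun _ _ h => Eop_congr hr f h⟩

lemma sum_Eop (hr : Equivalence r) (f : Ω → ℝ) : ∑ x, Eop r f x = ∑ x, f x := by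
  have := Eop_symm hr f (fun _ => 1)
  rw [Eop_of_inv hr (fun _ => (1 : ℝ)) (fun _ _ _ => rfl)] at this
  simpa [ip] using this

lemma sum_le_of_cls (hr : Equivalence r) (F G : Ω → ℝ)
    (h : ∀ x, ∑ y ∈ cls r x, F y ≤ ∑ y ∈ cls r x, G y) : ∑ x, F x ≤ ∑ x, G x := by
  rw [← sum_Eop hr F, ← sum_Eop hr G]
  apply sum_le_sum
  intro x _
  rw [Eop_apply, Eop_apply]
  exact div_le_div_of_nonneg_right (h x) (card_cls_pos hr x).le

lemma Eop_le (hr : Equivalence r) (f : Ω → ℝ) (x : Ω) (L : ℝ) (h : ∀ y, r x y → f y ≤ L) :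
    Eop r f x ≤ L := by
  rw [Eop_apply, div_le_iff₀ (card_cls_pos hr x)]
  calc ∑ y ∈ cls r x, f y ≤ ∑ y ∈ cls r x, L := sum_le_sum fun y hy => h y (mem_cls.mp hy)
    _ = L * (cls r x).card := by rw [sum_const, nsmul_eq_mul, mul_comm]

lemma abs_Eop_le (hr : Equivalence r) (f : Ω → ℝ) (x : Ω) (L : ℝ) (h : ∀ y, r x y → |f y| ≤ L) :
    |Eop r f x| ≤ L := by
  rw [abs_le]
  constructor
  · have := Eop_le hr (-f) x L fun y hy => by
      have := h y hy; rw [abs_le] at this; simp only [Pi.neg_apply]; linarith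
    rw [map_neg] at this
    simp only [Pi.neg_apply] at this
    linarith
  · exact Eop_le hr f x L fun y hy => (le_abs_self _).trans (h y hy)

lemma sum_cls_sub_Eop (hr : Equivalence r) (f : Ω → ℝ) (x : Ω) :
    ∑ y ∈ cls r x, (f y - Eop r f x) = 0 := by
  rw [sum_sub_distrib, sum_const, nsmul_eq_mul, Eop_apply]
  have := card_cls_pos hr x
  field_simp
  ring

/-- transfer along an injection whose image is a union of classes -/
lemma Eop_transfer {A : Type*} [Fintype A] {r' : A → A → Prop} (Φ : A → Ω)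
    (hΦ : Function.Injective Φ) (a : A) (h : ∀ y, r (Φ a) y ↔ ∃ a', r' a a' ∧ Φ a' = y)
    (f : Ω → ℝ) : Eop r f (Φ a) = Eop r' (f ∘ Φ) a := by
  classical
  have : cls r (Φ a) = (cls r' a).image Φ := by
    ext y; simp [h]
  rw [Eop_apply, Eop_apply, this, sum_image (fun _ _ _ _ h => hΦ h),
    card_image_of_injective _ hΦ]
  rfl

lemma Eop_comp {A : Type*} [Fintype A] {r' : A → A → Prop} (Φ : A ≃ Ω)
    (h : ∀ a a', r (Φ a) (Φ a') ↔ r' a a') (f : Ω → ℝ) (a : A) :
    Eop r f (Φ a) = Eop r' (f ∘ Φ) a := by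
  apply Eop_transfer Φ Φ.injective
  intro y
  constructor
  · intro hy
    exact ⟨Φ.symm y, by rw [← h]; simpa using hy, by simp⟩
  · rintro ⟨a', h1, rfl⟩
    exact (h _ _).mpr h1

lemma Eop_refine_left {r' : Ω → Ω → Prop} (hr : Equivalence r) (hr' : Equivalence r')
    (h : ∀ x y, r x y → r' x y) (f : Ω → ℝ) : Eop r (Eop r' f) = Eop r' f :=
  Eop_of_inv hr _ fun x y hxy => Eop_congr hr' f (h x y hxy)

lemma eq_of_ip_eq {f g : Ω → ℝ} (h : ∀ u, ip f u = ip g u) : f = g := by
  have := h (f - g)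
  have h2 : ip (f - g) (f - g) ≤ 0 := by rw [ip_sub_left]; linarith
  exact sub_eq_zero.mp (eq_zero_of_ip_self _ h2)

lemma Eop_refine_right {r' : Ω → Ω → Prop} (hr : Equivalence r) (hr' : Equivalence r')
    (h : ∀ x y, r x y → r' x y) (f : Ω → ℝ) : Eop r' (Eop r f) = Eop r' f := by
  apply eq_of_ip_eq
  intro u
  rw [Eop_symm hr', Eop_symm hr, Eop_refine_left hr hr' h, ← Eop_symm hr']

/-- rectangle lemma: the `r`-average of an `r'`-invariant function agrees at `x` and `z` -/
lemma Eop_rect {r' : Ω → Ω → Prop} (x z : Ω) (φ ψ : Ω → Ω)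
    (h1 : ∀ y, r x y → r z (φ y) ∧ r' y (φ y) ∧ ψ (φ y) = y)
    (h2 : ∀ w, r z w → r x (ψ w) ∧ φ (ψ w) = w)
    (g : Ω → ℝ) (hg : ∀ y w, r' y w → g y = g w) : Eop r g x = Eop r g z := by
  rw [Eop_apply, Eop_apply]
  have hc : (cls r x).card = (cls r z).card := by
    apply card_nbij' φ ψ
    · intro y hy; simpa using (h1 y (by simpa using hy)).1
    · intro w hw; simpa using (h2 w (by simpa using hw)).1
    · intro y hy; exact (h1 y (by simpa using hy)).2.2
    · intro w hw; exact (h2 w (by simpa using hw)).2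
  have hs : ∑ y ∈ cls r x, g y = ∑ y ∈ cls r z, g y := by
    apply sum_nbij' φ ψ
    · intro y hy; simpa using (h1 y (by simpa using hy)).1
    · intro w hw; simpa using (h2 w (by simpa using hw)).1
    · intro y hy; exact (h1 y (by simpa using hy)).2.2
    · intro w hw; exact (h2 w (by simpa using hw)).2
    · intro y hy; exact hg _ _ (h1 y (by simpa using hy)).2.1
  rw [hc, hs]

/-- if `E r` preserves `r'`-invariance on an invariant family of functions, they commute -/
lemma comm_of_inv {P Q : (Ω → ℝ) →ₗ[ℝ] (Ω → ℝ)} (hP : IsProj P) (hQ : IsProj Q)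
    (h : ∀ f, Q (P (Q f)) = P (Q f)) (f : Ω → ℝ) : P (Q f) = Q (P f) := by
  apply eq_of_ip_eq
  intro u
  rw [← h, hQ.symm, hP.symm, hQ.symm, h, hQ.symm, hP.symm]

/-- Bochner assembly -/
theorem bochner {V : Type*} [Fintype V] [DecidableEq V] (A : V → V → ((Ω → ℝ) →ₗ[ℝ] (Ω → ℝ)))
    (hP : ∀ i j, i ≠ j → IsProj (A i j)) (h0 : ∀ i, A i i = 0) (hsym : ∀ i j, A i j = A j i)
    (h3 : ∀ f i j k, i ≠ j → i ≠ k → j ≠ k →
      0 ≤ ip (A i j f) (A i k f) + ip (A i j f) (A j k f) + ip (A i k f) (A j k f))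
    (h4 : ∀ f, 0 ≤ ∑ i, ∑ j, ∑ k, ∑ l,
      if i ≠ j ∧ i ≠ k ∧ i ≠ l ∧ j ≠ k ∧ j ≠ l ∧ k ≠ l then ip (A i j f) (A k l f) else 0)
    (f : Ω → ℝ) :
    ∃ f0, (∀ i j, A i j f0 = 0) ∧
      2 * ip (f - f0) (f - f0) ≤ ∑ i, ∑ j, ip (A i j f) (A i j f) := by
  let H : (Ω → ℝ) →ₗ[ℝ] (Ω → ℝ) := ∑ i, ∑ j, A i j
  have hH : ∀ g, H g = ∑ i, ∑ j, A i j g := by
    intro g; simp [H, LinearMap.sum_apply]
  have hP' : ∀ i j, IsProj (A i j) := by
    intro i j
    by_cases h : i = j
    · subst h; rw [h0]; exact ⟨fun f g => by simp [ip], fun f => by simp⟩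
    · exact hP i j h
  have hform : ∀ g, ip g (H g) = ∑ i, ∑ j, ip (A i j g) (A i j g) := by
    intro g
    rw [hH, ip_sum_right]
    apply sum_congr rfl; intro i _
    rw [ip_sum_right]
    exact sum_congr rfl fun j _ => (hP' i j).ip_self g
  have hs : ∀ f g, ip (H f) g = ip f (H g) := by
    intro f g
    rw [hH, hH, ip_sum_left, ip_sum_right]
    apply sum_congr rfl; intro i _
    rw [ip_sum_left, ip_sum_right]
    exact sum_congr rfl fun j _ => (hP' i j).symm f g
  have hB : ∀ g, 2 * ip g (H g) ≤ ip (H g) (H g) := by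
    intro g
    set X : V → V → V → V → ℝ := fun i j k l => ip (A i j g) (A k l g) with hX
    have hHH : ip (H g) (H g) = ∑ i, ∑ j, ∑ k, ∑ l, X i j k l := by
      rw [hH, ip_sum_left]
      apply sum_congr rfl; intro i _
      rw [ip_sum_left]
      apply sum_congr rfl; intro j _
      rw [ip_sum_right]
      apply sum_congr rfl; intro k _
      rw [ip_sum_right]
    have z1 : ∀ i k l, X i i k l = 0 := by intro i k l; simp [hX, h0, ip]
    have z2 : ∀ i j k, X i j k k = 0 := by intro i j k; simp [hX, h0, ip]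
    have s1 : ∀ i j k l, X i j k l = X j i k l := by intro i j k l; simp only [hX, hsym i j]
    have s2 : ∀ i j k l, X i j k l = X i j l k := by intro i j k l; simp only [hX, hsym k l]
    have s3 : ∀ i j k l, X i j k l = X k l i j := by intro i j k l; simp only [hX]; exact ip_comm _ _
    let Y : V → V → V → ℝ := fun i j k => if i ≠ j ∧ i ≠ k ∧ j ≠ k then X i j i k else 0
    have hdec : ∀ i j k l, X i j k l =
        (if k = i then (if l = j then X i j i j else 0) else 0) +
        (if k = j then (if l = i then X i j i j else 0) else 0) +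
        (if k = i then Y i j l else 0) + (if l = i then Y i j k else 0) +
        (if k = j then Y j i l else 0) + (if l = j then Y j i k else 0) +
        (if i ≠ j ∧ i ≠ k ∧ i ≠ l ∧ j ≠ k ∧ j ≠ l ∧ k ≠ l then X i j k l else 0) := by
      intro i j k l
      by_cases hij : i = j
      · subst hij; simp [Y, z1]
      by_cases hkl : k = l
      · subst hkl
        by_cases hki : k = i
        · subst hki; simp [Y, z2, hij]
        by_cases hkj : k = j
        · subst hkj; simp [Y, z2, hij, hki]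
        · simp [z2, hki, hkj]
      by_cases hki : k = i
      · subst hki
        by_cases hlj : l = j
        · subst hlj; simp [Y, hij, Ne.symm hij]
        · simp [Y, hij, hkl, Ne.symm hkl, hlj, Ne.symm hlj]
      by_cases hkj : k = j
      · subst hkj
        by_cases hli : l = i
        · subst hli; simp [Y, hij, Ne.symm hij, s2 l k k l]
        · simp [Y, hij, Ne.symm hij, hkl, Ne.symm hkl, hli, Ne.symm hli, s1 i k k l]
      by_cases hli : l = i
      · subst hli
        simp [Y, hij, hki, Ne.symm hki, hkj, Ne.symm hkj, s2 l j k l]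
      by_cases hlj : l = j
      · subst hlj
        simp [Y, hij, Ne.symm hij, hki, Ne.symm hki, hkj, Ne.symm hkj, s2 i l k l, s1 i l l k]
      · simp [hij, hki, Ne.symm hki, hkj, Ne.symm hkj, hli, Ne.symm hli, hlj, Ne.symm hlj, hkl]
    have hY : 0 ≤ ∑ i, ∑ j, ∑ k, Y i j k := by
      have e1 : ∑ i, ∑ j, ∑ k, Y j i k = ∑ i, ∑ j, ∑ k, Y i j k := sum_comm
      have e2 : ∑ i, ∑ j, ∑ k, Y k i j = ∑ i, ∑ j, ∑ k, Y i j k := by
        rw [sum_congr rfl (fun i _ => sum_comm), sum_comm]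
      have : 0 ≤ ∑ i, ∑ j, ∑ k, (Y i j k + Y j i k + Y k i j) := by
        refine sum_nonneg fun i _ => sum_nonneg fun j _ => sum_nonneg fun k _ => ?_
        by_cases h : i ≠ j ∧ i ≠ k ∧ j ≠ k
        · obtain ⟨h1, h2, h3'⟩ := h
          have := h3 g i j k h1 h2 h3'
          simp only [Y, h1, h2, h3', Ne.symm h1, Ne.symm h2, Ne.symm h3', ne_eq,
            not_false_eq_true, and_self, if_true]
          rw [s1 j i j k, s1 k i k j, s2 i k k j]
          exact this
        · have h' : ¬ (j ≠ i ∧ j ≠ k ∧ i ≠ k) := fun h' => h ⟨h'.1.symm, h'.2.2, h'.2.1⟩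
          have h'' : ¬ (k ≠ i ∧ k ≠ j ∧ i ≠ j) := fun h' => h ⟨h'.2.2, h'.1.symm, h'.2.1.symm⟩
          simp only [Y, if_neg h, if_neg h', if_neg h'']; simp
      simp only [sum_add_distrib] at this
      rw [e1, e2] at this
      linarith
    have hY' : ∑ i, ∑ j, ∑ k, Y j i k = ∑ i, ∑ j, ∑ k, Y i j k := sum_comm
    have key : ∑ i, ∑ j, ∑ k, ∑ l, X i j k l =
        2 * (∑ i, ∑ j, X i j i j) + 4 * (∑ i, ∑ j, ∑ k, Y i j k) +
        ∑ i, ∑ j, ∑ k, ∑ l,
          if i ≠ j ∧ i ≠ k ∧ i ≠ l ∧ j ≠ k ∧ j ≠ l ∧ k ≠ l then X i j k l else 0 := by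
      rw [sum_congr rfl fun i _ => sum_congr rfl fun j _ => sum_congr rfl fun k _ =>
        sum_congr rfl fun l _ => hdec i j k l]
      simp only [sum_add_distrib, sum_ite_eq', mem_univ, if_true, sum_ite_irrel, sum_const_zero]
      rw [hY']
      ring
    rw [hHH, key, hform]
    have := h4 g
    linarith
  obtain ⟨-, f0, hf0, hle⟩ := spectral H hs 2 (by norm_num) (by
    intro η v hv hη
    have h1 := hB v
    have h2 : 0 ≤ ip v (H v) := by
      rw [hform]; exact sum_nonneg fun i _ => sum_nonneg fun j _ => ip_self_nonneg _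
    rw [hη, ip_smul_right] at h2
    rw [hη, ip_smul_left, ip_smul_right] at h1
    have hp := ip_self_pos v hv
    have h3 : 0 ≤ η := by
      by_contra hc; push Not at hc; nlinarith
    rcases h3.eq_or_lt with h | h
    · left; exact h.symm
    · right
      by_contra hc; push Not at hc
      have : 0 < η * ip v v := mul_pos h hp
      nlinarith) f
  refine ⟨f0, ?_, by rw [← hform]; exact hle⟩
  intro i j
  have h1 := hform f0
  rw [hf0, ip_zero_right] at h1
  have h2 := (sum_eq_zero_iff_of_nonneg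
    (fun i _ => sum_nonneg fun j _ => ip_self_nonneg (A i j f0))).mp h1.symm i (mem_univ _)
  have h3 := (sum_eq_zero_iff_of_nonneg
    (fun j _ => ip_self_nonneg (A i j f0))).mp h2 j (mem_univ _)
  exact eq_zero_of_ip_self _ h3.le

end Crest.Agent.R299
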