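import Crest.Agent.R299.Avg

set_option autoImplicit false
set_option linter.unusedSectionVars false
open Finset

namespace Crest.Agent.R299

variable {Y : Type*} [Fintype Y] [DecidableEq Y]

/-- number of ones -/
def cnt (z : Y → Bool) : ℕ := ∑ y, (z y).toNat

/-- same number of ones -/
def rc (z z' : Y → Bool) : Prop := cnt z = cnt z'

lemma rc_equiv : Equivalence (rc (Y := Y)) :=
  ⟨fun _ => rfl, fun h => Eq.symm h, fun h h' => Eq.trans h h'⟩

omit [DecidableEq Y] in
lemma cnt_comp (z : Y → Bool) (σ : Equiv.Perm Y) : cnt (z ∘ σ) = cnt z := by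
  unfold cnt
  exact Equiv.sum_comp σ (fun y => (z y).toNat)

/-- precomposition with a swap as an involution of the cube -/
def tau (u v : Y) : (Y → Bool) ≃ (Y → Bool) where
  toFun z := z ∘ Equiv.swap u v
  invFun z := z ∘ Equiv.swap u v
  left_inv z := by funext y; simp
  right_inv z := by funext y; simp

omit [Fintype Y] in
lemma tau_apply (u v : Y) (z : Y → Bool) : tau u v z = z ∘ Equiv.swap u v := rfl

omit [Fintype Y] in
@[simp] lemma tau_tau (u v : Y) (z : Y → Bool) : tau u v (tau u v z) = z := by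
  funext y; simp [tau_apply]

lemma cnt_tau (u v : Y) (z : Y → Bool) : cnt (tau u v z) = cnt z := cnt_comp z _

omit [DecidableEq Y] in
lemma card_true (z : Y → Bool) : Fintype.card {y // z y = true} = cnt z := by
  classical
  rw [Fintype.card_subtype, cnt, card_filter]
  apply sum_congr rfl
  intro y _
  cases z y <;> simp

omit [DecidableEq Y] in
lemma exists_perm_of_cnt {z z' : Y → Bool} (h : cnt z = cnt z') :
    ∃ σ : Equiv.Perm Y, z' = z ∘ σ := by
  classical
  have h1 : Fintype.card {y // z' y = true} = Fintype.card {y // z y = true} := by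
    rw [card_true, card_true, h]
  have h2 : Fintype.card {y // z' y = false} = Fintype.card {y // z y = false} := by
    have a : ∀ w : Y → Bool, Fintype.card {y // w y = false}
        = Fintype.card Y - Fintype.card {y // w y = true} := by
      intro w
      rw [← Fintype.card_subtype_compl]
      exact Fintype.card_congr (Equiv.subtypeEquivRight (by intro y; simp))
    rw [a, a, h1]
  have e : ∀ c : Bool, {y // z' y = c} ≃ {y // z y = c} := by
    intro c
    cases c
    · exact Fintype.equivOfCardEq h2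
    · exact Fintype.equivOfCardEq h1
  refine ⟨Equiv.ofFiberEquiv e, ?_⟩
  funext y
  exact (Equiv.ofFiberEquiv_map e y).symm

lemma inv_of_tau {h : (Y → Bool) → ℝ} (hh : ∀ u v z, h (tau u v z) = h z) (z z' : Y → Bool)
    (hz : rc z z') : h z = h z' := by
  obtain ⟨σ, rfl⟩ := exists_perm_of_cnt hz
  clear hz
  induction σ using Equiv.Perm.swap_induction_on' generalizing z with
  | one => rfl
  | mul_swap f x y _ ih =>
    have : z ∘ ⇑(f * Equiv.swap x y) = tau x y (z ∘ f) := by
      funext a; simp [tau_apply]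
    rw [this, hh, ← ih]

/-- transposition Laplacian -/
def Tlap : ((Y → Bool) → ℝ) →ₗ[ℝ] ((Y → Bool) → ℝ) where
  toFun h z := ∑ u, ∑ v, (h z - h (tau u v z))
  map_add' f g := by
    funext z; simp only [Pi.add_apply, ← sum_add_distrib]
    exact sum_congr rfl fun u _ => sum_congr rfl fun v _ => by ring
  map_smul' c f := by
    funext z; simp only [Pi.smul_apply, smul_eq_mul, RingHom.id_apply, mul_sum]
    exact sum_congr rfl fun u _ => sum_congr rfl fun v _ => by ring

lemma Tlap_apply (h : (Y → Bool) → ℝ) (z : Y → Bool) :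
    Tlap h z = ∑ u, ∑ v, (h z - h (tau u v z)) := rfl

lemma sum_invol_form {Ω : Type*} (S : Finset Ω) (s : Ω → Ω) (hs : ∀ x, s (s x) = x)
    (hS : ∀ x ∈ S, s x ∈ S) (f g : Ω → ℝ) :
    ∑ x ∈ S, f x * (g x - g (s x)) = (1 / 2) * ∑ x ∈ S, (f x - f (s x)) * (g x - g (s x)) := by
  have : ∑ x ∈ S, f x * (g x - g (s x)) = ∑ x ∈ S, f (s x) * (g (s x) - g x) := by
    apply sum_nbij' s s hS hS (fun x _ => hs x) (fun x _ => hs x)
    intro x _; rw [hs]
  have h2 : ∑ x ∈ S, (f x - f (s x)) * (g x - g (s x))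
      = ∑ x ∈ S, f x * (g x - g (s x)) + ∑ x ∈ S, f (s x) * (g (s x) - g x) := by
    rw [← sum_add_distrib]; exact sum_congr rfl fun x _ => by ring
  rw [h2, ← this]; ring

lemma ip_Tlap (f g : (Y → Bool) → ℝ) : ip f (Tlap g) =
    (1 / 2) * ∑ u, ∑ v, ∑ z, (f z - f (tau u v z)) * (g z - g (tau u v z)) := by
  unfold ip
  simp only [Tlap_apply, mul_sum]
  rw [sum_comm]
  apply sum_congr rfl; intro u _
  rw [sum_comm]
  apply sum_congr rfl; intro v _
  rw [← mul_sum]
  exact sum_invol_form univ (tau u v) (tau_tau u v) (fun _ _ => mem_univ _) f g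

lemma Tlap_eigen (η : ℝ) (h : (Y → Bool) → ℝ) (hh : h ≠ 0) (he : Tlap h = η • h) :
    η = 0 ∨ 4 ≤ η := by
  by_contra hc
  push Not at hc
  obtain ⟨hη0, hη⟩ := hc
  have hinv : ∀ u v z, h (tau u v z) = h z := by
    by_contra hne
    push Not at hne
    obtain ⟨u0, v0, z0, hne⟩ := hne
    obtain ⟨⟨x, y, z⟩, -, hmax⟩ := exists_max_image (univ : Finset (Y × Y × (Y → Bool)))
      (fun t => h (tau t.1 t.2.1 t.2.2) - h t.2.2) ⟨(u0, v0, z0), mem_univ _⟩
    simp only [mem_univ, forall_true_left] at hmax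
    set L := h (tau x y z) - h z with hL
    have hmax' : ∀ u v w, h (tau u v w) - h w ≤ L := fun u v w => hmax (u, v, w)
    have hLpos : 0 < L := by
      have h1 := hmax' u0 v0 z0
      have h2 := hmax' u0 v0 (tau u0 v0 z0)
      rw [tau_tau] at h2
      rcases lt_or_gt_of_ne hne with h3 | h3 <;> linarith
    have hxy : x ≠ y := by
      rintro rfl
      have : tau x x z = z := by funext a; simp [tau_apply]
      rw [hL, this] at hLpos; simp at hLpos
    have e1 : Tlap h (tau x y z) - Tlap h z = η * L := by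
      rw [he]; simp only [Pi.smul_apply, smul_eq_mul, hL]; ring
    have e2 : Tlap h (tau x y z) = ∑ u, ∑ v, (h (tau x y z) - h (tau x y (tau u v z))) := by
      rw [Tlap_apply, ← Equiv.sum_comp (Equiv.swap x y)]
      apply sum_congr rfl; intro u _
      rw [← Equiv.sum_comp (Equiv.swap x y)]
      apply sum_congr rfl; intro v _
      congr 2
      funext a
      simp only [tau_apply, Function.comp]
      rw [Equiv.swap_apply_apply]
      simp
    have e3 : Tlap h (tau x y z) - Tlap h z =
        ∑ u, ∑ v, (L - (h (tau x y (tau u v z)) - h (tau u v z))) := by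
      rw [e2, Tlap_apply, ← sum_sub_distrib]
      apply sum_congr rfl; intro u _
      rw [← sum_sub_distrib]
      apply sum_congr rfl; intro v _
      rw [hL]; ring
    have hnn : ∀ u v, 0 ≤ L - (h (tau x y (tau u v z)) - h (tau u v z)) := by
      intro u v; linarith [hmax' x y (tau u v z)]
    have e4 : 4 * L ≤ ∑ u, ∑ v, (L - (h (tau x y (tau u v z)) - h (tau u v z))) := by
      have a1 : 2 * L ≤ ∑ v, (L - (h (tau x y (tau x v z)) - h (tau x v z))) := by
        refine le_trans ?_ (single_le_sum (fun v _ => hnn x v) (mem_univ y))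
        rw [tau_tau]; linarith
      have a2 : 2 * L ≤ ∑ v, (L - (h (tau x y (tau y v z)) - h (tau y v z))) := by
        refine le_trans ?_ (single_le_sum (fun v _ => hnn y v) (mem_univ x))
        have : tau y x z = tau x y z := by simp [tau_apply, Equiv.swap_comm]
        rw [this, tau_tau]; linarith
      have a3 := sum_le_sum_of_subset_of_nonneg (subset_univ ({x, y} : Finset Y))
        (f := fun u => ∑ v, (L - (h (tau x y (tau u v z)) - h (tau u v z))))
        (fun u _ _ => sum_nonneg fun v _ => hnn u v)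
      rw [sum_pair hxy] at a3
      linarith
    rw [← e3, e1] at e4
    nlinarith
  have : Tlap h = 0 := by
    funext z; simp [Tlap_apply, hinv]
  rw [this] at he
  rcases smul_eq_zero.mp he.symm with h1 | h1
  · exact hη0 h1
  · exact hh h1

/-- Poincaré inequality on the slices -/
theorem cube_poincare (h : (Y → Bool) → ℝ) :
    8 * ip (h - Eop rc h) (h - Eop rc h) ≤ ∑ u, ∑ v, ∑ z, (h z - h (tau u v z)) ^ 2 := by
  obtain ⟨-, h0, hh0, hle⟩ := spectral (Tlap (Y := Y)) (by
    intro f g
    rw [ip_comm, ip_Tlap, ip_Tlap]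
    congr 1
    exact sum_congr rfl fun u _ => sum_congr rfl fun v _ => sum_congr rfl fun z _ => mul_comm _ _)
    4 (by norm_num) Tlap_eigen h
  have hinv : ∀ u v z, h0 (tau u v z) = h0 z := by
    intro u v z
    have h1 := ip_Tlap h0 h0
    rw [hh0, ip_zero_right] at h1
    have h2 : ∑ u, ∑ v, ∑ z, (h0 z - h0 (tau u v z)) * (h0 z - h0 (tau u v z)) = 0 := by linarith
    have h3 := (sum_eq_zero_iff_of_nonneg (fun u _ => sum_nonneg fun v _ => sum_nonneg
      fun z _ => mul_self_nonneg _)).mp h2 u (mem_univ _)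
    have h4 := (sum_eq_zero_iff_of_nonneg (fun v _ => sum_nonneg
      fun z _ => mul_self_nonneg _)).mp h3 v (mem_univ _)
    have h5 := (sum_eq_zero_iff_of_nonneg (fun z _ => mul_self_nonneg _)).mp h4 z (mem_univ _)
    have := mul_self_eq_zero.mp h5
    linarith
  have h1 := (Eop_isProj rc_equiv).min_dist h h0 (Eop_of_inv rc_equiv _ (inv_of_tau hinv))
  rw [ip_Tlap] at hle
  simp only [sq]
  linarith

omit [Fintype Y] in
lemma swap_decomp (Φ : Y → Y → ℝ) (hΦ : ∀ a b, Φ a b = Φ b a) (u v k l : Y) (hkl : k ≠ l) :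
    Φ k l - Φ (Equiv.swap u v k) (Equiv.swap u v l) =
      (if u = k then (if v ≠ k ∧ v ≠ l then Φ k l - Φ v l else 0) else 0) +
      (if v = k then (if u ≠ k ∧ u ≠ l then Φ k l - Φ u l else 0) else 0) +
      (if u = l then (if v ≠ k ∧ v ≠ l then Φ k l - Φ k v else 0) else 0) +
      (if v = l then (if u ≠ k ∧ u ≠ l then Φ k l - Φ k u else 0) else 0) := by
  have hlk := hkl.symm
  by_cases huk : u = k
  · subst huk
    by_cases hvu : v = u
    · subst hvu; simp [hkl]
    by_cases hvl : v = l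
    · subst hvl; simp [hkl, hlk, hΦ v u]
    · simp [hkl, hvu, hvl, Equiv.swap_apply_of_ne_of_ne hlk (Ne.symm hvl)]
  by_cases hul : u = l
  · subst hul
    by_cases hvu : v = u
    · subst hvu; simp [hlk]
    by_cases hvk : v = k
    · subst hvk; simp [hkl, hlk, hΦ u v]
    · simp [hlk, hvu, hvk, Equiv.swap_apply_of_ne_of_ne hkl (Ne.symm hvk)]
  by_cases hvk : v = k
  · subst hvk
    simp [huk, hul, hkl, Equiv.swap_apply_of_ne_of_ne (Ne.symm hul) hlk]
  by_cases hvl : v = l
  · subst hvl
    simp [huk, hul, hlk, Equiv.swap_apply_of_ne_of_ne (Ne.symm huk) hkl]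
  · simp [huk, hul, hvk, hvl, Equiv.swap_apply_of_ne_of_ne (Ne.symm huk) (Ne.symm hvk),
      Equiv.swap_apply_of_ne_of_ne (Ne.symm hul) (Ne.symm hvl)]

lemma sum_off_two (φ : Y → ℝ) (k l : Y) (hkl : k ≠ l) :
    ∑ j, (if j ≠ k ∧ j ≠ l then φ j else 0) = ∑ j, φ j - φ k - φ l := by
  have : ∀ j, (if j ≠ k ∧ j ≠ l then φ j else 0)
      = φ j - (if j = k then φ k else 0) - (if j = l then φ l else 0) := by
    intro j
    by_cases h1 : j = k
    · subst h1; simp [hkl]
    by_cases h2 : j = l
    · subst h2; simp [h1]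
    · simp [h1, h2]
  simp only [this, sum_sub_distrib, sum_ite_eq', mem_univ, if_true]

lemma sum_off_one (φ : Y → ℝ) (k : Y) :
    ∑ j, (if j ≠ k then φ j else 0) = ∑ j, φ j - φ k := by
  have : ∀ j, (if j ≠ k then φ j else 0) = φ j - (if j = k then φ k else 0) := by
    intro j
    by_cases h1 : j = k
    · subst h1; simp
    · simp [h1]
  simp only [this, sum_sub_distrib, sum_ite_eq', mem_univ, if_true]

/-- pure algebra on symmetric arrays with zero diagonal and zero total -/
lemma array_facts (c : Y → Y → ℝ) (hs : ∀ k l, c k l = c l k) (hd : ∀ k, c k k = 0)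
    (h0 : ∑ k, ∑ l, c k l = 0) (m : ℝ) (hm : m = Fintype.card Y) (hm2 : 2 ≤ m) (e : Y → Y → ℝ)
    (he : ∀ k l, e k l = m * c k l + ∑ j, c k j + ∑ j, c l j) :
    (∀ k l, k ≠ l → ∑ u, ∑ v, (e k l - e (Equiv.swap u v k) (Equiv.swap u v l))
        = 4 * m * (m - 1) * c k l) ∧
      ∑ u, ∑ v, ∑ j, (if j ≠ u ∧ j ≠ v then (e u j - e v j) ^ 2 else 0)
        ≤ 4 * m * (m - 1) ^ 2 * ∑ k, ∑ l, c k l ^ 2 := by
  set C : Y → ℝ := fun k => ∑ j, c k j with hC
  have he' : ∀ k l, e k l = m * c k l + C k + C l := he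
  have hes : ∀ k l, e k l = e l k := by intro k l; rw [he', he', hs k l]; ring
  have hC0 : ∑ k, C k = 0 := h0
  have hrow : ∀ k, ∑ j, e k j = 2 * m * C k := by
    intro k
    simp only [he', sum_add_distrib, ← mul_sum, hC0, sum_const, card_univ, nsmul_eq_mul, ← hm]
    simp only [hC]; ring
  have hdiag : ∀ k, e k k = 2 * C k := by intro k; rw [he', hd]; ring
  set s := ∑ k, ∑ l, c k l ^ 2 with hsdef
  set Q := ∑ k, C k ^ 2 with hQ
  have hcC : ∑ k, ∑ l, c k l * (C k + C l) = 2 * Q := by
    simp only [mul_add, sum_add_distrib]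
    have a1 : ∑ k, ∑ l, c k l * C k = Q := by
      simp only [← sum_mul]; exact sum_congr rfl fun k _ => by simp only [hC]; ring
    have a2 : ∑ k, ∑ l, c k l * C l = Q := by
      rw [sum_comm, ← a1]
      exact sum_congr rfl fun k _ => sum_congr rfl fun l _ => by rw [hs]
    rw [a1, a2]; ring
  have hCC : ∑ k, ∑ l, (C k + C l) ^ 2 = 2 * m * Q := by
    have : ∀ k l, (C k + C l) ^ 2 = C k ^ 2 + C l ^ 2 + 2 * (C k * C l) := by intro k l; ring
    simp only [this, sum_add_distrib, ← mul_sum, ← sum_mul, hC0, sum_const, card_univ,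
      nsmul_eq_mul, ← hm, ← hQ]
    ring
  have hQs : 2 * Q ≤ (m - 2) * s := by
    have hQ0 : 0 ≤ Q := sum_nonneg fun k _ => sq_nonneg _
    have hs0 : 0 ≤ s := sum_nonneg fun k _ => sum_nonneg fun l _ => sq_nonneg _
    let w : Y → Y → ℝ := fun k l => if l ≠ k then C k + C l else 0
    have b1 : ∑ p : Y × Y, c p.1 p.2 * w p.1 p.2 = 2 * Q := by
      rw [← hcC, Fintype.sum_prod_type]
      refine sum_congr rfl fun k _ => sum_congr rfl fun l _ => ?_
      by_cases h : l = k
      · subst h; simp [hd]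
      · simp [w, h]
    have b2 : ∑ p : Y × Y, w p.1 p.2 ^ 2 = 2 * (m - 2) * Q := by
      rw [Fintype.sum_prod_type]
      have : ∀ k, ∑ l, w k l ^ 2 = ∑ l, (C k + C l) ^ 2 - 4 * C k ^ 2 := by
        intro k
        have := sum_off_one (fun l => (C k + C l) ^ 2) k
        rw [show (4 : ℝ) * C k ^ 2 = (C k + C k) ^ 2 by ring, ← this]
        exact sum_congr rfl fun l _ => by by_cases h : l = k <;> simp [w, h]
      simp only [this, sum_sub_distrib, hCC, ← mul_sum, ← hQ]; ring
    have b3 : ∑ p : Y × Y, c p.1 p.2 ^ 2 = s := by rw [Fintype.sum_prod_type]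
    have cs := sum_mul_sq_le_sq_mul_sq univ (fun p : Y × Y => c p.1 p.2) (fun p => w p.1 p.2)
    rw [b1, b2, b3] at cs
    rcases hQ0.eq_or_lt with h | h
    · rw [← h]; nlinarith
    · by_contra hc; push Not at hc; nlinarith
  constructor
  · intro k l hkl
    simp only [swap_decomp e hes _ _ k l hkl, sum_add_distrib, sum_ite_eq', mem_univ, if_true,
      sum_ite_irrel, sum_const_zero]
    have a1 : ∑ v, (if v ≠ k ∧ v ≠ l then e k l - e v l else 0)
        = m * e k l - 2 * m * C l - (e k l - e l l) := by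
      rw [sum_off_two (fun v => e k l - e v l) k l hkl, sum_sub_distrib]
      simp only [hes _ l, hrow, sum_const, card_univ, nsmul_eq_mul, ← hm]; ring
    have a2 : ∑ v, (if v ≠ k ∧ v ≠ l then e k l - e k v else 0)
        = m * e k l - 2 * m * C k - (e k l - e k k) := by
      rw [sum_off_two (fun v => e k l - e k v) k l hkl, sum_sub_distrib]
      simp only [hrow, sum_const, card_univ, nsmul_eq_mul, ← hm]; ring
    rw [a1, a2, hdiag, hdiag, he']; ring
  · have a1 : ∀ j, ∑ u, ∑ v, (if j ≠ u ∧ j ≠ v then (e u j - e v j) ^ 2 else 0)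
        = 2 * (m - 1) * (∑ u, e u j ^ 2 - e j j ^ 2) - 2 * (∑ u, e u j - e j j) ^ 2 := by
      intro j
      let t : Y → ℝ := fun u => if u ≠ j then 1 else 0
      have ht : ∑ u, t u = m - 1 := by
        rw [sum_off_one (fun _ => (1 : ℝ)) j]; simp [hm]
      have ht1 : ∑ u, t u * e u j = ∑ u, e u j - e j j := by
        rw [← sum_off_one (fun u => e u j) j]
        exact sum_congr rfl fun u _ => by by_cases h : u = j <;> simp [t, h]
      have ht2 : ∑ u, t u * e u j ^ 2 = ∑ u, e u j ^ 2 - e j j ^ 2 := by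
        rw [← sum_off_one (fun u => e u j ^ 2) j]
        exact sum_congr rfl fun u _ => by by_cases h : u = j <;> simp [t, h]
      have : ∀ u v, (if j ≠ u ∧ j ≠ v then (e u j - e v j) ^ 2 else 0)
          = (t u * e u j ^ 2) * t v + t u * (t v * e v j ^ 2)
            - 2 * ((t u * e u j) * (t v * e v j)) := by
        intro u v
        by_cases h : u = j
        · subst h; simp [t]
        by_cases h' : v = j
        · subst h'; simp [t]
        · simp [t, h, h', Ne.symm h, Ne.symm h']; ring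
      simp only [this, sum_sub_distrib, sum_add_distrib, ← mul_sum, ← sum_mul, ht, ht1, ht2]
      ring
    have a2 : ∑ u, ∑ v, ∑ j, (if j ≠ u ∧ j ≠ v then (e u j - e v j) ^ 2 else 0)
        = ∑ j, ∑ u, ∑ v, (if j ≠ u ∧ j ≠ v then (e u j - e v j) ^ 2 else 0) := by
      rw [sum_congr rfl (fun u _ => sum_comm), sum_comm]
    have a3 : ∑ j, ∑ u, e u j ^ 2 = m ^ 2 * s + 4 * m * Q + 2 * m * Q := by
      rw [sum_comm]
      have : ∀ k l, e k l ^ 2 = m ^ 2 * c k l ^ 2 + 2 * m * (c k l * (C k + C l))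
          + (C k + C l) ^ 2 := by intro k l; rw [he']; ring
      simp only [this, sum_add_distrib, ← mul_sum, hcC, hCC, ← hsdef]; ring
    have a4 : ∀ j, ∑ u, e u j = 2 * m * C j := by
      intro j; rw [← hrow]; exact sum_congr rfl fun u _ => hes _ _
    rw [a2]
    simp only [a1, a4, hdiag, sum_sub_distrib, ← mul_sum, a3]
    have a5 : ∑ j, (2 * C j) ^ 2 = 4 * Q := by
      rw [hQ, mul_sum]; exact sum_congr rfl fun j _ => by ring
    have a6 : ∑ j, (2 * m * C j - 2 * C j) ^ 2 = 4 * (m - 1) ^ 2 * Q := by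
      rw [hQ, mul_sum]; exact sum_congr rfl fun j _ => by ring
    rw [a5, a6]
    have : 0 ≤ m * (m - 1) := by nlinarith
    nlinarith [mul_le_mul_of_nonneg_left hQs this]

end Crest.Agent.R299
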