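import Crest.Agent.R299.ThreeRow2

set_option autoImplicit false
set_option linter.unusedSectionVars false
open Finset

namespace Crest.Agent.R299

variable {ι γ : Type*} [Fintype ι] [DecidableEq ι] [DecidableEq γ]

lemma toNat_inj' {p q : Bool} (h : p.toNat = q.toNat) : p = q := by
  cases p <;> cases q <;> simp_all

lemma rel_mono {a b : γ → ι} {S0 S : Finset γ} (hR : Rows a b S) (hs : S0 ⊆ S) {x y : ι → Bool}
    (h : rel a b S0 x y) : rel a b S x y := by
  have ha : ∀ c ∈ S, c ∉ S0 → x (a c) = y (a c) := fun c hc hn => h.1.1 _ fun c' hc' =>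
    ⟨fun e => hn (by rw [hR.ia _ hc _ (hs hc') e]; exact hc'), hR.ab _ hc _ (hs hc')⟩
  have hb : ∀ c ∈ S, c ∉ S0 → x (b c) = y (b c) := fun c hc hn => h.1.1 _ fun c' hc' =>
    ⟨(hR.ab _ (hs hc') _ hc).symm, fun e => hn (by rw [hR.ib _ hc _ (hs hc') e]; exact hc')⟩
  refine ⟨⟨fun e he => h.1.1 e fun c hc => he c (hs hc), fun c hc => ?_⟩, ?_⟩
  · by_cases hn : c ∈ S0
    · exact h.1.2 c hn
    · rw [ha c hc hn, hb c hc hn]
  · rw [← sum_sdiff hs, ← sum_sdiff hs, h.2]
    congr 1
    exact sum_congr rfl fun c hc => by rw [ha c (mem_sdiff.mp hc).1 (mem_sdiff.mp hc).2]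

/-- take the coordinates in the support from `z`, the others from `y` -/
noncomputable def mix (a b : γ → ι) (T : Finset γ) (z y : ι → Bool) : ι → Bool := by
  classical exact fun e => if off a b T e then y e else z e

lemma mix_off {a b : γ → ι} {T : Finset γ} (z y : ι → Bool) {e : ι} (h : off a b T e) :
    mix a b T z y e = y e := by simp [mix, h]
lemma mix_on {a b : γ → ι} {T : Finset γ} (z y : ι → Bool) {e : ι} (h : ¬ off a b T e) :
    mix a b T z y e = z e := by simp [mix, h]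

lemma not_off_a {a b : γ → ι} {T : Finset γ} {c : γ} (hc : c ∈ T) : ¬ off a b T (a c) :=
  fun h => (h c hc).1 rfl
lemma not_off_b {a b : γ → ι} {T : Finset γ} {c : γ} (hc : c ∈ T) : ¬ off a b T (b c) :=
  fun h => (h c hc).2 rfl

/-- disjoint supports -/
def Disj (a b : γ → ι) (S : Finset γ) (a' b' : γ → ι) (T : Finset γ) : Prop :=
  ∀ c ∈ S, off a' b' T (a c) ∧ off a' b' T (b c)

lemma Disj.symm {a b a' b' : γ → ι} {S T : Finset γ} (h : Disj a b S a' b' T) :
    Disj a' b' T a b S := fun d hd =>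
  ⟨fun c hc => ⟨((h c hc).1 d hd).1.symm, ((h c hc).2 d hd).1.symm⟩,
    fun c hc => ⟨((h c hc).1 d hd).2.symm, ((h c hc).2 d hd).2.symm⟩⟩

lemma Disj.off {a b a' b' : γ → ι} {S T : Finset γ} (h : Disj a b S a' b' T) {e : ι}
    (he : ¬ off a' b' T e) : off a b S e := fun c hc =>
  ⟨fun h1 => he (h1 ▸ (h c hc).1), fun h1 => he (h1 ▸ (h c hc).2)⟩

lemma rel_mix {a b a' b' : γ → ι} {S T : Finset γ} (hd : Disj a b S a' b' T) {u v u' v' : ι → Bool}
    (h : rel a b S u v) (hu : ∀ e, off a' b' T e → u' e = u e) (hv : ∀ e, off a' b' T e → v' e = v e)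
    (huv : ∀ e, ¬ off a' b' T e → u' e = v' e) : rel a b S u' v' := by
  refine ⟨⟨fun e he => ?_, fun c hc => ?_⟩, ?_⟩
  · by_cases h1 : off a' b' T e
    · rw [hu e h1, hv e h1]; exact h.1.1 e he
    · exact huv e h1
  · rw [hu _ (hd c hc).1, hu _ (hd c hc).2, hv _ (hd c hc).1, hv _ (hd c hc).2]; exact h.1.2 c hc
  · rw [sum_congr rfl (fun c hc => by rw [hu _ (hd c hc).1]), h.2]
    exact sum_congr rfl (fun c hc => by rw [hv _ (hd c hc).1])

lemma Eop_comm_disj {a b a' b' : γ → ι} {S T : Finset γ} (hd : Disj a b S a' b' T)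
    (f : (ι → Bool) → ℝ) :
    Eop (rel a b S) (Eop (rel a' b' T) f) = Eop (rel a' b' T) (Eop (rel a b S) f) := by
  apply comm_of_inv (Eop_isProj (rel_equiv _ _ _)) (Eop_isProj (rel_equiv _ _ _))
  intro f
  apply Eop_of_inv (rel_equiv _ _ _)
  intro x z hxz
  have half : ∀ x z, rel a' b' T x z → ∀ y, rel a b S x y → rel a b S z (mix a' b' T z y) ∧
      rel a' b' T y (mix a' b' T z y) ∧ mix a' b' T x (mix a' b' T z y) = y := by
    intro x z hxz y hy
    refine ⟨rel_mix hd hy (fun e he => (hxz.1.1 e he).symm) (fun e he => mix_off _ _ he)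
      (fun e he => (mix_on _ _ he).symm), ?_, ?_⟩
    · refine rel_mix hd.symm hxz (fun e he => (hy.1.1 e he).symm) (fun e he => ?_) (fun e he => ?_)
      · by_cases h1 : off a' b' T e
        · rw [mix_off _ _ h1, ← hy.1.1 e he, hxz.1.1 e h1]
        · rw [mix_on _ _ h1]
      · rw [mix_off _ _ (hd.symm.off he)]
    · funext e
      by_cases h1 : off a' b' T e
      · rw [mix_off _ _ h1, mix_off _ _ h1]
      · rw [mix_on _ _ h1]; exact hy.1.1 e (hd.off h1)
  exact Eop_rect x z (mix a' b' T z) (mix a' b' T x) (half x z hxz)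
    (fun w hw => ⟨(half z x ((rel_equiv _ _ _).symm hxz) w hw).1,
      (half z x ((rel_equiv _ _ _).symm hxz) w hw).2.2⟩) _
    (fun y w h => Eop_congr (rel_equiv _ _ _) f h)

/-- two pairs of rows crossing in a two-by-two block -/
structure Cross (a b a' b' : γ → ι) (S0 T0 : Finset γ) (k l i j : γ) : Prop where
  Rp : Rows a b (insert k (insert l S0))
  Rq : Rows a' b' (insert i (insert j T0))
  kl : k ≠ l
  kS : k ∉ S0
  lS : l ∉ S0
  ij : i ≠ j
  iT : i ∉ T0
  jT : j ∉ T0
  e1 : a k = a' i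
  e2 : b k = a' j
  e3 : a l = b' i
  e4 : b l = b' j
  dp : Disj a b S0 a' b' (insert i (insert j T0))
  dq : Disj a' b' T0 a b (insert k (insert l S0))

variable {a b a' b' : γ → ι} {S0 T0 : Finset γ} {k l i j : γ}

lemma Cross.symm (h : Cross a b a' b' S0 T0 k l i j) : Cross a' b' a b T0 S0 i j k l :=
  ⟨h.Rq, h.Rp, h.ij, h.iT, h.jT, h.kl, h.kS, h.lS, h.e1.symm, h.e3.symm, h.e2.symm, h.e4.symm,
    h.dq, h.dp⟩

lemma Cross.sw_eq (h : Cross a b a' b' S0 T0 k l i j) : sw a' b' i j = sw a b k l := by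
  unfold sw; rw [h.e1, h.e2, h.e3, h.e4, sw4_trans]

lemma Cross.Dc_iff (h : Cross a b a' b' S0 T0 k l i j) (x : ι → Bool) :
    Dc a' b' i j x ↔ Dc a b k l x := by
  unfold Dc; rw [h.e1, h.e2, h.e3, h.e4, D4_trans]

lemma mem_k (S0 : Finset γ) (k l : γ) : k ∈ insert k (insert l S0) := mem_insert_self _ _
lemma mem_l (S0 : Finset γ) (k l : γ) : l ∈ insert k (insert l S0) :=
  mem_insert_of_mem (mem_insert_self _ _)
lemma sub_kl (S0 : Finset γ) (k l : γ) : S0 ⊆ insert k (insert l S0) :=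
  (subset_insert _ _).trans (subset_insert _ _)

lemma Cross.sum_p (h : Cross a b a' b' S0 T0 k l i j) (φ : γ → ℕ) :
    ∑ c ∈ insert k (insert l S0), φ c = φ k + φ l + ∑ c ∈ S0, φ c := by
  rw [sum_insert (by simp [h.kl, h.kS]), sum_insert h.lS, add_assoc]

lemma Cross.off0 (h : Cross a b a' b' S0 T0 k l i j) :
    off a b S0 (a k) ∧ off a b S0 (b k) ∧ off a b S0 (a l) ∧ off a b S0 (b l) := by
  have := h.dp.symm
  rw [h.e1, h.e2, h.e3, h.e4]
  exact ⟨(this i (mem_k _ _ _)).1, (this j (mem_l _ _ _)).1, (this i (mem_k _ _ _)).2,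
    (this j (mem_l _ _ _)).2⟩

lemma Cross.restrict (h : Cross a b a' b' S0 T0 k l i j) {x y : ι → Bool}
    (hxy : rel a b (insert k (insert l S0)) x y) (h1 : x (a k) = y (a k)) (h2 : x (a l) = y (a l)) :
    rel a b S0 x y := by
  have c1 := hxy.1.2 k (mem_k _ _ _)
  have c2 := hxy.1.2 l (mem_l _ _ _)
  refine ⟨⟨fun e he => ?_, fun c hc => hxy.1.2 c (sub_kl _ _ _ hc)⟩, ?_⟩
  · by_cases t1 : e = a k
    · rw [t1, h1]
    by_cases t2 : e = a l
    · rw [t2, h2]
    by_cases t3 : e = b k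
    · rw [t3]; rw [h1] at c1; exact toNat_inj' (by omega)
    by_cases t4 : e = b l
    · rw [t4]; rw [h2] at c2; exact toNat_inj' (by omega)
    apply hxy.1.1
    intro c hc
    simp only [mem_insert] at hc
    rcases hc with rfl | rfl | hc
    · exact ⟨t1, t3⟩
    · exact ⟨t2, t4⟩
    · exact he c hc
  · have := hxy.2
    rw [h.sum_p, h.sum_p, h1, h2] at this
    omega

/-- number of edges in the block -/
def blk (a b : γ → ι) (k l : γ) (x : ι → Bool) : ℕ :=
  (x (a k)).toNat + (x (b k)).toNat + (x (a l)).toNat + (x (b l)).toNat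

lemma Cross.blk_eq (h : Cross a b a' b' S0 T0 k l i j) (x : ι → Bool) :
    blk a' b' i j x = blk a b k l x := by
  unfold blk; rw [h.e1, h.e2, h.e3, h.e4]; omega

lemma blk_rel {x y : ι → Bool} (hxy : rel a b (insert k (insert l S0)) x y) :
    blk a b k l x = blk a b k l y := by
  have c1 := hxy.1.2 k (mem_k _ _ _)
  have c2 := hxy.1.2 l (mem_l _ _ _)
  unfold blk; omega

lemma Cross.rect_half (h : Cross a b a' b' S0 T0 k l i j) {k' : γ} (hk' : k' = k ∨ k' = l)
    (π : Equiv.Perm ι) (hπ : π = Equiv.swap (a k) (a k') * Equiv.swap (b k) (b k'))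
    {x z : ι → Bool} (hxz : rel a' b' (insert i (insert j T0)) x z)
    (z1 : z (a k) = x (π (a k))) (z2 : z (b k) = x (π (b k))) (z3 : z (a l) = x (π (a l)))
    (z4 : z (b l) = x (π (b l))) (y : ι → Bool) (hy : rel a b (insert k (insert l S0)) x y) :
    rel a b (insert k (insert l S0)) z (mix a' b' T0 z (y ∘ π)) ∧
      rel a' b' (insert i (insert j T0)) y (mix a' b' T0 z (y ∘ π)) ∧
      mix a' b' T0 x (mix a' b' T0 z (y ∘ π) ∘ π) = y := by
  have hk := mem_k S0 k l
  have hl := mem_l S0 k l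
  have hk'm : k' ∈ insert k (insert l S0) := by rcases hk' with rfl | rfl <;> assumption
  have pa : ∀ c ∈ insert k (insert l S0), π (a c) = a (Equiv.swap k k' c) := by
    intro c hc
    rw [hπ, Equiv.Perm.mul_apply,
      Equiv.swap_apply_of_ne_of_ne (h.Rp.ab _ hc _ hk) (h.Rp.ab _ hc _ hk'm),
      swap_row h.Rp.ia hk hk'm hc]
  have pb : ∀ c ∈ insert k (insert l S0), π (b c) = b (Equiv.swap k k' c) := by
    intro c hc
    have hs := swap_mem hk hk'm hc
    rw [hπ, Equiv.Perm.mul_apply, swap_row h.Rp.ib hk hk'm hc,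
      Equiv.swap_apply_of_ne_of_ne (h.Rp.ab _ hk _ hs).symm (h.Rp.ab _ hk'm _ hs).symm]
  have po : ∀ e, e ≠ a k → e ≠ b k → e ≠ a l → e ≠ b l → π e = e := by
    intro e t1 t2 t3 t4
    have t5 : e ≠ a k' := by rcases hk' with rfl | rfl <;> assumption
    have t6 : e ≠ b k' := by rcases hk' with rfl | rfl <;> assumption
    rw [hπ, Equiv.Perm.mul_apply, Equiv.swap_apply_of_ne_of_ne t2 t6,
      Equiv.swap_apply_of_ne_of_ne t1 t5]
  have poq : ∀ e, off a' b' (insert i (insert j T0)) e → π e = e := by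
    intro e he
    apply po
    · rw [h.e1]; exact (he i (mem_k _ _ _)).1
    · rw [h.e2]; exact (he j (mem_l _ _ _)).1
    · rw [h.e3]; exact (he i (mem_k _ _ _)).2
    · rw [h.e4]; exact (he j (mem_l _ _ _)).2
  have pop : ∀ e, off a b (insert k (insert l S0)) e → π e = e := fun e he =>
    po e (he k hk).1 (he k hk).2 (he l hl).1 (he l hl).2
  have pp : ∀ e, π (π e) = e := by
    intro e
    by_cases h1 : off a b (insert k (insert l S0)) e
    · rw [pop e h1, pop e h1]
    · unfold off at h1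
      push Not at h1
      obtain ⟨c, hc, h2⟩ := h1
      by_cases h3 : e = a c
      · rw [h3, pa c hc, pa _ (swap_mem hk hk'm hc), Equiv.swap_apply_self]
      · rw [h2 h3, pb c hc, pb _ (swap_mem hk hk'm hc), Equiv.swap_apply_self]
  have offW : ∀ e, off a' b' T0 e → off a' b' T0 (π e) := by
    intro e he
    by_contra hn
    have := pop _ (h.dq.symm.off hn)
    rw [pp] at this
    exact hn (this ▸ he)
  obtain ⟨o1, o2, o3, o4⟩ := h.symm.off0
  rw [← h.e1] at o1
  rw [← h.e3] at o2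
  rw [← h.e2] at o3
  rw [← h.e4] at o4
  have sk : Equiv.swap k k' k = k' := Equiv.swap_apply_left _ _
  refine ⟨?_, ⟨⟨fun e he => ?_, fun c hc => ?_⟩, ?_⟩, ?_⟩
  · refine rel_mix h.dq.symm ((rel_perm π hk hk'm pa pb x y).mpr hy) (fun e he => ?_)
      (fun e he => mix_off _ _ he) (fun e he => (mix_on _ _ he).symm)
    by_cases t1 : e = a k
    · rw [t1, z1]; rfl
    by_cases t2 : e = b k
    · rw [t2, z2]; rfl
    by_cases t3 : e = a l
    · rw [t3, z3]; rfl
    by_cases t4 : e = b l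
    · rw [t4, z4]; rfl
    rw [Function.comp, po e t1 t2 t3 t4]
    refine (hxz.1.1 e fun c hc => ?_).symm
    simp only [mem_insert] at hc
    rcases hc with rfl | rfl | hc
    · rw [← h.e1, ← h.e3]; exact ⟨t1, t3⟩
    · rw [← h.e2, ← h.e4]; exact ⟨t2, t4⟩
    · exact he c hc
  · rw [mix_off _ _ (fun c hc => he c (sub_kl _ _ _ hc)), Function.comp, poq e he]
  · simp only [mem_insert] at hc
    rcases hc with rfl | rfl | hc
    · rw [← h.e1, ← h.e3, mix_off _ _ o1, mix_off _ _ o2]
      simp only [Function.comp, pa k hk, pa l hl]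
      rcases hk' with rfl | rfl
      · simp
      · simp [add_comm]
    · rw [← h.e2, ← h.e4, mix_off _ _ o3, mix_off _ _ o4]
      simp only [Function.comp, pb k hk, pb l hl]
      rcases hk' with rfl | rfl
      · simp
      · simp [add_comm]
    · rw [mix_on _ _ (not_off_a hc), mix_on _ _ (not_off_b hc), ← hy.1.1 _ (h.dq c hc).1,
        ← hy.1.1 _ (h.dq c hc).2]
      exact hxz.1.2 c (sub_kl _ _ _ hc)
  · have q := hxz.2
    rw [h.symm.sum_p, h.symm.sum_p] at q ⊢
    rw [← h.e1, ← h.e2] at q ⊢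
    rw [mix_off _ _ o1, mix_off _ _ o3]
    have s1 : ∑ c ∈ T0, (y (a' c)).toNat = ∑ c ∈ T0, (x (a' c)).toNat :=
      sum_congr rfl fun c hc => by rw [hy.1.1 _ (h.dq c hc).1]
    have s2 : ∑ c ∈ T0, (mix a' b' T0 z (y ∘ π) (a' c)).toNat = ∑ c ∈ T0, (z (a' c)).toNat :=
      sum_congr rfl fun c hc => by rw [mix_on _ _ (not_off_a hc)]
    rw [s1, s2]
    rw [z1, z2] at q
    simp only [Function.comp]
    rw [pa k hk, pb k hk, sk] at q ⊢
    have c1 := hy.1.2 k hk
    have c2 := hy.1.2 k' hk'm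
    omega
  · funext e
    by_cases h1 : off a' b' T0 e
    · rw [mix_off _ _ h1, Function.comp, mix_off _ _ (offW e h1), Function.comp, pp]
    · rw [mix_on _ _ h1]; exact hy.1.1 e (h.dq.symm.off h1)

lemma Cross.rect (h : Cross a b a' b' S0 T0 k l i j) {x z : ι → Bool} (hx : blk a b k l x ≠ 2)
    (hxz : rel a' b' (insert i (insert j T0)) x z) (g : (ι → Bool) → ℝ)
    (hg : ∀ y w, blk a b k l y ≠ 2 → rel a' b' (insert i (insert j T0)) y w → g y = g w) :
    Eop (rel a b (insert k (insert l S0))) g x = Eop (rel a b (insert k (insert l S0))) g z := by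
  have hk := mem_k S0 k l
  have hl := mem_l S0 k l
  have r1 := hxz.1.2 i (mem_k _ _ _)
  have r2 := hxz.1.2 j (mem_l _ _ _)
  rw [← h.e1, ← h.e3] at r1
  rw [← h.e2, ← h.e4] at r2
  have hz : blk a b k l z ≠ 2 := by rw [← h.blk_eq, ← blk_rel hxz, h.blk_eq]; exact hx
  obtain ⟨k', hk', z1, z2, z3, z4⟩ : ∃ k', (k' = k ∨ k' = l) ∧ z (a k) = x (a k') ∧
      z (b k) = x (b k') ∧ z (a l) = x (a (Equiv.swap k k' l)) ∧
      z (b l) = x (b (Equiv.swap k k' l)) := by
    have : (z (a k) = x (a k) ∧ z (b k) = x (b k) ∧ z (a l) = x (a l) ∧ z (b l) = x (b l)) ∨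
        (z (a k) = x (a l) ∧ z (b k) = x (b l) ∧ z (a l) = x (a k) ∧ z (b l) = x (b k)) := by
      unfold blk at hx
      revert hx r1 r2
      cases x (a k) <;> cases x (b k) <;> cases x (a l) <;> cases x (b l) <;>
        cases z (a k) <;> cases z (b k) <;> cases z (a l) <;> cases z (b l) <;> simp
    rcases this with t | t
    · exact ⟨k, Or.inl rfl, by simpa using t⟩
    · exact ⟨l, Or.inr rfl, by simpa using t⟩
  have hk'm : k' ∈ insert k (insert l S0) := by rcases hk' with rfl | rfl <;> assumption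
  set π := Equiv.swap (a k) (a k') * Equiv.swap (b k) (b k') with hπ
  have pa : ∀ c ∈ insert k (insert l S0), π (a c) = a (Equiv.swap k k' c) := by
    intro c hc
    rw [hπ, Equiv.Perm.mul_apply,
      Equiv.swap_apply_of_ne_of_ne (h.Rp.ab _ hc _ hk) (h.Rp.ab _ hc _ hk'm),
      swap_row h.Rp.ia hk hk'm hc]
  have pb : ∀ c ∈ insert k (insert l S0), π (b c) = b (Equiv.swap k k' c) := by
    intro c hc
    have hs := swap_mem hk hk'm hc
    rw [hπ, Equiv.Perm.mul_apply, swap_row h.Rp.ib hk hk'm hc,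
      Equiv.swap_apply_of_ne_of_ne (h.Rp.ab _ hk _ hs).symm (h.Rp.ab _ hk'm _ hs).symm]
  have sk : Equiv.swap k k' k = k' := Equiv.swap_apply_left _ _
  have H1 := h.rect_half hk' π hπ hxz (by rw [pa k hk, sk, z1]) (by rw [pb k hk, sk, z2])
    (by rw [pa l hl, z3]) (by rw [pb l hl, z4])
  have H2 := h.rect_half hk' π hπ ((rel_equiv _ _ _).symm hxz)
    (by rw [pa k hk, sk]; rcases hk' with rfl | rfl
        · exact z1.symm
        · simpa using z3.symm)
    (by rw [pb k hk, sk]; rcases hk' with rfl | rfl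
        · exact z2.symm
        · simpa using z4.symm)
    (by rw [pa l hl]; rcases hk' with rfl | rfl
        · simpa using z3.symm
        · simpa using z1.symm)
    (by rw [pb l hl]; rcases hk' with rfl | rfl
        · simpa using z4.symm
        · simpa using z2.symm)
  exact Eop_rect (r' := fun y w => blk a b k l y ≠ 2 ∧ rel a' b' (insert i (insert j T0)) y w) x z
    (fun y => mix a' b' T0 z (y ∘ π)) (fun w => mix a' b' T0 x (w ∘ π))
    (fun y hy => ⟨(H1 y hy).1, ⟨by rw [← blk_rel hy]; exact hx, (H1 y hy).2.1⟩, (H1 y hy).2.2⟩)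
    (fun w hw => ⟨(H2 w hw).1, (H2 w hw).2.2⟩) g (fun y w hyw => hg y w hyw.1 hyw.2)

/-- restriction of a relation to an invariant set -/
def rOn {Ω : Type*} (r : Ω → Ω → Prop) (O : Ω → Prop) (x y : Ω) : Prop := r x y ∧ (O x ∨ x = y)

lemma rOn_equiv {Ω : Type*} {r : Ω → Ω → Prop} (hr : Equivalence r) {O : Ω → Prop}
    (hO : ∀ x y, r x y → O x → O y) : Equivalence (rOn r O) := by
  refine ⟨fun x => ⟨hr.refl x, Or.inr rfl⟩, fun {x y} h => ⟨hr.symm h.1, ?_⟩,
    fun {x y z} h h' => ⟨hr.trans h.1 h'.1, ?_⟩⟩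
  · rcases h.2 with h1 | h1
    · exact Or.inl (hO x y h.1 h1)
    · exact Or.inr h1.symm
  · rcases h.2 with h1 | h1
    · exact Or.inl h1
    · subst h1; exact h'.2

lemma Eop_rOn_pos {Ω : Type*} [Fintype Ω] {r : Ω → Ω → Prop} {O : Ω → Prop} (f : Ω → ℝ) {x : Ω}
    (hx : O x) : Eop (rOn r O) f x = Eop r f x := by
  have : cls (rOn r O) x = cls r x := by ext y; simp [rOn, hx]
  rw [Eop_apply, Eop_apply, this]

lemma Eop_rOn_neg {Ω : Type*} [Fintype Ω] {r : Ω → Ω → Prop} (hr : Equivalence r) {O : Ω → Prop}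
    (hO : ∀ x y, r x y → O x → O y) (f : Ω → ℝ) {x : Ω}
    (hx : ¬ O x) : Eop (rOn r O) f x = f x := by
  apply Eop_eq_of_const (rOn_equiv hr hO)
  intro y hy
  rcases hy.2 with h | h
  · exact absurd h hx
  · rw [h]

/-- an involution as an equivalence -/
def swE (a b : γ → ι) (c c' : γ) : (ι → Bool) ≃ (ι → Bool) :=
  ⟨sw a b c c', sw a b c c', sw_sw a b c c', sw_sw a b c c'⟩

lemma Eop_comp_sw {r : (ι → Bool) → (ι → Bool) → Prop} (hr : Equivalence r) (c c' : γ)
    (h : ∀ x, r x (sw a b c c' x)) (f : (ι → Bool) → ℝ) :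
    Eop r (f ∘ sw a b c c') = Eop r f := by
  funext x
  have := Eop_comp (r := r) (r' := r) (swE a b c c') (fun u v =>
    ⟨fun h1 => hr.trans (h u) (hr.trans h1 (hr.symm (h v))),
      fun h1 => hr.trans (hr.symm (h u)) (hr.trans h1 (h v))⟩) f x
  rw [Eop_congr hr f (h x)]
  exact this.symm

lemma Cross.part_O (h : Cross a b a' b' S0 T0 k l i j) (g : (ι → Bool) → ℝ) :
    0 ≤ ∑ x, if blk a b k l x ≠ 2 then
      Aop a b (insert k (insert l S0)) g x * Aop a' b' (insert i (insert j T0)) g x else 0 := by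
  set O : (ι → Bool) → Prop := fun x => blk a b k l x ≠ 2 with hO
  have o1 : ∀ x y, rel a b (insert k (insert l S0)) x y → O x → O y := by
    intro x y hxy hx; simp only [hO] at hx ⊢; rwa [← blk_rel hxy]
  have o2 : ∀ x y, rel a' b' (insert i (insert j T0)) x y → O x → O y := by
    intro x y hxy hx; simp only [hO] at hx ⊢; rwa [← h.blk_eq, ← blk_rel hxy, h.blk_eq]
  have e1 := rOn_equiv (rel_equiv a b (insert k (insert l S0))) o1
  have e2 := rOn_equiv (rel_equiv a' b' (insert i (insert j T0))) o2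
  have hc := comm_of_inv (Eop_isProj e1) (Eop_isProj e2) (by
    intro f
    apply Eop_of_inv e2
    intro x z hxz
    rcases hxz.2 with hx | rfl
    · rw [Eop_rOn_pos _ hx, Eop_rOn_pos _ (o2 x z hxz.1 hx)]
      exact h.rect hx hxz.1 _ fun y w hy hyw => Eop_congr e2 f ⟨hyw, Or.inl hy⟩
    · rfl)
  have := (Eop_isProj e1).one_sub.pair_nonneg (Eop_isProj e2).one_sub g (by
    simp only [LinearMap.sub_apply, LinearMap.id_apply, map_sub, hc]; abel)
  refine this.trans (le_of_eq ?_)
  unfold ip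
  apply sum_congr rfl
  intro x _
  simp only [LinearMap.sub_apply, LinearMap.id_apply, Pi.sub_apply, Aop_apply]
  by_cases hx : O x
  · rw [if_pos hx, Eop_rOn_pos _ hx, Eop_rOn_pos _ hx]
  · rw [if_neg hx, Eop_rOn_neg (rel_equiv _ _ _) o1 _ hx]; simp

lemma Cross.three_terms (h : Cross a b a' b' S0 T0 k l i j) (g : (ι → Bool) → ℝ) :
    ip (Eop (rel a b S0) g - Eop (rel a b (insert k (insert l S0))) g)
       (Eop (rel a' b' T0) g - Eop (rel a' b' (insert i (insert j T0))) g)
      ≤ ip (Aop a b (insert k (insert l S0)) g) (Aop a' b' (insert i (insert j T0)) g) := by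
  have ep := rel_equiv a b (insert k (insert l S0))
  have ep' := rel_equiv a b S0
  have eq := rel_equiv a' b' (insert i (insert j T0))
  have eq' := rel_equiv a' b' T0
  have c1 := Eop_comm_disj h.dp
  have c2 := Eop_comm_disj h.dq
  have c3 := Eop_comm_disj (a := a) (b := b) (a' := a') (b' := b') (S := S0) (T := T0)
    (fun c hc => ⟨fun d hd => (h.dp c hc).1 d (sub_kl _ _ _ hd),
      fun d hd => (h.dp c hc).2 d (sub_kl _ _ _ hd)⟩)
  have W : IsProj (Eop (rel a' b' T0) - Eop (rel a' b' (insert i (insert j T0)))) :=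
    (Eop_isProj eq').sub (Eop_isProj eq)
      (Eop_refine_left eq' eq fun x y => rel_mono h.Rq (sub_kl _ _ _))
      (Eop_refine_right eq' eq fun x y => rel_mono h.Rq (sub_kl _ _ _))
  have t1 := (Eop_isProj ep).one_sub.pair_nonneg (Eop_isProj eq').one_sub g (by
    simp only [LinearMap.sub_apply, LinearMap.id_apply, map_sub, c2]; abel)
  have t2 := (Eop_isProj ep').one_sub.pair_nonneg W g (by
    simp only [LinearMap.sub_apply, LinearMap.id_apply, map_sub, c1, c3]; abel)
  simp only [LinearMap.sub_apply, LinearMap.id_apply, Aop_apply, ip_sub_left, ip_sub_right]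
    at t1 t2 ⊢
  linarith

lemma Cross.rel0_sw (h : Cross a b a' b' S0 T0 k l i j) {x y : ι → Bool} (hxy : rel a b S0 x y) :
    rel a b S0 (sw a b k l x) (sw a b k l y) := by
  obtain ⟨o1, o2, o3, o4⟩ := h.off0
  have b1 := hxy.1.1 _ o1
  have b2 := hxy.1.1 _ o2
  have b3 := hxy.1.1 _ o3
  have b4 := hxy.1.1 _ o4
  have hD : Dc a b k l x ↔ Dc a b k l y := by unfold Dc D4; rw [b1, b2, b3, b4]
  have sa : ∀ w, ∀ c ∈ S0, sw a b k l w (a c) = w (a c) := fun w c hc =>
    sw_other w (o1 c hc).1.symm (o2 c hc).1.symm (o3 c hc).1.symm (o4 c hc).1.symm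
  have sb : ∀ w, ∀ c ∈ S0, sw a b k l w (b c) = w (b c) := fun w c hc =>
    sw_other w (o1 c hc).2.symm (o2 c hc).2.symm (o3 c hc).2.symm (o4 c hc).2.symm
  refine ⟨⟨fun e he => ?_, fun c hc => ?_⟩, ?_⟩
  · unfold sw sw4
    unfold Dc at hD
    simp only [hD, hxy.1.1 e he]
  · rw [sa x c hc, sa y c hc, sb x c hc, sb y c hc]; exact hxy.1.2 c hc
  · rw [sum_congr rfl (fun c hc => by rw [sa x c hc]), hxy.2]
    exact sum_congr rfl (fun c hc => by rw [sa y c hc])

lemma Cross.on_D (h : Cross a b a' b' S0 T0 k l i j) (g : (ι → Bool) → ℝ)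
    (hg : g ∘ sw a b k l = g) {x : ι → Bool} (hx : Dc a b k l x) :
    Eop (rel a b S0) g x = Eop (relD a b (insert k (insert l S0)) k l) g x := by
  have eD := relD_equiv a b (insert k (insert l S0)) k l
  have e0 := rel_equiv a b S0
  obtain ⟨o1, o2, o3, o4⟩ := h.off0
  rw [← Eop_refine_right e0 eD (fun u v huv => ⟨rel_mono h.Rp (sub_kl _ _ _) huv, by
    unfold Dc D4; rw [huv.1.1 _ o1, huv.1.1 _ o2, huv.1.1 _ o3, huv.1.1 _ o4]⟩) g]
  symm
  apply Eop_eq_of_const eD
  intro y hy
  have hy' := hy.2.mp hx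
  by_cases h1 : x (a k) = y (a k)
  · have h2 : x (a l) = y (a l) := by
      have p := hx.2.2; have q := hy'.2.2
      rw [h1] at p; revert p q; cases y (a k) <;> cases x (a l) <;> cases y (a l) <;> simp
    exact (Eop_congr e0 g (h.restrict hy.1 h1 h2)).symm
  · have r1 : rel a b S0 (sw a b k l x) y := by
      apply h.restrict ((rel_equiv _ _ _).trans ((rel_equiv _ _ _).symm
        (rel_sw h.Rp (mem_k _ _ _) (mem_l _ _ _) x)) hy.1)
      · rw [sw_1 hx]; revert h1; cases x (a k) <;> cases y (a k) <;> simp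
      · rw [sw_3 hx]
        have p := hx.2.2; have q := hy'.2.2
        revert h1 p q
        cases x (a k) <;> cases y (a k) <;> cases x (a l) <;> cases y (a l) <;> simp
    rw [← Eop_congr e0 g r1]
    have := Eop_comp (r := rel a b S0) (r' := rel a b S0) (swE a b k l) (fun u v =>
      ⟨fun h1 => by
        have := h.rel0_sw h1
        simp only [swE, Equiv.coe_fn_mk, sw_sw] at this
        exact this, fun h1 => h.rel0_sw h1⟩) g x
    simp only [swE, Equiv.coe_fn_mk] at this
    rw [this, hg]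

lemma Cross.on_C (h : Cross a b a' b' S0 T0 k l i j) (g : (ι → Bool) → ℝ) {x : ι → Bool}
    (h1 : x (a k) = x (b k)) (h2 : x (a l) = x (b l)) :
    Eop (rel a b S0) g x = Eop (rel a b (insert k (insert l S0))) g x := by
  have : cls (rel a b S0) x = cls (rel a b (insert k (insert l S0))) x := by
    ext y
    simp only [mem_cls]
    refine ⟨rel_mono h.Rp (sub_kl _ _ _), fun hy => h.restrict hy ?_ ?_⟩
    · have := hy.1.2 k (mem_k _ _ _)
      revert h1 this; cases x (a k) <;> cases x (b k) <;> cases y (a k) <;> cases y (b k) <;> simp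
    · have := hy.1.2 l (mem_l _ _ _)
      revert h2 this; cases x (a l) <;> cases x (b l) <;> cases y (a l) <;> cases y (b l) <;> simp
  rw [Eop_apply, Eop_apply, this]

lemma Eop_ite {Ω : Type*} [Fintype Ω] {r : Ω → Ω → Prop} (hr : Equivalence r) (O : Ω → Prop)
    [DecidablePred O] (hO : ∀ x y, r x y → (O x ↔ O y)) (f : Ω → ℝ) (x : Ω) :
    Eop r (fun y => if O y then f y else 0) x = if O x then Eop r f x else 0 := by
  by_cases hx : O x
  · rw [if_pos hx]
    exact Eop_congr_fun _ _ x fun y hy => if_pos ((hO x y hy).mp hx)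
  · rw [if_neg hx]
    exact Eop_eq_of_const hr _ x 0 fun y hy => if_neg fun h => hx ((hO x y hy).mpr h)

lemma Cross.sym_part (h : Cross a b a' b' S0 T0 k l i j) (g : (ι → Bool) → ℝ)
    (hg : g ∘ sw a b k l = g) :
    -(1 / 2) * (∑ x, (if Dc a b k l x then (Eop (relD a b (insert k (insert l S0)) k l) g x
          - Eop (rel a b (insert k (insert l S0))) g x) ^ 2 else 0)
        + ∑ x, (if Dc a' b' i j x then (Eop (relD a' b' (insert i (insert j T0)) i j) g x
          - Eop (rel a' b' (insert i (insert j T0))) g x) ^ 2 else 0))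
      ≤ ip (Aop a b (insert k (insert l S0)) g) (Aop a' b' (insert i (insert j T0)) g) := by
  set g2 : (ι → Bool) → ℝ := fun y => if blk a b k l y = 2 then g y else 0 with hg2
  have i1 : ∀ x y, rel a b (insert k (insert l S0)) x y →
      (blk a b k l x = 2 ↔ blk a b k l y = 2) := fun x y hxy => by rw [blk_rel hxy]
  have i2 : ∀ x y, rel a' b' (insert i (insert j T0)) x y →
      (blk a b k l x = 2 ↔ blk a b k l y = 2) := fun x y hxy => by
    rw [← h.blk_eq, ← h.blk_eq, blk_rel hxy]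
  have j1 := Eop_ite (rel_equiv _ _ _) _ i1 g
  have j2 := Eop_ite (rel_equiv _ _ _) _ i2 g
  have j3 := Eop_ite (rel_equiv a b S0) _
    (fun x y hxy => i1 x y (rel_mono h.Rp (sub_kl _ _ _) hxy)) g
  have j4 := Eop_ite (rel_equiv a' b' T0) _
    (fun x y hxy => i2 x y (rel_mono h.Rq (sub_kl _ _ _) hxy)) g
  rw [← hg2] at j1 j2 j3 j4
  have split : ip (Aop a b (insert k (insert l S0)) g) (Aop a' b' (insert i (insert j T0)) g)
      = (∑ x, if blk a b k l x ≠ 2 then
        Aop a b (insert k (insert l S0)) g x * Aop a' b' (insert i (insert j T0)) g x else 0)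
        + ip (Aop a b (insert k (insert l S0)) g2) (Aop a' b' (insert i (insert j T0)) g2) := by
    unfold ip
    rw [← sum_add_distrib]
    apply sum_congr rfl
    intro x _
    have hx2 : g2 x = if blk a b k l x = 2 then g x else 0 := rfl
    simp only [Aop_apply, Pi.sub_apply, j1, j2, hx2]
    by_cases hx : blk a b k l x = 2 <;> simp [hx]
  have t1 := h.part_O g
  have t2 := h.three_terms g2
  rw [split]
  refine le_trans ?_ (add_le_add t1 t2)
  rw [zero_add, ← sum_add_distrib, mul_sum]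
  unfold ip
  apply sum_le_sum
  intro x _
  simp only [Pi.sub_apply, j1, j2, j3, j4, h.Dc_iff]
  by_cases hD : Dc a b k l x
  · have hb : blk a b k l x = 2 := by
      obtain ⟨h1, h2, -⟩ := hD
      unfold blk; revert h1 h2
      cases x (a k) <;> cases x (b k) <;> cases x (a l) <;> cases x (b l) <;> simp
    simp only [hD, hb, if_true]
    rw [h.on_D g hg hD, h.symm.on_D g (by rw [h.sw_eq]; exact hg) ((h.Dc_iff x).mpr hD)]
    nlinarith [sq_nonneg ((Eop (relD a b (insert k (insert l S0)) k l) g x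
          - Eop (rel a b (insert k (insert l S0))) g x) +
          (Eop (relD a' b' (insert i (insert j T0)) i j) g x
          - Eop (rel a' b' (insert i (insert j T0))) g x))]
  · simp only [hD, if_false]
    by_cases hb : blk a b k l x = 2
    · simp only [hb, if_true]
      have : (x (a k) = x (b k) ∧ x (a l) = x (b l)) ∨ (x (a k) = x (a l) ∧ x (b k) = x (b l)) := by
        unfold Dc D4 at hD
        unfold blk at hb
        revert hD hb
        cases x (a k) <;> cases x (b k) <;> cases x (a l) <;> cases x (b l) <;> simp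
      rcases this with t | t
      · rw [h.on_C g t.1 t.2]; simp
      · rw [h.symm.on_C g (by rw [← h.e1, ← h.e3]; exact t.1) (by rw [← h.e2, ← h.e4]; exact t.2)]
        simp
    · simp [hb]

theorem Cross.main (h : Cross a b a' b' S0 T0 k l i j) (f : (ι → Bool) → ℝ) :
    (1 / 2) * ((∑ x, ((f x - f (sw a b k l x)) / 2) ^ 2
        - ∑ x, (if Dc a b k l x then (Eop (relD a b (insert k (insert l S0)) k l) f x
          - Eop (rel a b (insert k (insert l S0))) f x) ^ 2 else 0))
      + (∑ x, ((f x - f (sw a' b' i j x)) / 2) ^ 2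
        - ∑ x, (if Dc a' b' i j x then (Eop (relD a' b' (insert i (insert j T0)) i j) f x
          - Eop (rel a' b' (insert i (insert j T0))) f x) ^ 2 else 0)))
      ≤ ip (Aop a b (insert k (insert l S0)) f) (Aop a' b' (insert i (insert j T0)) f) := by
  set σ := sw a b k l with hσ
  have sp : ∀ x, rel a b (insert k (insert l S0)) x (sw a b k l x) :=
    rel_sw h.Rp (mem_k _ _ _) (mem_l _ _ _)
  have sq' : ∀ x, rel a' b' (insert i (insert j T0)) x (sw a b k l x) := by
    rw [← h.sw_eq]; exact rel_sw h.Rq (mem_k _ _ _) (mem_l _ _ _)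
  have c1 := Eop_comp_sw (rel_equiv _ _ _) k l sp f
  have c2 := Eop_comp_sw (rel_equiv _ _ _) k l sq' f
  have c3 := Eop_comp_sw (relD_equiv a b (insert k (insert l S0)) k l) k l
    (fun x => ⟨sp x, (Dc_sw x).symm⟩) f
  have c4 := Eop_comp_sw (relD_equiv a' b' (insert i (insert j T0)) i j) k l
    (fun x => ⟨sq' x, by rw [h.Dc_iff, h.Dc_iff]; exact (Dc_sw x).symm⟩) f
  set g : (ι → Bool) → ℝ := (1 / 2 : ℝ) • (f + f ∘ σ) with hg
  set m : (ι → Bool) → ℝ := (1 / 2 : ℝ) • (f - f ∘ σ) with hm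
  have hfg : f = g + m := by funext x; simp only [hg, hm, Pi.add_apply, Pi.smul_apply,
    Pi.sub_apply, smul_eq_mul]; ring
  have hgs : g ∘ sw a b k l = g := by
    funext x; simp only [hg, hσ, Function.comp, Pi.add_apply, Pi.smul_apply, sw_sw, smul_eq_mul]
    ring
  have eg : ∀ r : (ι → Bool) → (ι → Bool) → Prop, Eop r (f ∘ σ) = Eop r f → Eop r g = Eop r f := by
    intro r hr
    rw [hg, map_smul, map_add, hr]; funext x
    simp only [Pi.add_apply, Pi.smul_apply, smul_eq_mul]; ring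
  have em : ∀ r : (ι → Bool) → (ι → Bool) → Prop, Eop r (f ∘ σ) = Eop r f → Eop r m = 0 := by
    intro r hr
    rw [hm, map_smul, map_sub, hr, sub_self, smul_zero]
  have m1 : Aop a b (insert k (insert l S0)) m = m := by rw [Aop_apply, em _ c1, sub_zero]
  have m2 : Aop a' b' (insert i (insert j T0)) m = m := by rw [Aop_apply, em _ c2, sub_zero]
  have orth : ip g m = 0 := by
    have e := Equiv.sum_comp (swE a b k l) (fun x => g x * m x)
    have : ∀ x, g (swE a b k l x) * m (swE a b k l x) = - (g x * m x) := by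
      intro x
      simp only [swE, Equiv.coe_fn_mk, hg, hm, hσ, Function.comp, Pi.add_apply, Pi.smul_apply,
        Pi.sub_apply, sw_sw, smul_eq_mul]
      ring
    simp only [this, sum_neg_distrib] at e
    unfold ip; linarith
  have S := h.sym_part g hgs
  rw [eg _ c1, eg _ c2, eg _ c3, eg _ c4] at S
  have dec : ip (Aop a b (insert k (insert l S0)) f) (Aop a' b' (insert i (insert j T0)) f)
      = ip m m + ip (Aop a b (insert k (insert l S0)) g) (Aop a' b' (insert i (insert j T0)) g) := by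
    conv_lhs => rw [hfg]
    rw [map_add, map_add, m1, m2, ip_add_left, ip_add_right, ip_add_right,
      (Aop_isProj _ _ _).symm g m, m1, orth, ← (Aop_isProj _ _ _).symm m g, m2, ip_comm m g, orth]
    ring
  have hmm : ip m m = ∑ x, ((f x - f (σ x)) / 2) ^ 2 := by
    rw [ip_self_eq]
    exact sum_congr rfl fun x _ => by
      simp only [hm, Pi.smul_apply, Pi.sub_apply, Function.comp, smul_eq_mul]; ring
  rw [dec, hmm, h.sw_eq]
  linarith

end Crest.Agent.R299
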