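import Crest.Agent.R299.Disjoint

set_option autoImplicit false
set_option linter.unusedSectionVars false
open Finset

namespace Crest.Agent.R299

section flip
variable {ι γ : Type*} [Fintype ι] [DecidableEq ι] [DecidableEq γ]

/-- complement the coordinates in `F` -/
def flipE (F : Finset ι) : (ι → Bool) ≃ (ι → Bool) where
  toFun x e := if e ∈ F then !x e else x e
  invFun x e := if e ∈ F then !x e else x e
  left_inv x := by funext e; by_cases h : e ∈ F <;> simp [h]
  right_inv x := by funext e; by_cases h : e ∈ F <;> simp [h]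

lemma flipE_apply (F : Finset ι) (x : ι → Bool) (e : ι) :
    flipE F x e = if e ∈ F then !x e else x e := rfl

lemma rel_flip {a b : γ → ι} {a' b' : Option γ → ι} {U : Finset γ} {w : γ} (hw : w ∉ U)
    (F : Finset ι) (h1 : a' none = b w) (h2 : b' none = a w) (h3 : ∀ c, a' (some c) = a c)
    (h4 : ∀ c, b' (some c) = b c) (f1 : a w ∈ F) (f2 : b w ∈ F) (f3 : ∀ c ∈ U, a c ∉ F)
    (f4 : ∀ c ∈ U, b c ∉ F) (x y : ι → Bool) :
    rel a b (insert w U) (flipE F x) (flipE F y) ↔ rel a' b' (insertNone U) x y := by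
  have hoff : ∀ e, off a b (insert w U) e ↔ off a' b' (insertNone U) e := by
    intro e
    constructor
    · intro h c hc
      cases c with
      | none => rw [h1, h2]; exact (h w (mem_insert_self _ _)).symm
      | some c => rw [h3, h4]; exact h c (mem_insert_of_mem (by simpa using hc))
    · intro h c hc
      rcases mem_insert.mp hc with rfl | hc
      · have := h none (by simp); rw [h1, h2] at this; exact this.symm
      · have := h (some c) (by simpa using hc); rwa [h3, h4] at this
  have hfl : ∀ e, flipE F x e = flipE F y e ↔ x e = y e := by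
    intro e; simp only [flipE_apply]; split_ifs <;> simp
  have hs : ∀ z : ι → Bool, ∑ c ∈ U, (flipE F z (a c)).toNat = ∑ c ∈ U, (z (a c)).toNat :=
    fun z => sum_congr rfl fun c hc => by rw [flipE_apply, if_neg (f3 c hc)]
  unfold rel cube
  simp only [hoff, hfl, sum_insert hw, sum_insertNone, forall_mem_insert, hs, h1, h3]
  have hc : (∀ c ∈ insertNone U, (x (a' c)).toNat + (x (b' c)).toNat
      = (y (a' c)).toNat + (y (b' c)).toNat) ↔
      ((x (b w)).toNat + (x (a w)).toNat = (y (b w)).toNat + (y (a w)).toNat ∧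
        ∀ c ∈ U, (x (a c)).toNat + (x (b c)).toNat = (y (a c)).toNat + (y (b c)).toNat) := by
    constructor
    · intro h
      refine ⟨?_, fun c hc => ?_⟩
      · have := h none (by simp); rwa [h1, h2] at this
      · have := h (some c) (by simpa using hc); rwa [h3, h4] at this
    · rintro ⟨p, q⟩ c hc
      cases c with
      | none => rwa [h1, h2]
      | some c => rw [h3, h4]; exact q c (by simpa using hc)
  have hc2 : (∀ c ∈ U, (flipE F x (a c)).toNat + (flipE F x (b c)).toNat
      = (flipE F y (a c)).toNat + (flipE F y (b c)).toNat) ↔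
      ∀ c ∈ U, (x (a c)).toNat + (x (b c)).toNat = (y (a c)).toNat + (y (b c)).toNat := by
    apply forall₂_congr
    intro c hc
    simp only [flipE_apply, if_neg (f3 c hc), if_neg (f4 c hc)]
  rw [hc, hc2]
  simp only [flipE_apply, if_pos f1, if_pos f2]
  generalize ∑ c ∈ U, (x (a c)).toNat = p
  generalize ∑ c ∈ U, (y (a c)).toNat = q
  cases x (a w) <;> cases x (b w) <;> cases y (a w) <;> cases y (b w) <;> simp

lemma Aop_flip {a b : γ → ι} {S : Finset γ} {γ' : Type*} [DecidableEq γ'] {a' b' : γ' → ι}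
    {S' : Finset γ'} (Φ : (ι → Bool) ≃ (ι → Bool))
    (h : ∀ x y, rel a b S (Φ x) (Φ y) ↔ rel a' b' S' x y) (f : (ι → Bool) → ℝ) :
    Aop a b S f ∘ Φ = Aop a' b' S' (f ∘ Φ) := by
  funext x
  simp only [Function.comp, Aop_apply, Pi.sub_apply]
  rw [Eop_comp Φ h]

lemma ip_comp {Ω : Type*} [Fintype Ω] (Φ : Ω ≃ Ω) (f g : Ω → ℝ) : ip (f ∘ Φ) (g ∘ Φ) = ip f g :=
  Equiv.sum_comp Φ (fun x => f x * g x)

end flip

variable {V : Type*} [Fintype V] [DecidableEq V]

/-- the row of a vertex -/
def row (i : V) : V → Sym2 V := fun c => s(i, c)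

/-- the other vertices -/
def Sij (i j : V) : Finset V := univ.filter fun c => c ≠ i ∧ c ≠ j

@[simp] lemma mem_Sij {i j c : V} : c ∈ Sij i j ↔ c ≠ i ∧ c ≠ j := by simp [Sij]

lemma Sij_comm (i j : V) : Sij i j = Sij j i := by ext c; simp [and_comm]

lemma rows_Sij {i j : V} (h : i ≠ j) : Rows (row i) (row j) (Sij i j) := by
  refine ⟨fun c _ c' _ e => ?_, fun c _ c' _ e => ?_, fun c hc c' hc' e => ?_⟩
  · exact Sym2.congr_right.mp e
  · exact Sym2.congr_right.mp e
  · simp only [row, Sym2.eq_iff, mem_Sij] at e hc hc'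
    rcases e with e | e
    · exact h e.1
    · exact hc.2 e.2

/-- pair heat-bath complement -/
noncomputable def AA (i j : V) : ((Sym2 V → Bool) → ℝ) →ₗ[ℝ] ((Sym2 V → Bool) → ℝ) :=
  if i = j then 0 else Aop (row i) (row j) (Sij i j)

lemma AA_ne {i j : V} (h : i ≠ j) : AA i j = Aop (row i) (row j) (Sij i j) := if_neg h

/-- row with the triangle column -/
def trow (u v w : V) : Option V → Sym2 V
  | none => s(v, w)
  | some c => s(u, c)

lemma rows_trow {U : Finset V} {u v w : V} (huv : u ≠ v) (huw : u ≠ w) (hvw : v ≠ w) (hu : u ∉ U)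
    (hv : v ∉ U) (hw : w ∉ U) {p q : Sym2 V} {a b : Option V → Sym2 V} (hp : p = s(v, w))
    (hq : q = s(u, w)) (a0 : a none = p) (b0 : b none = q) (a1 : ∀ c, a (some c) = s(u, c))
    (b1 : ∀ c, b (some c) = s(v, c)) : Rows a b (insertNone U) := by
  subst hp hq
  refine ⟨?_, ?_, ?_⟩
  all_goals
    rintro (_ | c) hc (_ | c') hc' <;>
    simp only [a0, b0, a1, b1, ne_eq, Sym2.eq_iff, some_mem_insertNone] at hc hc' ⊢ <;>
    grind

lemma AA_three (f : (Sym2 V → Bool) → ℝ) (i j k : V) (hij : i ≠ j) (hik : i ≠ k) (hjk : j ≠ k) :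
    0 ≤ ip (AA i j f) (AA i k f) + ip (AA i j f) (AA j k f) + ip (AA i k f) (AA j k f) := by
  set U : Finset V := univ.filter fun c => c ≠ i ∧ c ≠ j ∧ c ≠ k with hU
  have mU : ∀ c, c ∈ U ↔ c ≠ i ∧ c ≠ j ∧ c ≠ k := by intro c; simp [hU]
  set F : Finset (Sym2 V) := {s(i, j), s(i, k), s(j, k)} with hF
  have hi : i ∉ U := by simp [mU]
  have hj : j ∉ U := by simp [mU]
  have hk : k ∉ U := by simp [mU]
  have R : Rows3 (trow i j k) (trow j i k) (trow k i j) (insertNone U) :=
    ⟨rows_trow hij hik hjk hi hj hk rfl rfl rfl rfl (fun _ => rfl) (fun _ => rfl),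
      rows_trow hik hij hjk.symm hi hk hj Sym2.eq_swap rfl rfl rfl (fun _ => rfl) (fun _ => rfl),
      rows_trow hjk hij.symm hik.symm hj hk hi Sym2.eq_swap Sym2.eq_swap rfl rfl
        (fun _ => rfl) (fun _ => rfl)⟩
  have nF : ∀ u c, c ∈ U → s(u, c) ∉ F := by
    intro u c hc
    rw [mU] at hc
    simp only [hF, mem_insert, mem_singleton, Sym2.eq_iff]
    grind
  have e1 : Sij i j = insert k U := by ext c; simp only [mem_Sij, mem_insert, mU]; grind
  have e2 : Sij i k = insert j U := by ext c; simp only [mem_Sij, mem_insert, mU]; grind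
  have e3 : Sij j k = insert i U := by ext c; simp only [mem_Sij, mem_insert, mU]; grind
  have t1 := Aop_flip (flipE F) (rel_flip (a := row i) (b := row j) (a' := trow i j k)
    (b' := trow j i k) hk F rfl rfl (fun _ => rfl) (fun _ => rfl) (by simp [hF, row])
    (by simp [hF, row]) (nF i) (nF j)) f
  have t2 := Aop_flip (flipE F) (rel_flip (a := row i) (b := row k) (a' := trow i j k)
    (b' := trow k i j) hj F Sym2.eq_swap rfl (fun _ => rfl) (fun _ => rfl) (by simp [hF, row])
    (by simp [hF, row]) (nF i) (nF k)) f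
  have t3 := Aop_flip (flipE F) (rel_flip (a := row j) (b := row k) (a' := trow j i k)
    (b' := trow k i j) hi F Sym2.eq_swap Sym2.eq_swap (fun _ => rfl) (fun _ => rfl)
    (by simp [hF, row]) (by simp [hF, row]) (nF j) (nF k)) f
  have := threeRow R (f ∘ flipE F)
  rw [← t1, ← t2, ← t3, ip_comp, ip_comp, ip_comp] at this
  rw [AA_ne hij, AA_ne hik, AA_ne hjk, e1, e2, e3]
  exact this

/-- all four distinct -/
abbrev Dist (i j k l : V) : Prop := i ≠ j ∧ i ≠ k ∧ i ≠ l ∧ j ≠ k ∧ j ≠ l ∧ k ≠ l

lemma sum_dist (T : V → V → V → V → ℝ) (hT : ∀ i j k, T i j k k = 0) :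
    ∑ i, ∑ j, ∑ k, ∑ l, (if Dist i j k l then T i j k l else 0)
      = ∑ i, ∑ j, if i = j then 0 else ∑ k ∈ Sij i j, ∑ l ∈ Sij i j, T i j k l := by
  refine sum_congr rfl fun i _ => sum_congr rfl fun j _ => ?_
  by_cases hij : i = j
  · simp [Dist, hij]
  rw [if_neg hij, Sij, sum_filter]
  refine sum_congr rfl fun k _ => ?_
  rw [sum_filter]
  by_cases hk : k ≠ i ∧ k ≠ j
  · rw [if_pos hk]
    refine sum_congr rfl fun l _ => ?_
    by_cases hkl : k = l
    · subst hkl; simp [hT]
    · by_cases hl : l ≠ i ∧ l ≠ j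
      · rw [if_pos hl, if_pos ⟨hij, hk.1.symm, hl.1.symm, hk.2.symm, hl.2.symm, hkl⟩]
      · rw [if_neg hl, if_neg fun h => hl ⟨h.2.2.1.symm, h.2.2.2.2.1.symm⟩]
  · rw [if_neg hk]
    exact sum_eq_zero fun l _ => if_neg fun h => hk ⟨h.2.1.symm, h.2.2.2.1.symm⟩

lemma not_Dc_self {ι γ : Type*} (a b : γ → ι) (c : γ) (x : ι → Bool) : ¬ Dc a b c c x :=
  fun h => h.2.2 rfl

lemma AA_four (f : (Sym2 V → Bool) → ℝ) : 0 ≤ ∑ i, ∑ j, ∑ k, ∑ l,
    if i ≠ j ∧ i ≠ k ∧ i ≠ l ∧ j ≠ k ∧ j ≠ l ∧ k ≠ l then ip (AA i j f) (AA k l f) else 0 := by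
  let T : V → V → V → V → ℝ := fun i j k l =>
    ∑ x, ((f x - f (sw (row i) (row j) k l x)) / 2) ^ 2
      - ∑ x, (if Dc (row i) (row j) k l x then (Eop (relD (row i) (row j) (Sij i j) k l) f x
          - Eop (rel (row i) (row j) (Sij i j)) f x) ^ 2 else 0)
  have h1 : ∀ i j k l, Dist i j k l →
      (1 / 2) * (T i j k l + T k l i j) ≤ ip (AA i j f) (AA k l f) := by
    rintro i j k l ⟨hij, hik, hil, hjk, hjl, hkl⟩
    set U : Finset V := univ.filter fun c => c ≠ i ∧ c ≠ j ∧ c ≠ k ∧ c ≠ l with hU
    have mU : ∀ c, c ∈ U ↔ c ≠ i ∧ c ≠ j ∧ c ≠ k ∧ c ≠ l := by intro c; simp [hU]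
    have e1 : Sij i j = insert k (insert l U) := by
      ext c; simp only [mem_Sij, mem_insert, mU]; grind
    have e2 : Sij k l = insert i (insert j U) := by
      ext c; simp only [mem_Sij, mem_insert, mU]; grind
    have C : Cross (row i) (row j) (row k) (row l) U U k l i j := by
      refine ⟨e1 ▸ rows_Sij hij, e2 ▸ rows_Sij hkl, hkl, by simp [mU], by simp [mU], hij,
        by simp [mU], by simp [mU], Sym2.eq_swap, Sym2.eq_swap, Sym2.eq_swap, Sym2.eq_swap, ?_, ?_⟩
      · intro c hc
        rw [mU] at hc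
        constructor <;> intro d _ <;> simp only [row, ne_eq, Sym2.eq_iff] <;> grind
      · intro c hc
        rw [mU] at hc
        constructor <;> intro d _ <;> simp only [row, ne_eq, Sym2.eq_iff] <;> grind
    have := C.main f
    rw [AA_ne hij, AA_ne hkl]
    simp only [T]
    rw [e1, e2]
    exact this
  have h2 : ∑ i, ∑ j, ∑ k, ∑ l, (if Dist i j k l then T k l i j else 0)
      = ∑ i, ∑ j, ∑ k, ∑ l, (if Dist i j k l then T i j k l else 0) := by
    rw [sum_congr rfl (fun i _ => sum_comm), sum_comm]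
    refine sum_congr rfl fun k _ => ?_
    rw [sum_congr rfl (fun i _ => sum_comm), sum_comm]
    refine sum_congr rfl fun l _ => sum_congr rfl fun i _ => sum_congr rfl fun j _ => ?_
    congr 1
    apply propext
    unfold Dist; grind
  have h3 : 0 ≤ ∑ i, ∑ j, ∑ k, ∑ l, (if Dist i j k l then T i j k l else 0) := by
    rw [sum_dist T (fun i j k => by simp [T, not_Dc_self, sw_of_not])]
    refine sum_nonneg fun i _ => sum_nonneg fun j _ => ?_
    split_ifs with hij
    · exact le_rfl
    · have := twoRow_J (rows_Sij hij) f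
      simp only [T, sum_sub_distrib]
      rw [sum_comm, sum_congr rfl (fun k _ => sum_comm), sum_comm (s := univ),
        sum_congr rfl (fun k (_ : k ∈ Sij i j) => sum_comm (s := univ))] at this
      linarith
  calc 0 ≤ (1 / 2) * (∑ i, ∑ j, ∑ k, ∑ l, (if Dist i j k l then T i j k l else 0)
        + ∑ i, ∑ j, ∑ k, ∑ l, (if Dist i j k l then T k l i j else 0)) := by rw [h2]; linarith
    _ ≤ _ := by
      simp only [← sum_add_distrib, mul_sum]
      refine sum_le_sum fun i _ => sum_le_sum fun j _ => sum_le_sum fun k _ =>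
        sum_le_sum fun l _ => ?_
      by_cases h : Dist i j k l
      · rw [if_pos h, if_pos h, if_pos h]; exact h1 i j k l h
      · rw [if_neg h, if_neg h, if_neg h]; simp

theorem global_poincare (f : (Sym2 V → Bool) → ℝ) :
    ∃ f0 : (Sym2 V → Bool) → ℝ,
      (∀ i j k l, Dist i j k l → ∀ x, f0 (sw (row i) (row j) k l x) = f0 x) ∧
      16 * ip (f - f0) (f - f0) ≤ ∑ i, ∑ j, ∑ k, ∑ l,
        (if Dist i j k l then ∑ x, (f x - f (sw (row i) (row j) k l x)) ^ 2 else 0) := by
  obtain ⟨f0, h0, hle⟩ := bochner (AA (V := V))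
    (fun i j h => by rw [AA_ne h]; exact Aop_isProj _ _ _) (fun i => if_pos rfl)
    (fun i j => by
      by_cases h : i = j
      · rw [h]
      · rw [AA_ne h, AA_ne (Ne.symm h), Aop, Aop, rel_comm, Sij_comm])
    AA_three AA_four f
  refine ⟨f0, ?_, ?_⟩
  · rintro i j k l ⟨hij, hik, hil, hjk, hjl, hkl⟩ x
    have := h0 i j
    rw [AA_ne hij, Aop_apply, sub_eq_zero] at this
    rw [this]
    exact (Eop_congr (rel_equiv _ _ _) f0 (rel_sw (rows_Sij hij) (mem_Sij.mpr ⟨hik.symm, hjk.symm⟩)
      (mem_Sij.mpr ⟨hil.symm, hjl.symm⟩) x)).symm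
  · rw [sum_dist (fun i j k l => ∑ x, (f x - f (sw (row i) (row j) k l x)) ^ 2)
      (fun i j k => by simp [not_Dc_self, sw_of_not])]
    have : 8 * ∑ i, ∑ j, ip (AA i j f) (AA i j f) ≤ ∑ i, ∑ j, if i = j then 0 else
        ∑ k ∈ Sij i j, ∑ l ∈ Sij i j, ∑ x, (f x - f (sw (row i) (row j) k l x)) ^ 2 := by
      simp only [mul_sum]
      refine sum_le_sum fun i _ => sum_le_sum fun j _ => ?_
      by_cases h : i = j
      · simp [h, AA, ip]
      · rw [if_neg h, AA_ne h, Aop_apply]
        have := twoRow_poincare (rows_Sij h) f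
        rw [sum_comm, sum_congr rfl (fun k _ => sum_comm)] at this
        exact this
    linarith

/-- degree -/
def dg (x : Sym2 V → Bool) (v : V) : ℕ := ∑ u ∈ univ.erase v, (x s(v, u)).toNat

lemma dg_rel_left {i j : V} (h : i ≠ j) {x y : Sym2 V → Bool}
    (hxy : rel (row i) (row j) (Sij i j) x y) : dg x i = dg y i := by
  have e : univ.erase i = insert j (Sij i j) := by
    ext c; simp only [mem_erase, mem_univ, mem_insert, mem_Sij]; grind
  unfold dg
  rw [e, sum_insert (by simp), sum_insert (by simp), hxy.1.1 s(i, j) (by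
    intro c hc; simp only [mem_Sij, row, ne_eq, Sym2.eq_iff] at hc ⊢; grind)]
  congr 1
  exact hxy.2

lemma dg_rel {i j : V} (h : i ≠ j) {x y : Sym2 V → Bool}
    (hxy : rel (row i) (row j) (Sij i j) x y) (v : V) : dg x v = dg y v := by
  by_cases h1 : v = i
  · rw [h1]; exact dg_rel_left h hxy
  by_cases h2 : v = j
  · rw [h2]; exact dg_rel_left h.symm (by rw [Sij_comm]; exact hxy.symm_rows)
  have e : univ.erase v = insert i (insert j ((Sij i j).erase v)) := by
    ext c; simp only [mem_erase, mem_univ, mem_insert, mem_Sij]; grind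
  unfold dg
  rw [e, sum_insert (by simp [h]), sum_insert (by simp), sum_insert (by simp [h]),
    sum_insert (by simp)]
  have c1 := hxy.1.2 v (mem_Sij.mpr ⟨h1, h2⟩)
  simp only [row] at c1
  rw [Sym2.eq_swap (a := v) (b := i), Sym2.eq_swap (a := v) (b := j)]
  have : ∑ u ∈ (Sij i j).erase v, (x s(v, u)).toNat = ∑ u ∈ (Sij i j).erase v, (y s(v, u)).toNat := by
    apply sum_congr rfl; intro u hu
    rw [hxy.1.1 s(v, u) (by
      intro c hc; simp only [mem_erase, mem_Sij, row, ne_eq, Sym2.eq_iff] at hc hu ⊢; grind)]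
  omega

lemma dg_sw {i j k l : V} (h : Dist i j k l) (x : Sym2 V → Bool) (v : V) :
    dg (sw (row i) (row j) k l x) v = dg x v :=
  (dg_rel h.1 (rel_sw (rows_Sij h.1) (mem_Sij.mpr ⟨h.2.1.symm, h.2.2.2.1.symm⟩)
    (mem_Sij.mpr ⟨h.2.2.1.symm, h.2.2.2.2.1.symm⟩) x) v).symm

theorem irreducible (f0 : (Sym2 V → Bool) → ℝ)
    (h0 : ∀ i j k l, Dist i j k l → ∀ x, f0 (sw (row i) (row j) k l x) = f0 x) (W : Finset V) :
    ∀ x y : Sym2 V → Bool, (∀ u v, (u ∉ W ∨ v ∉ W ∨ u = v) → x s(u, v) = y s(u, v)) →
      (∀ v, dg x v = dg y v) → f0 x = f0 y := by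
  induction W using Finset.induction_on with
  | empty =>
    intro x y h _
    congr 1
    funext e
    induction e using Sym2.ind with
    | _ u v => exact h u v (Or.inl (by simp))
  | insert v W hv ih =>
    -- one improving step
    have step : ∀ x y : Sym2 V → Bool,
        (∀ p q, (p ∉ insert v W ∨ q ∉ insert v W ∨ p = q) → x s(p, q) = y s(p, q)) →
        ∀ a b, x s(v, a) = true → y s(v, a) = false → x s(v, b) = false → y s(v, b) = true →
        ∑ c ∈ (insert v W).erase a, (x s(a, c)).toNat
          ≤ ∑ c ∈ (insert v W).erase b, (x s(b, c)).toNat →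
        ∃ x' : Sym2 V → Bool, f0 x' = f0 x ∧
          (∀ p q, (p ∉ insert v W ∨ q ∉ insert v W ∨ p = q) → x' s(p, q) = y s(p, q)) ∧
          (∀ u, dg x' u = dg x u) ∧
          (univ.filter fun u => x' s(v, u) ≠ y s(v, u)).card
            < (univ.filter fun u => x s(v, u) ≠ y s(v, u)).card := by
      intro x y h a b xa ya xb yb hle
      have ha : a ∈ W ∧ a ≠ v := by
        by_contra hc
        have := h v a (by simp only [mem_insert]; grind)
        rw [xa, ya] at this; simp at this
      have hb : b ∈ W ∧ b ≠ v := by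
        by_contra hc
        have := h v b (by simp only [mem_insert]; grind)
        rw [xb, yb] at this; simp at this
      have hab : a ≠ b := by rintro rfl; rw [xa] at xb; simp at xb
      obtain ⟨c, hc, c1, c2⟩ : ∃ c ∈ (W.erase a).erase b, x s(b, c) = true ∧ x s(a, c) = false := by
        by_contra hcon
        push Not at hcon
        have e1 : (insert v W).erase a = insert v (insert b ((W.erase a).erase b)) := by
          ext c; simp only [mem_erase, mem_insert]; grind
        have e2 : (insert v W).erase b = insert v (insert a ((W.erase a).erase b)) := by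
          ext c; simp only [mem_erase, mem_insert]; grind
        rw [e1, e2, sum_insert (by simp only [mem_erase, mem_insert]; grind), sum_insert (by simp),
          sum_insert (by simp only [mem_erase, mem_insert]; grind), sum_insert (by simp),
          Sym2.eq_swap (a := a) (b := v), Sym2.eq_swap (a := b) (b := v),
          Sym2.eq_swap (a := b) (b := a), xa, xb] at hle
        have : ∑ c ∈ (W.erase a).erase b, (x s(b, c)).toNat
            ≤ ∑ c ∈ (W.erase a).erase b, (x s(a, c)).toNat := by
          apply sum_le_sum; intro c hc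
          have := hcon c hc
          revert this; cases x s(b, c) <;> cases x s(a, c) <;> simp
        simp only [Bool.toNat_true, Bool.toNat_false] at hle
        omega
      simp only [mem_erase] at hc
      have hcv : c ≠ v := by rintro rfl; exact hv hc.2.2
      have hD : Dist v c a b := ⟨hcv.symm, ha.2.symm, hb.2.symm, hc.2.1, hc.1, hab⟩
      have hDc : Dc (row v) (row c) a b x := by
        unfold Dc D4 row
        rw [Sym2.eq_swap (a := c) (b := a), Sym2.eq_swap (a := c) (b := b), xa, xb, c1, c2]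
        simp
      refine ⟨sw (row v) (row c) a b x, h0 _ _ _ _ hD x, fun p q hpq => ?_, dg_sw hD x, ?_⟩
      · rw [sw_other, h p q hpq]
        all_goals (simp only [row, ne_eq, Sym2.eq_iff, mem_insert] at hpq ⊢; grind)
      · apply card_lt_card
        rw [ssubset_iff_of_subset]
        · refine ⟨a, by simp [xa, ya], ?_⟩
          have := sw_1 hDc
          simp only [row] at this
          simp [this, xa, ya]
        · intro u hu
          simp only [mem_filter, mem_univ, true_and] at hu ⊢
          by_cases h1 : u = a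
          · rw [h1, xa, ya]; simp
          by_cases h2 : u = b
          · rw [h2, xb, yb]; simp
          rwa [sw_other] at hu
          all_goals (simp only [row, ne_eq, Sym2.eq_iff]; grind)
    intro x y h hd
    generalize hn : (univ.filter fun u => x s(v, u) ≠ y s(v, u)).card = n
    induction n using Nat.strong_induction_on generalizing x y with
    | _ n ihn =>
      by_cases hall : ∀ u, x s(v, u) = y s(v, u)
      · apply ih x y _ hd
        intro p q hpq
        by_cases h1 : p = v
        · rw [h1]; exact hall q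
        by_cases h2 : q = v
        · rw [h2, Sym2.eq_swap]; exact hall p
        exact h p q (by simp only [mem_insert]; grind)
      have hvv : x s(v, v) = y s(v, v) := h v v (Or.inr (Or.inr rfl))
      have ex : ∀ x y : Sym2 V → Bool, dg x v = dg y v → x s(v, v) = y s(v, v) →
          (¬ ∀ u, x s(v, u) = y s(v, u)) → ∃ a, x s(v, a) = true ∧ y s(v, a) = false := by
        intro x y hd hvv hall
        by_contra hcon
        push Not at hcon
        apply hall
        have hle : ∀ u ∈ univ.erase v, (x s(v, u)).toNat ≤ (y s(v, u)).toNat := by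
          intro u _
          have := hcon u
          revert this; cases x s(v, u) <;> cases y s(v, u) <;> simp
        have := (sum_eq_sum_iff_of_le hle).mp hd
        intro u
        by_cases hu : u = v
        · rw [hu, hvv]
        · exact toNat_inj' (this u (by simp [hu]))
      obtain ⟨a, xa, ya⟩ := ex x y (hd v) hvv hall
      obtain ⟨b, yb, xb⟩ := ex y x (hd v).symm hvv.symm (fun h => hall fun u => (h u).symm)
      have dW : ∀ u, ∑ c ∈ (insert v W).erase u, (x s(u, c)).toNat
          = ∑ c ∈ (insert v W).erase u, (y s(u, c)).toNat := by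
        intro u
        have := hd u
        unfold dg at this
        have hsub : (insert v W).erase u ⊆ univ.erase u := erase_subset_erase _ (subset_univ _)
        rw [← sum_sdiff hsub, ← sum_sdiff hsub] at this
        have e : ∑ c ∈ univ.erase u \ (insert v W).erase u, (x s(u, c)).toNat
            = ∑ c ∈ univ.erase u \ (insert v W).erase u, (y s(u, c)).toNat := by
          apply sum_congr rfl; intro c hc
          rw [h u c (by simp only [mem_sdiff, mem_erase, mem_univ] at hc; grind)]
        omega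
      rcases le_total (∑ c ∈ (insert v W).erase a, (x s(a, c)).toNat)
        (∑ c ∈ (insert v W).erase b, (x s(b, c)).toNat) with hle | hle
      · obtain ⟨x', e1, e2, e3, e4⟩ := step x y h a b xa ya xb yb hle
        rw [← e1]
        exact ihn _ (hn ▸ e4) x' y e2 (fun u => (e3 u).trans (hd u)) rfl
      · obtain ⟨y', e1, e2, e3, e4⟩ := step y x (fun p q hpq => (h p q hpq).symm) b a yb xb ya xa
          (by rw [← dW, ← dW]; exact hle)
        rw [← e1]
        refine ihn _ ?_ x y' (fun p q hpq => (e2 p q hpq).symm) (fun u => (hd u).trans (e3 u).symm) rfl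
        rw [← hn]
        simpa only [ne_comm] using e4

end Crest.Agent.R299
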