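import Crest.Agent.R299.Cube

set_option autoImplicit false
set_option linter.unusedSectionVars false
open Finset

namespace Crest.Agent.R299

variable {Y : Type*} [Fintype Y] [DecidableEq Y]

/-- indicator that `k` and `l` are split -/
def spl (z : Y → Bool) (k l : Y) : ℝ := if z k ≠ z l then 1 else 0

lemma spl_symm (z : Y → Bool) (k l : Y) : spl z k l = spl z l k := by
  unfold spl; cases z k <;> cases z l <;> simp

lemma spl_self (z : Y → Bool) (k : Y) : spl z k k = 0 := by simp [spl]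

lemma spl_nonneg (z : Y → Bool) (k l : Y) : 0 ≤ spl z k l := by
  unfold spl; split_ifs <;> norm_num

lemma spl_tau (z : Y → Bool) (u v k l : Y) :
    spl (tau u v z) k l = spl z (Equiv.swap u v k) (Equiv.swap u v l) := rfl

lemma spl_sq (z : Y → Bool) (u v j : Y) : (spl z u j - spl z v j) ^ 2 = spl z u v := by
  unfold spl; cases z u <;> cases z v <;> cases z j <;> simp

lemma sum_spl (z : Y → Bool) :
    ∑ k, ∑ l, spl z k l = 2 * Fintype.card Y * (cnt z : ℝ) - 2 * (cnt z : ℝ) ^ 2 := by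
  have : ∀ k l, spl z k l = ((z k).toNat : ℝ) + ((z l).toNat : ℝ)
      - 2 * (((z k).toNat : ℝ) * ((z l).toNat : ℝ)) := by
    intro k l; unfold spl; cases z k <;> cases z l <;> simp; norm_num
  have hc : ∑ k, ((z k).toNat : ℝ) = cnt z := by simp [cnt]
  simp only [this, sum_sub_distrib, sum_add_distrib, ← mul_sum, ← sum_mul, hc, sum_const,
    card_univ, nsmul_eq_mul]
  ring

lemma slice_J (S : Finset (Y → Bool)) (a : ℕ) (hS : ∀ z, z ∈ S ↔ cnt z = a)
    (g : (Y → Bool) → ℝ) (hg : ∑ z ∈ S, g z = 0) (δ : ℝ) (hδ0 : 0 ≤ δ)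
    (hδ : ∀ k l, k ≠ l → ∑ z ∈ S, spl z k l = δ) :
    4 * ∑ k, ∑ l, (∑ z ∈ S, g z * spl z k l) ^ 2
      ≤ δ * ∑ u, ∑ v, ∑ z ∈ S, (g z - g (tau u v z)) ^ 2 := by
  set c : Y → Y → ℝ := fun k l => ∑ z ∈ S, g z * spl z k l with hc
  have hcs : ∀ k l, c k l = c l k := by intro k l; simp only [hc, spl_symm _ k l]
  have hcd : ∀ k, c k k = 0 := by intro k; simp [hc, spl_self]
  set EE := ∑ u, ∑ v, ∑ z ∈ S, (g z - g (tau u v z)) ^ 2 with hEE
  have hEE0 : 0 ≤ EE := sum_nonneg fun u _ => sum_nonneg fun v _ => sum_nonneg fun z _ => sq_nonneg _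
  change 4 * ∑ k, ∑ l, c k l ^ 2 ≤ δ * EE
  by_cases hY : Fintype.card Y < 2
  · have : Subsingleton Y := Fintype.card_le_one_iff_subsingleton.mp (by omega)
    have : ∑ k, ∑ l, c k l ^ 2 = 0 := by
      refine sum_eq_zero fun k _ => sum_eq_zero fun l _ => ?_
      rw [Subsingleton.elim k l, hcd]; simp
    rw [this]; simpa using mul_nonneg hδ0 hEE0
  set m : ℝ := (Fintype.card Y : ℝ) with hm
  have hm2 : 2 ≤ m := by rw [hm]; exact_mod_cast not_lt.mp hY
  have h0 : ∑ k, ∑ l, c k l = 0 := by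
    simp only [hc]
    rw [sum_congr rfl (fun k _ => sum_comm), sum_comm]
    simp only [← mul_sum, sum_spl]
    rw [sum_congr rfl (fun z hz => by rw [(hS z).mp hz]), ← sum_mul, hg, zero_mul]
  set e : Y → Y → ℝ := fun k l => m * c k l + ∑ j, c k j + ∑ j, c l j with he
  have hes : ∀ k l, e k l = e l k := by intro k l; simp only [he, hcs k l]; ring
  obtain ⟨F1, F2⟩ := array_facts c hcs hcd h0 m hm hm2 e (fun _ _ => rfl)
  set s := ∑ k, ∑ l, c k l ^ 2 with hs
  have hs0 : 0 ≤ s := sum_nonneg fun k _ => sum_nonneg fun l _ => sq_nonneg _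
  let ψ : (Y → Bool) → ℝ := fun z => ∑ k, ∑ l, e k l * spl z k l
  have hψ : ∀ u v z, ψ z - ψ (tau u v z) =
      ∑ k, ∑ l, (e k l - e (Equiv.swap u v k) (Equiv.swap u v l)) * spl z k l := by
    intro u v z
    have : ψ (tau u v z) = ∑ k, ∑ l, e (Equiv.swap u v k) (Equiv.swap u v l) * spl z k l := by
      simp only [ψ, spl_tau]
      rw [← Equiv.sum_comp (Equiv.swap u v)]
      apply sum_congr rfl; intro k _
      rw [← Equiv.sum_comp (Equiv.swap u v)]
      simp
    rw [this]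
    simp only [ψ, ← sum_sub_distrib, sub_mul]
  have hSτ : ∀ u v, ∀ z ∈ S, tau u v z ∈ S := by
    intro u v z hz; rw [hS, cnt_tau, ← hS]; exact hz
  have A : ∑ u, ∑ v, ∑ z ∈ S, (g z - g (tau u v z)) * (ψ z - ψ (tau u v z))
      = 8 * m * (m - 1) * s := by
    have a1 : ∀ u v, ∑ z ∈ S, (g z - g (tau u v z)) * (ψ z - ψ (tau u v z))
        = 2 * ∑ k, ∑ l, (e k l - e (Equiv.swap u v k) (Equiv.swap u v l)) * c k l := by
      intro u v
      have := sum_invol_form S (tau u v) (tau_tau u v) (hSτ u v) g ψ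
      have b : ∑ z ∈ S, g z * (ψ z - ψ (tau u v z))
          = ∑ k, ∑ l, (e k l - e (Equiv.swap u v k) (Equiv.swap u v l)) * c k l := by
        simp only [hψ, hc, mul_sum]
        rw [sum_comm]
        apply sum_congr rfl; intro k _
        rw [sum_comm]
        apply sum_congr rfl; intro l _
        exact sum_congr rfl fun z _ => by ring
      rw [← b, this]; ring
    simp only [a1, ← mul_sum]
    have a2 : ∑ u, ∑ v, ∑ k, ∑ l, (e k l - e (Equiv.swap u v k) (Equiv.swap u v l)) * c k l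
        = ∑ k, ∑ l, ∑ u, ∑ v, (e k l - e (Equiv.swap u v k) (Equiv.swap u v l)) * c k l := by
      rw [sum_congr rfl (fun u _ => sum_comm), sum_comm]
      apply sum_congr rfl; intro k _
      rw [sum_congr rfl (fun u _ => sum_comm), sum_comm]
    rw [a2]
    have a3 : ∀ k l, ∑ u, ∑ v, (e k l - e (Equiv.swap u v k) (Equiv.swap u v l)) * c k l
        = 4 * m * (m - 1) * c k l ^ 2 := by
      intro k l
      by_cases hkl : k = l
      · subst hkl; simp [hcd]
      · simp only [← sum_mul]; rw [F1 k l hkl]; ring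
    simp only [a3, ← mul_sum, ← hs]; ring
  have B : ∀ u v, ∑ z ∈ S, (ψ z - ψ (tau u v z)) ^ 2
      ≤ 4 * m * δ * ∑ j, (if j ≠ u ∧ j ≠ v then (e u j - e v j) ^ 2 else 0) := by
    intro u v
    set W := ∑ j, (if j ≠ u ∧ j ≠ v then (e u j - e v j) ^ 2 else 0) with hW
    have hW0 : 0 ≤ W := sum_nonneg fun j _ => by split_ifs <;> positivity
    by_cases huv : u = v
    · subst huv
      have : ∀ z, tau u u z = z := by intro z; funext y; simp [tau_apply]
      simp only [this, sub_self]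
      simp only [ne_eq, OfNat.ofNat_ne_zero, not_false_eq_true, zero_pow, sum_const_zero]
      positivity
    have b1 : ∀ z, ψ z - ψ (tau u v z) =
        2 * ∑ j, (if j ≠ u ∧ j ≠ v then (e u j - e v j) else 0) * (spl z u j - spl z v j) := by
      intro z
      rw [hψ]
      have : ∀ k l, (e k l - e (Equiv.swap u v k) (Equiv.swap u v l)) * spl z k l =
          (if u = k then (if v ≠ k ∧ v ≠ l then e k l - e v l else 0) * spl z k l else 0) +
          (if v = k then (if u ≠ k ∧ u ≠ l then e k l - e u l else 0) * spl z k l else 0) +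
          (if u = l then (if v ≠ k ∧ v ≠ l then e k l - e k v else 0) * spl z k l else 0) +
          (if v = l then (if u ≠ k ∧ u ≠ l then e k l - e k u else 0) * spl z k l else 0) := by
        intro k l
        by_cases hkl : k = l
        · subst hkl; simp [spl_self]
        · rw [swap_decomp e hes u v k l hkl]
          simp only [add_mul, ite_mul, zero_mul]
      simp only [this, sum_add_distrib, sum_ite_eq, mem_univ, if_true, sum_ite_irrel,
        sum_const_zero]
      rw [mul_sum, ← sum_add_distrib, ← sum_add_distrib, ← sum_add_distrib]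
      apply sum_congr rfl; intro j _
      have hvu : v ≠ u := Ne.symm huv
      by_cases h1 : j = u
      · subst h1; simp [spl_self]
      by_cases h2 : j = v
      · subst h2; simp [spl_self]
      · simp only [ne_eq, huv, hvu, h1, h2, Ne.symm h1, Ne.symm h2, not_false_eq_true, and_self,
          if_true, hes j u, hes j v, spl_symm z j u, spl_symm z j v]
        ring
    have b2 : ∀ z, (ψ z - ψ (tau u v z)) ^ 2 ≤ 4 * m * W * spl z u v := by
      intro z
      rw [b1, mul_pow]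
      have cs := sum_mul_sq_le_sq_mul_sq univ
        (fun j => if j ≠ u ∧ j ≠ v then (e u j - e v j) else 0) (fun j => spl z u j - spl z v j)
      simp only [spl_sq, sum_const, card_univ, nsmul_eq_mul, ← hm] at cs
      have : ∑ j, (if j ≠ u ∧ j ≠ v then (e u j - e v j) else 0) ^ 2 = W := by
        rw [hW]; exact sum_congr rfl fun j _ => by split_ifs <;> simp
      rw [this] at cs
      nlinarith
    calc ∑ z ∈ S, (ψ z - ψ (tau u v z)) ^ 2 ≤ ∑ z ∈ S, 4 * m * W * spl z u v :=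
          sum_le_sum fun z _ => b2 z
      _ = 4 * m * δ * W := by rw [← mul_sum, hδ u v huv]; ring
  have B' : ∑ u, ∑ v, ∑ z ∈ S, (ψ z - ψ (tau u v z)) ^ 2 ≤ 16 * m ^ 2 * (m - 1) ^ 2 * δ * s := by
    calc _ ≤ ∑ u, ∑ v, 4 * m * δ * ∑ j, (if j ≠ u ∧ j ≠ v then (e u j - e v j) ^ 2 else 0) :=
          sum_le_sum fun u _ => sum_le_sum fun v _ => B u v
      _ = 4 * m * δ * ∑ u, ∑ v, ∑ j, (if j ≠ u ∧ j ≠ v then (e u j - e v j) ^ 2 else 0) := by
          simp only [mul_sum]
      _ ≤ 4 * m * δ * (4 * m * (m - 1) ^ 2 * s) :=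
          mul_le_mul_of_nonneg_left F2 (by positivity)
      _ = _ := by ring
  have cs := sum_mul_sq_le_sq_mul_sq ((univ : Finset Y) ×ˢ (univ : Finset Y) ×ˢ S)
    (fun t => g t.2.2 - g (tau t.1 t.2.1 t.2.2)) (fun t => ψ t.2.2 - ψ (tau t.1 t.2.1 t.2.2))
  simp only [sum_product] at cs
  rw [A, ← hEE] at cs
  have c2 : (8 * m * (m - 1) * s) ^ 2 ≤ EE * (16 * m ^ 2 * (m - 1) ^ 2 * δ * s) :=
    cs.trans (mul_le_mul_of_nonneg_left B' hEE0)
  rcases hs0.eq_or_lt with h | h
  · rw [← h]; simpa using mul_nonneg hδ0 hEE0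
  · have hp : 0 < 16 * m ^ 2 * (m - 1) ^ 2 * s := by
      have : 0 < m - 1 := by linarith
      have : 0 < m := by linarith
      positivity
    have : (16 * m ^ 2 * (m - 1) ^ 2 * s) * (4 * s) ≤ (16 * m ^ 2 * (m - 1) ^ 2 * s) * (δ * EE) := by
      nlinarith
    exact le_of_mul_le_mul_left this hp

/-- same count and same split status of `k, l` -/
def rD (k l : Y) (z z' : Y → Bool) : Prop := cnt z = cnt z' ∧ (z k ≠ z l ↔ z' k ≠ z' l)

lemma rD_equiv (k l : Y) : Equivalence (rD k l) :=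
  ⟨fun _ => ⟨rfl, Iff.rfl⟩, fun h => ⟨h.1.symm, h.2.symm⟩,
    fun h h' => ⟨h.1.trans h'.1, h.2.trans h'.2⟩⟩

lemma sum_spl_swap (S : Finset (Y → Bool)) (hS : ∀ u v, ∀ z ∈ S, tau u v z ∈ S) (u v k l : Y) :
    ∑ z ∈ S, spl z k l = ∑ z ∈ S, spl z (Equiv.swap u v k) (Equiv.swap u v l) := by
  apply sum_nbij' (tau u v) (tau u v) (hS u v) (hS u v) (fun x _ => tau_tau u v x)
    (fun x _ => tau_tau u v x)
  intro z _
  rw [spl_tau]; simp

theorem cube_J (h : (Y → Bool) → ℝ) :
    ∑ z, ∑ k, ∑ l, spl z k l * (Eop (rD k l) h z - Eop rc h z) ^ 2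
      ≤ ∑ z, ∑ k, ∑ l, ((h z - h (tau k l z)) / 2) ^ 2 := by
  apply sum_le_of_cls rc_equiv
  intro z0
  set S := cls rc z0 with hSdef
  have hS : ∀ z, z ∈ S ↔ cnt z = cnt z0 := by
    intro z; rw [hSdef, mem_cls]; exact eq_comm
  have hSτ : ∀ u v, ∀ z ∈ S, tau u v z ∈ S := by
    intro u v z hz; rw [hS, cnt_tau, ← hS]; exact hz
  set g : (Y → Bool) → ℝ := fun z => h z - Eop rc h z0 with hg
  have hg0 : ∑ z ∈ S, g z = 0 := sum_cls_sub_Eop rc_equiv h z0
  have hRHS : ∑ z ∈ S, ∑ k, ∑ l, ((h z - h (tau k l z)) / 2) ^ 2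
      = (1 / 4) * ∑ u, ∑ v, ∑ z ∈ S, (g z - g (tau u v z)) ^ 2 := by
    rw [sum_comm, mul_sum]
    apply sum_congr rfl; intro k _
    rw [sum_comm, mul_sum]
    apply sum_congr rfl; intro l _
    rw [mul_sum]
    exact sum_congr rfl fun z _ => by simp only [hg]; ring
  have hEE0 : 0 ≤ ∑ u, ∑ v, ∑ z ∈ S, (g z - g (tau u v z)) ^ 2 :=
    sum_nonneg fun u _ => sum_nonneg fun v _ => sum_nonneg fun z _ => sq_nonneg _
  obtain ⟨δ, hδ0, hδ⟩ : ∃ δ : ℝ, 0 ≤ δ ∧ ∀ k l, k ≠ l → ∑ z ∈ S, spl z k l = δ := by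
    by_cases hY : ∃ k0 l0 : Y, k0 ≠ l0
    · obtain ⟨k0, l0, hne⟩ := hY
      refine ⟨∑ z ∈ S, spl z k0 l0, sum_nonneg fun z _ => spl_nonneg _ _ _, ?_⟩
      intro k l hkl
      rw [sum_spl_swap S hSτ k k0 k l, Equiv.swap_apply_left]
      set l' := Equiv.swap k k0 l with hl'
      have : k0 ≠ l' := by
        intro h1
        apply hkl
        apply (Equiv.swap k k0).injective
        rw [Equiv.swap_apply_left, ← hl', h1]
      rw [sum_spl_swap S hSτ l' l0 k0 l', Equiv.swap_apply_left,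
        Equiv.swap_apply_of_ne_of_ne this hne]
    · exact ⟨0, le_rfl, fun k l hkl => absurd ⟨k, l, hkl⟩ hY⟩
  have main := slice_J S (cnt z0) hS g hg0 δ hδ0 hδ
  have hL : ∀ k l, δ * ∑ z ∈ S, spl z k l * (Eop (rD k l) h z - Eop rc h z) ^ 2
      = (∑ z ∈ S, g z * spl z k l) ^ 2 := by
    intro k l
    by_cases hkl : k = l
    · subst hkl; simp [spl_self]
    set D := S.filter (fun z => z k ≠ z l) with hD
    have hsum : ∀ φ : (Y → Bool) → ℝ, ∑ z ∈ S, φ z * spl z k l = ∑ z ∈ D, φ z := by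
      intro φ
      rw [hD, sum_filter]
      exact sum_congr rfl fun z _ => by unfold spl; split_ifs <;> simp
    have hcard : (D.card : ℝ) = δ := by
      rw [← hδ k l hkl]
      have := hsum (fun _ => 1)
      simpa using this.symm
    have hval : ∀ z ∈ D, Eop (rD k l) h z - Eop rc h z = (∑ z ∈ D, g z) / δ := by
      intro z hz
      have hz' := mem_filter.mp hz
      have h1 : cls (rD k l) z = D := by
        ext w
        rw [mem_cls, hD, mem_filter, hS, rD, (hS z).mp hz'.1]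
        constructor
        · rintro ⟨a, b⟩; exact ⟨a.symm, b.mp hz'.2⟩
        · rintro ⟨a, b⟩; exact ⟨a.symm, ⟨fun _ => b, fun _ => hz'.2⟩⟩
      have h2 : Eop rc h z = Eop rc h z0 := Eop_congr rc_equiv h ((hS z).mp hz'.1)
      have hpos : (0 : ℝ) < D.card := by exact_mod_cast card_pos.mpr ⟨z, hz⟩
      rw [Eop_apply, h1, h2, ← hcard]
      simp only [hg, sum_sub_distrib, sum_const, nsmul_eq_mul]
      field_simp
    rw [hsum g, sum_congr rfl (fun z _ => mul_comm _ _), hsum, sum_congr rfl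
      (fun z hz => by rw [hval z hz]), sum_const, nsmul_eq_mul, hcard]
    by_cases hδz : δ = 0
    · have : D = ∅ := by
        rw [hδz] at hcard
        exact card_eq_zero.mp (by exact_mod_cast hcard)
      simp [this, hδz]
    · field_simp
  have hLHS : ∑ z ∈ S, ∑ k, ∑ l, spl z k l * (Eop (rD k l) h z - Eop rc h z) ^ 2
      = ∑ k, ∑ l, ∑ z ∈ S, spl z k l * (Eop (rD k l) h z - Eop rc h z) ^ 2 := by
    rw [sum_comm]; exact sum_congr rfl fun k _ => sum_comm
  rw [hRHS, hLHS]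
  rcases hδ0.eq_or_lt with hz | hpos
  · have : ∑ k, ∑ l, ∑ z ∈ S, spl z k l * (Eop (rD k l) h z - Eop rc h z) ^ 2 = 0 := by
      refine sum_eq_zero fun k _ => sum_eq_zero fun l _ => ?_
      by_cases hkl : k = l
      · subst hkl; simp [spl_self]
      · have h1 := hδ k l hkl
        rw [← hz] at h1
        have h2 := (sum_eq_zero_iff_of_nonneg (fun z _ => spl_nonneg z k l)).mp h1
        exact sum_eq_zero fun z hz => by rw [h2 z hz, zero_mul]
    rw [this]; positivity
  · have : δ * ∑ k, ∑ l, ∑ z ∈ S, spl z k l * (Eop (rD k l) h z - Eop rc h z) ^ 2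
        = ∑ k, ∑ l, (∑ z ∈ S, g z * spl z k l) ^ 2 := by
      simp only [mul_sum (a := δ) (s := univ), hL]
    apply le_of_mul_le_mul_left _ hpos
    rw [this]; linarith

end Crest.Agent.R299
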