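import Crest.Agent.R299.Global
import Crest.Prelude.Def_SwitchChain

set_option autoImplicit false
set_option linter.unusedSectionVars false
open Finset
open Crest.SwitchChain

namespace Crest.Agent.R299

variable {n : ℕ}

/-- an edge from two distinct endpoints -/
def mkE (a b : Fin n) (h : a ≠ b) : Edge n := ⟨s(a, b), by simpa using h⟩

lemma mem_pmSet {S : Finset (Fin n)} {F : Finset (Edge n)} : F ∈ pmSet S ↔ F.card = 2 ∧
    (∀ e ∈ F, ∀ v : Fin n, v ∈ e.1 → v ∈ S) ∧ ∀ v ∈ S, (F.filter fun e => v ∈ e.1).card = 1 := by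
  simp [pmSet, mem_powersetCard]

lemma pm_mem {a x y z : Fin n} (h1 : a ≠ x) (h2 : a ≠ y) (h3 : a ≠ z) (h4 : x ≠ y) (h5 : x ≠ z)
    (h6 : y ≠ z) {S : Finset (Fin n)} (hS : ∀ v, v ∈ S ↔ v = a ∨ v = x ∨ v = y ∨ v = z) :
    ({mkE a x h1, mkE y z h6} : Finset (Edge n)) ∈ pmSet S := by
  have hne : mkE a x h1 ≠ mkE y z h6 := by
    simp only [mkE, ne_eq, Subtype.mk.injEq, Sym2.eq_iff]; grind
  rw [mem_pmSet]
  refine ⟨card_pair hne, ?_, ?_⟩
  · intro e he v hv
    simp only [mem_insert, mem_singleton] at he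
    rcases he with rfl | rfl <;> simp only [mkE, Sym2.mem_iff] at hv <;> rw [hS] <;> grind
  · intro v hv
    rw [hS] at hv
    rw [filter_insert, filter_singleton]
    simp only [mkE, Sym2.mem_iff]
    rcases hv with rfl | rfl | rfl | rfl <;>
      simp [h1, h2, h3, h4, h5, h6, h1.symm, h2.symm, h3.symm, h4.symm, h5.symm, h6.symm]

lemma pm_eq {a x y z : Fin n} (h1 : a ≠ x) (h6 : y ≠ z) {S : Finset (Fin n)}
    (hS : ∀ v, v ∈ S ↔ v = a ∨ v = x ∨ v = y ∨ v = z) {F : Finset (Edge n)} (hF : F ∈ pmSet S)
    (he : mkE a x h1 ∈ F) : F = {mkE a x h1, mkE y z h6} := by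
  rw [mem_pmSet] at hF
  obtain ⟨c2, hin, hone⟩ := hF
  obtain ⟨e, hne, rfl⟩ : ∃ e, e ≠ mkE a x h1 ∧ F = {mkE a x h1, e} := by
    obtain ⟨p, q, hpq, rfl⟩ := card_eq_two.mp c2
    simp only [mem_insert, mem_singleton] at he
    rcases he with rfl | rfl
    · exact ⟨q, hpq.symm, rfl⟩
    · exact ⟨p, hpq, pair_comm _ _⟩
  have nota : ∀ v, v ∈ (mkE a x h1).1 → v ∉ e.1 := by
    intro v hv hv'
    have := hone v (hin _ he v hv)
    rw [filter_insert, filter_singleton, if_pos hv, if_pos hv', card_pair hne.symm] at this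
    omega
  obtain ⟨e, hd⟩ := e
  induction e using Sym2.ind with
  | _ p q =>
    have hpq : p ≠ q := by simpa using hd
    have i1 := (hS p).mp (hin ⟨s(p, q), hd⟩ (by simp) p (by simp))
    have i2 := (hS q).mp (hin ⟨s(p, q), hd⟩ (by simp) q (by simp))
    have n1 := nota a (by simp [mkE])
    have n2 := nota x (by simp [mkE])
    simp only [Sym2.mem_iff] at n1 n2
    congr 2
    simp only [mkE, Subtype.mk.injEq, Sym2.eq_iff]
    grind

lemma card_pmSet {S : Finset (Fin n)} (h : S.card = 4) : (pmSet S).card = 3 := by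
  obtain ⟨a, b, c, d, ab, ac, ad, bc, bd, cd, rfl⟩ := card_eq_four.mp h
  rw [card_eq_three]
  refine ⟨{mkE a b ab, mkE c d cd}, {mkE a c ac, mkE b d bd}, {mkE a d ad, mkE b c bc},
    ?_, ?_, ?_, ?_⟩
  · intro h
    have : mkE a b ab ∈ ({mkE a c ac, mkE b d bd} : Finset (Edge n)) := h ▸ mem_insert_self _ _
    simp only [mem_insert, mem_singleton, mkE, Subtype.mk.injEq, Sym2.eq_iff] at this; grind
  · intro h
    have : mkE a b ab ∈ ({mkE a d ad, mkE b c bc} : Finset (Edge n)) := h ▸ mem_insert_self _ _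
    simp only [mem_insert, mem_singleton, mkE, Subtype.mk.injEq, Sym2.eq_iff] at this; grind
  · intro h
    have : mkE a c ac ∈ ({mkE a d ad, mkE b c bc} : Finset (Edge n)) := h ▸ mem_insert_self _ _
    simp only [mem_insert, mem_singleton, mkE, Subtype.mk.injEq, Sym2.eq_iff] at this; grind
  · ext F
    simp only [mem_insert, mem_singleton]
    constructor
    · intro hF
      have hF' := mem_pmSet.mp hF
      obtain ⟨e, he⟩ := card_eq_one.mp (hF'.2.2 a (by simp))
      have hm : e ∈ F.filter fun e => a ∈ e.1 := he ▸ mem_singleton_self _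
      rw [mem_filter] at hm
      obtain ⟨e, hd⟩ := e
      obtain ⟨x, rfl⟩ : ∃ x, e = s(a, x) := Sym2.mem_iff_exists.mp hm.2
      have hx := hF'.2.1 _ hm.1 x (by simp)
      have hax : a ≠ x := by simpa using hd
      simp only [mem_insert, mem_singleton] at hx
      rcases hx with rfl | rfl | rfl | rfl
      · exact absurd rfl hax
      · exact Or.inl (pm_eq ab cd (by simp) hF hm.1)
      · exact Or.inr (Or.inl (pm_eq ac bd (by simp; grind) hF hm.1))
      · exact Or.inr (Or.inr (pm_eq ad bc (by simp; grind) hF hm.1))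
    · rintro (rfl | rfl | rfl)
      · exact pm_mem ab ac ad bc bd cd (by simp)
      · exact pm_mem ac ab ad bc.symm cd bd (by simp; grind)
      · exact pm_mem ad ab ac bd.symm cd.symm bc (by simp; grind)

/-- sum over all proposals -/
def psum (φ : Finset (Edge n) → Finset (Edge n) → ℝ) : ℝ :=
  ∑ S ∈ (univ : Finset (Fin n)).powersetCard 4, ∑ F ∈ pmSet S, ∑ F' ∈ (pmSet S).erase F, φ F F'

lemma psum_const (c : ℝ) : psum (n := n) (fun _ _ => c) = 6 * (n.choose 4 : ℝ) * c := by
  unfold psum
  have : ∀ S ∈ (univ : Finset (Fin n)).powersetCard 4,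
      ∑ F ∈ pmSet S, ∑ _F' ∈ (pmSet S).erase F, c = 6 * c := by
    intro S hS
    have h3 := card_pmSet (mem_powersetCard.mp hS).2
    rw [sum_congr rfl (fun F hF => by rw [sum_const, card_erase_of_mem hF, h3]), sum_const, h3]
    simp; ring
  rw [sum_congr rfl this, sum_const, card_powersetCard, card_univ, Fintype.card_fin]
  simp; ring

lemma psum_swap (φ : Finset (Edge n) → Finset (Edge n) → ℝ) :
    psum φ = psum (fun F F' => φ F' F) := by
  unfold psum
  refine sum_congr rfl fun S _ => ?_
  apply sum_comm'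
  intro F F'
  simp only [mem_erase]; tauto

lemma pc_eq (G G' : Finset (Edge n)) : (proposalCount G G' : ℝ)
    = psum fun F F' => if switchResult G F F' = G' then 1 else 0 := by
  simp [proposalCount, psum]

lemma switch_back {G F F' : Finset (Edge n)} (h : switchResult G F F' ≠ G) :
    switchResult (switchResult G F F') F' F = G := by
  have hc : F ⊆ G ∧ Disjoint F' G := by
    by_contra hc; exact h (if_neg hc)
  have e : switchResult G F F' = G \ F ∪ F' := if_pos hc
  rw [e, switchResult, if_pos]
  · ext x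
    have h1 := @hc.1 x
    have h2 : x ∈ F' → x ∉ G := fun hx => disjoint_left.mp hc.2 hx
    simp only [mem_union, mem_sdiff]; tauto
  · refine ⟨subset_union_right, disjoint_left.mpr fun x hx => ?_⟩
    have h1 := hc.1 hx
    have h2 : x ∈ F' → x ∉ G := fun hx => disjoint_left.mp hc.2 hx
    simp only [mem_union, mem_sdiff]; tauto

lemma pc_symm (G G' : Finset (Edge n)) : (proposalCount G G' : ℝ) = proposalCount G' G := by
  by_cases h : G = G'
  · rw [h]
  rw [pc_eq, pc_eq, psum_swap]
  congr 1
  funext F F'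
  congr 1
  apply propext
  constructor
  · rintro rfl; exact switch_back (Ne.symm h)
  · rintro rfl; exact switch_back h

lemma deg_pm {S : Finset (Fin n)} {F : Finset (Edge n)} (hF : F ∈ pmSet S) (v : Fin n) :
    deg F v = if v ∈ S then 1 else 0 := by
  rw [mem_pmSet] at hF
  split_ifs with h
  · exact hF.2.2 v h
  · unfold deg
    rw [card_eq_zero, filter_eq_empty_iff]
    exact fun e he hv => h (hF.2.1 e he v hv)

lemma deg_switch {S : Finset (Fin n)} {F F' : Finset (Edge n)} (hF : F ∈ pmSet S)
    (hF' : F' ∈ pmSet S) (G : Finset (Edge n)) (v : Fin n) :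
    deg (switchResult G F F') v = deg G v := by
  unfold switchResult
  split_ifs with h
  · have e := (deg_pm hF v).trans (deg_pm hF' v).symm
    unfold deg at e ⊢
    rw [filter_union, card_union_of_disjoint, ← e]
    · conv_rhs => rw [← sdiff_union_of_subset h.1]
      rw [filter_union, card_union_of_disjoint]
      exact disjoint_filter_filter sdiff_disjoint
    · exact disjoint_filter_filter (Disjoint.mono_left sdiff_subset h.2.symm)
  · rfl

lemma mem_real {d : Fin n → ℕ} {G : Finset (Edge n)} : G ∈ realizations d ↔ ∀ v, deg G v = d v := by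
  simp [realizations]

lemma sum_pc {d : Fin n → ℕ} {G : Finset (Edge n)} (hG : G ∈ realizations d)
    (φ : Finset (Edge n) → ℝ) :
    ∑ G' ∈ realizations d, (proposalCount G G' : ℝ) * φ G'
      = psum fun F F' => φ (switchResult G F F') := by
  simp only [pc_eq, psum, sum_mul]
  rw [sum_comm]
  refine sum_congr rfl fun S _ => ?_
  rw [sum_comm]
  refine sum_congr rfl fun F hF => ?_
  rw [sum_comm]
  refine sum_congr rfl fun F' hF' => ?_
  have : switchResult G F F' ∈ realizations d := by
    rw [mem_real] at hG ⊢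
    intro v; rw [deg_switch hF (mem_of_mem_erase hF'), hG]
  simp [this]

lemma pc_zero {d : Fin n → ℕ} {G G' : Finset (Edge n)} (hG : G ∈ realizations d)
    (hG' : G' ∉ realizations d) : proposalCount G G' = 0 := by
  unfold proposalCount
  refine sum_eq_zero fun S _ => sum_eq_zero fun F hF => sum_eq_zero fun F' hF' => if_neg ?_
  rintro rfl
  apply hG'
  rw [mem_real] at hG ⊢
  intro v; rw [deg_switch hF (mem_of_mem_erase hF'), hG]

/-! ### encoding graphs as Boolean vectors -/

/-- Boolean vector of a graph -/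
def toX (G : Finset (Edge n)) : Sym2 (Fin n) → Bool := fun e => decide (e ∈ G.image Subtype.val)

/-- graph of a Boolean vector -/
def ofX (x : Sym2 (Fin n) → Bool) : Finset (Edge n) := univ.filter fun e => x e.1 = true

lemma toX_val (G : Finset (Edge n)) (e : Edge n) : toX G e.1 = decide (e ∈ G) := by
  unfold toX
  congr 1
  apply propext
  simp only [mem_image]
  exact ⟨fun ⟨e', h1, h2⟩ => Subtype.ext h2 ▸ h1, fun h => ⟨e, h, rfl⟩⟩

lemma toX_mk (G : Finset (Edge n)) {a b : Fin n} (h : a ≠ b) :
    toX G s(a, b) = decide (mkE a b h ∈ G) := toX_val G (mkE a b h)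

lemma toX_diag (G : Finset (Edge n)) (v : Fin n) : toX G s(v, v) = false := by
  unfold toX
  simp only [mem_image, decide_eq_false_iff_not, not_exists, not_and]
  rintro ⟨e, he⟩ - rfl
  exact he (by simp)

lemma ofX_toX (G : Finset (Edge n)) : ofX (toX G) = G := by
  ext e; simp [ofX, toX_val]

lemma toX_ofX {x : Sym2 (Fin n) → Bool} (h : ∀ v, x s(v, v) = false) : toX (ofX x) = x := by
  funext e
  induction e using Sym2.ind with
  | _ p q =>
    by_cases hpq : p = q
    · subst hpq; rw [toX_diag, h]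
    · rw [toX_mk _ hpq]; simp [ofX, mkE]

lemma dg_toX (G : Finset (Edge n)) (v : Fin n) : dg (toX G) v = deg G v := by
  unfold dg deg
  have : ∑ u ∈ univ.erase v, (toX G s(v, u)).toNat
      = ((univ.erase v).filter fun u => toX G s(v, u) = true).card := by
    rw [card_filter]
    exact sum_congr rfl fun u _ => by cases toX G s(v, u) <;> simp
  rw [this]
  apply card_bij (fun u hu => mkE v u (mem_erase.mp (mem_filter.mp hu).1).1.symm)
  · intro u hu
    have h := mem_filter.mp hu
    rw [toX_mk _ (mem_erase.mp h.1).1.symm] at h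
    simp only [mem_filter]
    exact ⟨by simpa using h.2, by simp [mkE]⟩
  · intro u hu u' hu' e
    simp only [mkE, Subtype.mk.injEq] at e
    exact Sym2.congr_right.mp e
  · rintro ⟨e, hd⟩ he
    rw [mem_filter] at he
    obtain ⟨u, rfl⟩ : ∃ u, e = s(v, u) := Sym2.mem_iff_exists.mp he.2
    have hvu : v ≠ u := by simpa using hd
    refine ⟨u, ?_, rfl⟩
    rw [mem_filter, toX_mk _ hvu]
    exact ⟨by simp [hvu.symm], decide_eq_true he.1⟩

lemma ofX_sw {i j k l : Fin n} (h : Dist i j k l) (G : Finset (Edge n)) :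
    ∃ F ∈ pmSet ({i, j, k, l} : Finset (Fin n)), ∃ F' ∈ (pmSet ({i, j, k, l} : Finset (Fin n))).erase F,
      ofX (sw (row i) (row j) k l (toX G)) = switchResult G F F' := by
  obtain ⟨hij, hik, hil, hjk, hjl, hkl⟩ := h
  have m1 : ({mkE i k hik, mkE j l hjl} : Finset (Edge n)) ∈ pmSet ({i, j, k, l} : Finset (Fin n)) :=
    pm_mem hik hij hil hjk.symm hkl hjl (by simp; grind)
  have m2 : ({mkE i l hil, mkE j k hjk} : Finset (Edge n)) ∈ pmSet ({i, j, k, l} : Finset (Fin n)) :=
    pm_mem hil hij hik hjl.symm hkl.symm hjk (by simp; grind)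
  have hne : ({mkE i k hik, mkE j l hjl} : Finset (Edge n)) ≠ {mkE i l hil, mkE j k hjk} := by
    intro h
    have : mkE i k hik ∈ ({mkE i l hil, mkE j k hjk} : Finset (Edge n)) := h ▸ mem_insert_self _ _
    simp only [mem_insert, mem_singleton, mkE, Subtype.mk.injEq, Sym2.eq_iff] at this; grind
  have v1 : toX G (row i k) = decide (mkE i k hik ∈ G) := toX_mk G hik
  have v2 : toX G (row j k) = decide (mkE j k hjk ∈ G) := toX_mk G hjk
  have v3 : toX G (row i l) = decide (mkE i l hil ∈ G) := toX_mk G hil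
  have v4 : toX G (row j l) = decide (mkE j l hjl ∈ G) := toX_mk G hjl
  have hmem : Dc (row i) (row j) k l (toX G) → ∀ e : Edge n,
      e ∈ ofX (sw (row i) (row j) k l (toX G)) ↔
      if e = mkE i k hik ∨ e = mkE j k hjk ∨ e = mkE i l hil ∨ e = mkE j l hjl then e ∉ G
        else e ∈ G := by
    intro hD e
    simp only [ofX, mem_filter, mem_univ, true_and, sw, sw4, toX_val]
    have : (e.1 = row i k ∨ e.1 = row j k ∨ e.1 = row i l ∨ e.1 = row j l) ↔
        (e = mkE i k hik ∨ e = mkE j k hjk ∨ e = mkE i l hil ∨ e = mkE j l hjl) := by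
      simp only [mkE, Subtype.ext_iff, row]
    simp only [this, show D4 (row i k) (row j k) (row i l) (row j l) (toX G) from hD, true_and]
    split_ifs <;> simp
  by_cases hD : Dc (row i) (row j) k l (toX G)
  · have hD' := hD
    unfold Dc D4 at hD'
    rw [v1, v2, v3, v4] at hD'
    by_cases h1 : mkE i k hik ∈ G
    · have h2 : mkE j k hjk ∉ G := by intro h; simp [h, h1] at hD'
      have h3 : mkE i l hil ∉ G := by intro h; simp [h, h1] at hD'
      have h4 : mkE j l hjl ∈ G := by by_contra h; simp [h, h3] at hD'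
      refine ⟨_, m1, _, mem_erase.mpr ⟨hne.symm, m2⟩, ?_⟩
      rw [switchResult, if_pos ⟨by simp [insert_subset_iff, h1, h4], by simp [h2, h3]⟩]
      ext e
      rw [hmem hD]
      simp only [mem_union, mem_sdiff, mem_insert, mem_singleton]
      grind
    · have h2 : mkE j k hjk ∈ G := by by_contra h; simp [h, h1] at hD'
      have h3 : mkE i l hil ∈ G := by by_contra h; simp [h, h1] at hD'
      have h4 : mkE j l hjl ∉ G := by intro h; simp [h, h3] at hD'
      refine ⟨_, m2, _, mem_erase.mpr ⟨hne, m1⟩, ?_⟩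
      rw [switchResult, if_pos ⟨by simp [insert_subset_iff, h2, h3], by simp [h1, h4]⟩]
      ext e
      rw [hmem hD]
      simp only [mem_union, mem_sdiff, mem_insert, mem_singleton]
      grind
  · refine ⟨_, m1, _, mem_erase.mpr ⟨hne.symm, m2⟩, ?_⟩
    rw [sw_of_not hD, ofX_toX, switchResult, if_neg]
    rintro ⟨h1, h2⟩
    apply hD
    unfold Dc D4
    rw [v1, v2, v3, v4]
    simp only [insert_subset_iff, singleton_subset_iff, disjoint_insert_left,
      disjoint_singleton_left] at h1 h2
    simp [h1.1, h1.2, h2.1, h2.2]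

theorem real_poincare (d : Fin n → ℕ) (hd : (realizations d).Nonempty)
    (f : Finset (Edge n) → ℝ) : ∃ c : ℝ, ∑ G ∈ realizations d, (f G - c) ^ 2
      ≤ 16 * ∑ G ∈ realizations d, psum fun F F' => (f G - f (switchResult G F F')) ^ 2 := by
  classical
  let P : (Sym2 (Fin n) → Bool) → Prop := fun x => (∀ v, x s(v, v) = false) ∧ ∀ v, dg x v = d v
  have hP : ∀ G ∈ realizations d, P (toX G) := fun G hG =>
    ⟨toX_diag G, fun v => by rw [dg_toX, mem_real.mp hG]⟩
  have himg : univ.filter P = (realizations d).image toX := by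
    ext x
    simp only [mem_filter, mem_univ, true_and, mem_image]
    constructor
    · intro h
      refine ⟨ofX x, mem_real.mpr fun v => ?_, toX_ofX h.1⟩
      rw [← dg_toX, toX_ofX h.1, h.2]
    · rintro ⟨G, hG, rfl⟩; exact hP G hG
  have hinj : Set.InjOn toX (realizations d : Set (Finset (Edge n))) := fun G _ G' _ h => by
    rw [← ofX_toX G, h, ofX_toX]
  have hPsw : ∀ i j k l, Dist i j k l → ∀ x, P x → P (sw (row i) (row j) k l x) := by
    intro i j k l h x hx
    refine ⟨fun v => ?_, fun v => by rw [dg_sw h, hx.2]⟩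
    rw [sw_other, hx.1]
    all_goals (simp only [row, ne_eq, Sym2.eq_iff]; unfold Dist at h; grind)
  obtain ⟨f0, h0, hle⟩ := global_poincare (fun x => if P x then f (ofX x) else 0)
  obtain ⟨G0, hG0⟩ := hd
  refine ⟨f0 (toX G0), ?_⟩
  have hc : ∀ G ∈ realizations d, f0 (toX G) = f0 (toX G0) := by
    intro G hG
    apply irreducible f0 h0 univ
    · intro u v h
      simp only [mem_univ, not_true, false_or] at h
      rw [h, toX_diag, toX_diag]
    · intro v; rw [(hP G hG).2, (hP G0 hG0).2]
  have l1 : ∑ G ∈ realizations d, (f G - f0 (toX G0)) ^ 2 ≤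
      ip ((fun x => if P x then f (ofX x) else 0) - f0) ((fun x => if P x then f (ofX x) else 0) - f0) := by
    rw [ip_self_eq]
    refine le_trans (le_of_eq ?_) (sum_le_sum_of_subset_of_nonneg (subset_univ (univ.filter P))
      fun _ _ _ => sq_nonneg _)
    rw [himg, sum_image hinj]
    refine sum_congr rfl fun G hG => ?_
    simp only [Pi.sub_apply, if_pos (hP G hG), ofX_toX, hc G hG]
  let D : Finset (Fin n) → ℝ := fun S => ∑ G ∈ realizations d,
    ∑ F ∈ pmSet S, ∑ F' ∈ (pmSet S).erase F, (f G - f (switchResult G F F')) ^ 2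
  have hD0 : ∀ S, 0 ≤ D S := fun S => sum_nonneg fun _ _ => sum_nonneg fun _ _ =>
    sum_nonneg fun _ _ => sq_nonneg _
  have l2 : ∀ i j k l : Fin n, (if Dist i j k l then ∑ x, ((if P x then f (ofX x) else 0)
      - (if P (sw (row i) (row j) k l x) then f (ofX (sw (row i) (row j) k l x)) else 0)) ^ 2 else 0)
      ≤ ∑ S ∈ (univ : Finset (Fin n)).powersetCard 4,
        (if i ∈ S then (if j ∈ S then (if k ∈ S then (if l ∈ S then D S else 0) else 0) else 0)
          else 0) := by
    intro i j k l
    have hnn : ∀ S ∈ (univ : Finset (Fin n)).powersetCard 4, 0 ≤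
        (if i ∈ S then (if j ∈ S then (if k ∈ S then (if l ∈ S then D S else 0) else 0) else 0)
          else 0) := fun S _ => by split_ifs <;> first | exact hD0 S | exact le_rfl
    by_cases h : Dist i j k l
    swap
    · rw [if_neg h]; exact sum_nonneg hnn
    rw [if_pos h]
    have hm : ({i, j, k, l} : Finset (Fin n)) ∈ (univ : Finset (Fin n)).powersetCard 4 := by
      rw [mem_powersetCard]
      exact ⟨subset_univ _, card_eq_four.mpr ⟨i, j, k, l, h.1, h.2.1, h.2.2.1, h.2.2.2.1,
        h.2.2.2.2.1, h.2.2.2.2.2, rfl⟩⟩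
    refine le_trans ?_ (single_le_sum hnn hm)
    simp only [mem_insert, mem_singleton, true_or, or_true, if_true]
    rw [← sum_filter_add_sum_filter_not univ P, himg, sum_image hinj, sum_eq_zero
      (s := univ.filter fun x => ¬ P x), add_zero]
    · apply sum_le_sum
      intro G hG
      obtain ⟨F, hF, F', hF', e⟩ := ofX_sw h G
      rw [if_pos (hP G hG), if_pos (hPsw i j k l h _ (hP G hG)), ofX_toX, e]
      refine le_trans ?_ (single_le_sum (f := fun F => ∑ F' ∈ (pmSet {i, j, k, l}).erase F,
        (f G - f (switchResult G F F')) ^ 2) (fun _ _ => sum_nonneg fun _ _ => sq_nonneg _) hF)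
      exact single_le_sum (f := fun F' => (f G - f (switchResult G F F')) ^ 2)
        (fun _ _ => sq_nonneg _) hF'
    · intro x hx
      have hx' := (mem_filter.mp hx).2
      rw [if_neg hx', if_neg]
      · simp
      · intro h2
        have := hPsw i j k l h _ h2
        rw [sw_sw] at this
        exact hx' this
  have l3 : ∑ i : Fin n, ∑ j : Fin n, ∑ k : Fin n, ∑ l : Fin n,
      ∑ S ∈ (univ : Finset (Fin n)).powersetCard 4,
        (if i ∈ S then (if j ∈ S then (if k ∈ S then (if l ∈ S then D S else 0) else 0) else 0)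
          else 0) = 256 * ∑ G ∈ realizations d,
            psum fun F F' => (f G - f (switchResult G F F')) ^ 2 := by
    rw [sum_congr rfl (fun i _ => sum_congr rfl fun j _ => sum_congr rfl fun k _ => sum_comm),
      sum_congr rfl (fun i _ => sum_congr rfl fun j _ => sum_comm),
      sum_congr rfl (fun i _ => sum_comm), sum_comm]
    unfold psum
    rw [sum_comm (s := realizations d), mul_sum]
    refine sum_congr rfl fun S hS => ?_
    have h4 := (mem_powersetCard.mp hS).2
    simp only [sum_ite_irrel, sum_const_zero, sum_ite_mem, univ_inter, sum_const, h4, D]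
    simp only [nsmul_eq_mul]; ring
  have l4 := sum_le_sum (s := univ) fun i _ => sum_le_sum (s := univ) fun j _ =>
    sum_le_sum (s := univ) fun k _ => sum_le_sum (s := univ) fun l _ => l2 i j k l
  rw [l3] at l4
  linarith

end Crest.Agent.R299
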