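import Crest.Agent.R299.TwoRow

set_option autoImplicit false
set_option linter.unusedSectionVars false
open Finset

namespace Crest.Agent.R299

lemma contr {T : Type*} (P : T → Prop) (φ : T → ℝ) (lam : ℝ) (hlam : 1 < lam) (B : ℝ)
    (hB : ∀ t, P t → φ t ≤ B)
    (h : ∀ L, (∀ t, P t → φ t ≤ L) → ∀ t, P t → lam * φ t ≤ L) : ∀ t, P t → φ t ≤ 0 := by
  intro t0 ht0
  let A : Set ℝ := {r | ∃ t, P t ∧ φ t = r}
  have hne : A.Nonempty := ⟨φ t0, t0, ht0, rfl⟩
  have hbd : BddAbove A := ⟨B, by rintro r ⟨t, ht, rfl⟩; exact hB t ht⟩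
  have h1 : ∀ t, P t → φ t ≤ sSup A := fun t ht => le_csSup hbd ⟨t, ht, rfl⟩
  have h2 := h _ h1
  have h3 : sSup A ≤ sSup A / lam := by
    apply csSup_le hne
    rintro r ⟨t, ht, rfl⟩
    rw [le_div_iff₀ (by linarith)]
    have := h2 t ht; linarith
  rw [le_div_iff₀ (by linarith)] at h3
  have : sSup A ≤ 0 := by nlinarith
  exact (h1 t0 ht0).trans this

variable {ι γ : Type*} [Fintype ι] [DecidableEq ι] [DecidableEq γ]

/-- three rows -/
structure Rows3 (a b d : γ → ι) (S : Finset γ) : Prop where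
  ab : Rows a b S
  ad : Rows a d S
  bd : Rows b d S

lemma Rows3.s12 {a b d : γ → ι} {S : Finset γ} (h : Rows3 a b d S) : Rows3 b a d S :=
  ⟨h.ab.symm, h.bd, h.ad⟩
lemma Rows3.s23 {a b d : γ → ι} {S : Finset γ} (h : Rows3 a b d S) : Rows3 a d b S :=
  ⟨h.ad, h.ab, h.bd.symm⟩

/-- a permutation of the coordinates transposing two columns -/
structure IsCol (π : Equiv.Perm ι) (a b d : γ → ι) (S : Finset γ) (c c' : γ) : Prop where
  hc : c ∈ S
  hc' : c' ∈ S
  pa : ∀ e ∈ S, π (a e) = a (Equiv.swap c c' e)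
  pb : ∀ e ∈ S, π (b e) = b (Equiv.swap c c' e)
  pd : ∀ e ∈ S, π (d e) = d (Equiv.swap c c' e)
  po : ∀ t, (∀ e ∈ S, t ≠ a e ∧ t ≠ b e ∧ t ≠ d e) → π t = t

lemma IsCol.s12 {π : Equiv.Perm ι} {a b d : γ → ι} {S : Finset γ} {c c' : γ}
    (h : IsCol π a b d S c c') : IsCol π b a d S c c' :=
  ⟨h.hc, h.hc', h.pb, h.pa, h.pd, fun t ht => h.po t fun e he =>
    ⟨(ht e he).2.1, (ht e he).1, (ht e he).2.2⟩⟩
lemma IsCol.s23 {π : Equiv.Perm ι} {a b d : γ → ι} {S : Finset γ} {c c' : γ}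
    (h : IsCol π a b d S c c') : IsCol π a d b S c c' :=
  ⟨h.hc, h.hc', h.pa, h.pd, h.pb, fun t ht => h.po t fun e he =>
    ⟨(ht e he).1, (ht e he).2.2, (ht e he).2.1⟩⟩

lemma swap_row {a : γ → ι} {S : Finset γ} (ha : ∀ c ∈ S, ∀ c' ∈ S, a c = a c' → c = c')
    {c c' e : γ} (hc : c ∈ S) (hc' : c' ∈ S) (he : e ∈ S) :
    Equiv.swap (a c) (a c') (a e) = a (Equiv.swap c c' e) := by
  by_cases h1 : e = c
  · subst h1; simp
  by_cases h2 : e = c'
  · subst h2; simp
  · rw [Equiv.swap_apply_of_ne_of_ne h1 h2,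
      Equiv.swap_apply_of_ne_of_ne (fun h => h1 (ha _ he _ hc h)) (fun h => h2 (ha _ he _ hc' h))]

lemma swap_mem {S : Finset γ} {c c' e : γ} (hc : c ∈ S) (hc' : c' ∈ S) (he : e ∈ S) :
    Equiv.swap c c' e ∈ S := by
  rw [Equiv.swap_apply_def]; split_ifs <;> assumption

lemma exists_isCol {a b d : γ → ι} {S : Finset γ} (h : Rows3 a b d S) {c c' : γ} (hc : c ∈ S)
    (hc' : c' ∈ S) : ∃ π, IsCol π a b d S c c' := by
  refine ⟨Equiv.swap (a c) (a c') * Equiv.swap (b c) (b c') * Equiv.swap (d c) (d c'),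
    hc, hc', ?_, ?_, ?_, ?_⟩
  · intro e he
    simp only [Equiv.Perm.mul_apply]
    rw [Equiv.swap_apply_of_ne_of_ne (h.ad.ab _ he _ hc) (h.ad.ab _ he _ hc'),
      Equiv.swap_apply_of_ne_of_ne (h.ab.ab _ he _ hc) (h.ab.ab _ he _ hc'),
      swap_row h.ab.ia hc hc' he]
  · intro e he
    have hs := swap_mem hc hc' he
    simp only [Equiv.Perm.mul_apply]
    rw [Equiv.swap_apply_of_ne_of_ne (h.bd.ab _ he _ hc) (h.bd.ab _ he _ hc'),
      swap_row h.ab.ib hc hc' he,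
      Equiv.swap_apply_of_ne_of_ne (h.ab.ab _ hc _ hs).symm (h.ab.ab _ hc' _ hs).symm]
  · intro e he
    have hs := swap_mem hc hc' he
    simp only [Equiv.Perm.mul_apply]
    rw [swap_row h.ad.ib hc hc' he,
      Equiv.swap_apply_of_ne_of_ne (h.bd.ab _ hc _ hs).symm (h.bd.ab _ hc' _ hs).symm,
      Equiv.swap_apply_of_ne_of_ne (h.ad.ab _ hc _ hs).symm (h.ad.ab _ hc' _ hs).symm]
  · intro t ht
    simp only [Equiv.Perm.mul_apply]
    rw [Equiv.swap_apply_of_ne_of_ne (ht c hc).2.2 (ht c' hc').2.2,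
      Equiv.swap_apply_of_ne_of_ne (ht c hc).2.1 (ht c' hc').2.1,
      Equiv.swap_apply_of_ne_of_ne (ht c hc).1 (ht c' hc').1]

lemma sum_swap_mem {S : Finset γ} {c c' : γ} (hc : c ∈ S) (hc' : c' ∈ S) (φ : γ → ℕ) :
    ∑ e ∈ S, φ (Equiv.swap c c' e) = ∑ e ∈ S, φ e := by
  apply sum_nbij' (Equiv.swap c c') (Equiv.swap c c') (fun e he => swap_mem hc hc' he)
    (fun e he => swap_mem hc hc' he) <;> simp

/-- a permutation acting on two rows by a column transposition preserves the relation -/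
lemma rel_perm {b d : γ → ι} {S : Finset γ} {c c' : γ} (π : Equiv.Perm ι) (hc : c ∈ S)
    (hc' : c' ∈ S) (pb : ∀ e ∈ S, π (b e) = b (Equiv.swap c c' e))
    (pd : ∀ e ∈ S, π (d e) = d (Equiv.swap c c' e)) (x y : ι → Bool) :
    rel b d S (x ∘ π) (y ∘ π) ↔ rel b d S x y := by
  have hoff : ∀ t, off b d S (π t) ↔ off b d S t := by
    intro t
    constructor
    · intro h e he
      have := h _ (swap_mem hc hc' he)
      rw [← pb e he, ← pd e he] at this
      exact ⟨fun h1 => this.1 (by rw [h1]), fun h1 => this.2 (by rw [h1])⟩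
    · intro h e he
      have := h _ (swap_mem hc hc' he)
      have h1 := pb _ (swap_mem hc hc' he)
      have h2 := pd _ (swap_mem hc hc' he)
      rw [Equiv.swap_apply_self] at h1 h2
      rw [← h1, ← h2]
      exact ⟨fun h3 => this.1 (π.injective h3), fun h3 => this.2 (π.injective h3)⟩
  have hsum : ∀ w : ι → Bool, ∑ e ∈ S, ((w ∘ π) (b e)).toNat = ∑ e ∈ S, (w (b e)).toNat := by
    intro w
    rw [← sum_swap_mem hc hc' (fun e => (w (b e)).toNat)]
    exact sum_congr rfl fun e he => by rw [Function.comp, pb e he]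
  unfold rel cube
  rw [hsum, hsum]
  constructor
  · rintro ⟨⟨h1, h2⟩, h3⟩
    refine ⟨⟨fun t ht => ?_, fun e he => ?_⟩, h3⟩
    · have := h1 (π.symm t) (by rw [← hoff]; simpa using ht)
      simpa using this
    · have := h2 _ (swap_mem hc hc' he)
      simp only [Function.comp, pb _ (swap_mem hc hc' he), pd _ (swap_mem hc hc' he),
        Equiv.swap_apply_self] at this
      exact this
  · rintro ⟨⟨h1, h2⟩, h3⟩
    refine ⟨⟨fun t ht => h1 _ ((hoff t).mpr ht), fun e he => ?_⟩, h3⟩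
    simp only [Function.comp, pb e he, pd e he]
    exact h2 _ (swap_mem hc hc' he)

/-- precomposition with a permutation -/
def precomp (π : Equiv.Perm ι) : (ι → Bool) ≃ (ι → Bool) where
  toFun x := x ∘ π
  invFun x := x ∘ π.symm
  left_inv x := by funext e; simp
  right_inv x := by funext e; simp

/-- column weight -/
def wt (a b d : γ → ι) (x : ι → Bool) (c : γ) : ℕ :=
  (x (a c)).toNat + (x (b c)).toNat + (x (d c)).toNat

lemma wt_s12 (a b d : γ → ι) (x : ι → Bool) (c : γ) : wt b a d x c = wt a b d x c := by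
  unfold wt; omega
lemma wt_s23 (a b d : γ → ι) (x : ι → Bool) (c : γ) : wt a d b x c = wt a b d x c := by
  unfold wt; omega

lemma Rows3.off_a {a b d : γ → ι} {S : Finset γ} (h : Rows3 a b d S) {e : γ} (he : e ∈ S) :
    off b d S (a e) := fun _ hc => ⟨h.ab.ab _ he _ hc, h.ad.ab _ he _ hc⟩

lemma rel_col {π : Equiv.Perm ι} {a b d : γ → ι} {S : Finset γ} {c c' : γ}
    (h : IsCol π a b d S c c') (x : ι → Bool) (hw : wt a b d x c = wt a b d x c')
    (ha : x (a c) = x (a c')) : rel b d S x (x ∘ π) := by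
  refine ⟨⟨fun t ht => ?_, fun e he => ?_⟩, ?_⟩
  · by_cases h1 : ∃ e ∈ S, t = a e
    · obtain ⟨e, he, rfl⟩ := h1
      rw [Function.comp, h.pa e he, Equiv.swap_apply_def]
      split_ifs with h2 h3
      · rw [h2, ha]
      · rw [h3, ha]
      · rfl
    · push Not at h1
      rw [Function.comp, h.po t fun e he => ⟨h1 e he, (ht e he).1, (ht e he).2⟩]
  · simp only [Function.comp, h.pb e he, h.pd e he]
    unfold wt at hw
    rw [ha] at hw
    rw [Equiv.swap_apply_def]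
    split_ifs with h2 h3
    · rw [h2]; omega
    · rw [h3]; omega
    · rfl
  · rw [← sum_swap_mem h.hc h.hc' (fun e => (x (b e)).toNat)]
    exact sum_congr rfl fun e he => by rw [Function.comp, h.pb e he]

/-- an eigen-triple -/
structure Trip (a b d : γ → ι) (S : Finset γ) (ga gb gd : (ι → Bool) → ℝ) (lam : ℝ) : Prop where
  R : Rows3 a b d S
  ia : ∀ x y, rel b d S x y → ga x = ga y
  ib : ∀ x y, rel a d S x y → gb x = gb y
  id : ∀ x y, rel a b S x y → gd x = gd y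
  ea : ∀ x, lam * ga x = Eop (rel b d S) (gb + gd) x
  eb : ∀ x, lam * gb x = Eop (rel a d S) (ga + gd) x
  ed : ∀ x, lam * gd x = Eop (rel a b S) (ga + gb) x

variable {a b d : γ → ι} {S : Finset γ} {ga gb gd : (ι → Bool) → ℝ} {lam : ℝ}

lemma Trip.s12 (h : Trip a b d S ga gb gd lam) : Trip b a d S gb ga gd lam :=
  ⟨h.R.s12, h.ib, h.ia, fun x y hxy => h.id x y hxy.symm_rows, h.eb, h.ea,
    fun x => by rw [rel_comm b a, add_comm gb ga]; exact h.ed x⟩

lemma Trip.s23 (h : Trip a b d S ga gb gd lam) : Trip a d b S ga gd gb lam :=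
  ⟨h.R.s23, fun x y hxy => h.ia x y hxy.symm_rows, h.id, h.ib,
    fun x => by rw [rel_comm d b, add_comm gd gb]; exact h.ea x, h.ed, h.eb⟩

lemma Trip.neg (h : Trip a b d S ga gb gd lam) : Trip a b d S (-ga) (-gb) (-gd) lam := by
  refine ⟨h.R, fun x y hxy => ?_, fun x y hxy => ?_, fun x y hxy => ?_, fun x => ?_, fun x => ?_,
    fun x => ?_⟩
  · simp [h.ia x y hxy]
  · simp [h.ib x y hxy]
  · simp [h.id x y hxy]
  · rw [← neg_add, map_neg, Pi.neg_apply, Pi.neg_apply, ← h.ea x]; ring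
  · rw [← neg_add, map_neg, Pi.neg_apply, Pi.neg_apply, ← h.eb x]; ring
  · rw [← neg_add, map_neg, Pi.neg_apply, Pi.neg_apply, ← h.ed x]; ring

lemma Trip.step0 (h : Trip a b d S ga gb gd lam) {π : Equiv.Perm ι} {c c' : γ}
    (hπ : IsCol π a b d S c c') (L : ℝ) (hlam : 0 ≤ lam)
    (hb : ∀ y, wt a b d y c = wt a b d y c' → |gb (y ∘ π) - gb y| ≤ L)
    (hd : ∀ y, wt a b d y c = wt a b d y c' → |gd (y ∘ π) - gd y| ≤ L)
    (x : ι → Bool) (hw : wt a b d x c = wt a b d x c') : lam * |ga (x ∘ π) - ga x| ≤ L := by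
  by_cases ha : x (a c) = x (a c')
  · rw [← h.ia _ _ (rel_col hπ x hw ha)]
    have := (abs_nonneg _).trans (hb x hw)
    simpa using this
  have e1 : Eop (rel b d S) (gb + gd) (x ∘ π) = Eop (rel b d S) ((gb + gd) ∘ precomp π) x :=
    Eop_comp (precomp π) (fun u v => rel_perm π hπ.hc hπ.hc' hπ.pb hπ.pd u v) _ x
  rw [← abs_of_nonneg hlam, ← abs_mul, mul_sub, h.ea, h.ea, e1, ← Pi.sub_apply, ← map_sub]
  apply abs_Eop_le (rel_equiv b d S)
  intro y hy
  have y1 : x (a c) = y (a c) := hy.1.1 _ (h.R.off_a hπ.hc)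
  have y2 : x (a c') = y (a c') := hy.1.1 _ (h.R.off_a hπ.hc')
  have y3 := hy.1.2 _ hπ.hc
  have y4 := hy.1.2 _ hπ.hc'
  have hwy : wt a b d y c = wt a b d y c' := by
    unfold wt at hw ⊢; rw [← y1, ← y2]; omega
  change |gb (y ∘ π) + gd (y ∘ π) - (gb y + gd y)| ≤ L
  have : y (b c) = y (b c') ∨ y (d c) = y (d c') := by
    unfold wt at hwy
    rw [y1, y2] at ha
    revert ha hwy
    cases y (a c) <;> cases y (a c') <;> cases y (b c) <;> cases y (b c') <;> cases y (d c) <;>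
      cases y (d c') <;> simp
  rcases this with h1 | h1
  · rw [← h.ib _ _ (rel_col hπ.s12 y (by unfold wt at hwy ⊢; omega) h1)]
    have := hd y hwy
    rwa [show gb y + gd (y ∘ π) - (gb y + gd y) = gd (y ∘ π) - gd y by ring]
  · have h2 := rel_col hπ.s23.s12 y (by unfold wt at hwy ⊢; omega) h1
    rw [← h.id _ _ h2]
    have := hb y hwy
    rwa [show gb (y ∘ π) + gd y - (gb y + gd y) = gb (y ∘ π) - gb y by ring]

lemma exists_bound (g : (ι → Bool) → ℝ) : ∃ B, ∀ x y, |g x - g y| ≤ B := by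
  obtain ⟨B, hB⟩ := (Set.finite_range fun p : (ι → Bool) × (ι → Bool) => |g p.1 - g p.2|).bddAbove
  exact ⟨B, fun x y => hB ⟨(x, y), rfl⟩⟩

lemma Trip.inv_col (h : Trip a b d S ga gb gd lam) (hlam : 1 < lam) {π : Equiv.Perm ι} {c c' : γ}
    (hπ : IsCol π a b d S c c') (x : ι → Bool) (hw : wt a b d x c = wt a b d x c') :
    ga (x ∘ π) = ga x ∧ gb (x ∘ π) = gb x ∧ gd (x ∘ π) = gd x := by
  obtain ⟨B1, hB1⟩ := exists_bound ga
  obtain ⟨B2, hB2⟩ := exists_bound gb
  obtain ⟨B3, hB3⟩ := exists_bound gd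
  have := contr (fun y : ι → Bool => wt a b d y c = wt a b d y c')
    (fun y => max (max |ga (y ∘ π) - ga y| |gb (y ∘ π) - gb y|) |gd (y ∘ π) - gd y|) lam hlam
    (max (max B1 B2) B3)
    (fun y _ => max_le_max (max_le_max (hB1 _ _) (hB2 _ _)) (hB3 _ _)) (by
      intro L hL y hy
      simp only [max_le_iff] at hL
      have h0 : 0 ≤ lam := by linarith
      rw [mul_max_of_nonneg _ _ h0, mul_max_of_nonneg _ _ h0, max_le_iff, max_le_iff]
      refine ⟨⟨h.step0 hπ L h0 (fun y hy => (hL y hy).1.2) (fun y hy => (hL y hy).2) y hy, ?_⟩, ?_⟩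
      · refine h.s12.step0 hπ.s12 L h0 (fun y hy => (hL y ?_).1.1) (fun y hy => (hL y ?_).2) y ?_
        all_goals (unfold wt at hy ⊢; omega)
      · refine h.s23.s12.step0 hπ.s23.s12 L h0 (fun y hy => (hL y ?_).1.1)
          (fun y hy => (hL y ?_).1.2) y ?_
        all_goals (unfold wt at hy ⊢; omega)) x hw
  simp only [max_le_iff, abs_nonpos_iff, sub_eq_zero] at this
  exact ⟨this.1.1, this.1.2, this.2⟩

/-- a switch between columns of equal weight is a column transposition -/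
lemma sw_eq_col {π : Equiv.Perm ι} {c c' : γ} (hπ : IsCol π a b d S c c')
    (x : ι → Bool) (hD : Dc a b c c' x) (hd : x (d c) = x (d c')) : sw a b c c' x = x ∘ π := by
  have hc := hπ.hc
  have hc' := hπ.hc'
  obtain ⟨h1, h2, h3⟩ := id hD
  funext t
  rw [Function.comp]
  by_cases t1 : t = a c
  · subst t1; rw [sw_1 hD, hπ.pa _ hc, Equiv.swap_apply_left]
    revert h3; cases x (a c) <;> cases x (a c') <;> simp
  by_cases t2 : t = b c
  · subst t2; rw [sw_2 hD, hπ.pb _ hc, Equiv.swap_apply_left]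
    revert h1 h2 h3; cases x (a c) <;> cases x (a c') <;> cases x (b c) <;> cases x (b c') <;> simp
  by_cases t3 : t = a c'
  · subst t3; rw [sw_3 hD, hπ.pa _ hc', Equiv.swap_apply_right]
    revert h3; cases x (a c) <;> cases x (a c') <;> simp
  by_cases t4 : t = b c'
  · subst t4; rw [sw_4 hD, hπ.pb _ hc', Equiv.swap_apply_right]
    revert h1 h2 h3; cases x (a c) <;> cases x (a c') <;> cases x (b c) <;> cases x (b c') <;> simp
  rw [sw_other x t1 t2 t3 t4]
  by_cases u1 : ∃ e ∈ S, t = a e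
  · obtain ⟨e, he, rfl⟩ := u1
    rw [hπ.pa e he, Equiv.swap_apply_of_ne_of_ne (fun h => t1 (by rw [h])) (fun h => t3 (by rw [h]))]
  by_cases u2 : ∃ e ∈ S, t = b e
  · obtain ⟨e, he, rfl⟩ := u2
    rw [hπ.pb e he, Equiv.swap_apply_of_ne_of_ne (fun h => t2 (by rw [h])) (fun h => t4 (by rw [h]))]
  by_cases u3 : ∃ e ∈ S, t = d e
  · obtain ⟨e, he, rfl⟩ := u3
    rw [hπ.pd e he, Equiv.swap_apply_def]
    split_ifs with v1 v2
    · rw [v1, hd]
    · rw [v2, hd]
    · rfl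
  push Not at u1 u2 u3
  rw [hπ.po t fun e he => ⟨u1 e he, u2 e he, u3 e he⟩]

lemma Trip.inv_same (h : Trip a b d S ga gb gd lam) (hlam : 1 < lam) {c c' : γ} (hc : c ∈ S)
    (hc' : c' ∈ S) (x : ι → Bool) (hd : x (d c) = x (d c')) :
    ga (sw a b c c' x) = ga x ∧ gb (sw a b c c' x) = gb x := by
  by_cases hD : Dc a b c c' x
  · obtain ⟨π, hπ⟩ := exists_isCol h.R hc hc'
    rw [sw_eq_col hπ x hD hd]
    have := h.inv_col hlam hπ x (by
      obtain ⟨h1, h2, h3⟩ := hD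
      unfold wt; rw [hd]
      revert h1 h2 h3
      cases x (a c) <;> cases x (a c') <;> cases x (b c) <;> cases x (b c') <;> simp)
    exact ⟨this.1, this.2.1⟩
  · rw [sw_of_not hD]; exact ⟨rfl, rfl⟩

end Crest.Agent.R299
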