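import Crest.Agent.R299.ThreeRow

set_option autoImplicit false
set_option linter.unusedSectionVars false
open Finset

namespace Crest.Agent.R299

variable {ι γ : Type*} [Fintype ι] [DecidableEq ι] [DecidableEq γ]
variable {a b d : γ → ι} {S : Finset γ} {ga gb gd : (ι → Bool) → ℝ} {lam : ℝ}

/-- agree outside the two columns -/
def loc2 (a b d : γ → ι) (c c' : γ) (u u' : ι → Bool) : Prop :=
  ∀ e, e ≠ a c → e ≠ b c → e ≠ d c → e ≠ a c' → e ≠ b c' → e ≠ d c' → u' e = u e

lemma loc2.s23 {c c' : γ} {u u' : ι → Bool} (h : loc2 a b d c c' u u') : loc2 a d b c c' u u' :=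
  fun e h1 h2 h3 h4 h5 h6 => h e h1 h3 h2 h4 h6 h5

lemma loc2.symm {c c' : γ} {u u' : ι → Bool} (h : loc2 a b d c c' u u') : loc2 a b d c c' u' u :=
  fun e h1 h2 h3 h4 h5 h6 => (h e h1 h2 h3 h4 h5 h6).symm

lemma loc2_sw (a b d : γ → ι) (c c' : γ) (u : ι → Bool) : loc2 a b d c c' u (sw a b c c' u) :=
  fun _ h1 h2 _ h4 h5 _ => sw_other u h1 h2 h4 h5

lemma loc2.row (hR : Rows3 a b d S) {c c' : γ} (hc : c ∈ S) (hc' : c' ∈ S) {u u' : ι → Bool}
    (h : loc2 a b d c c' u u') {e : γ} (he : e ∈ S) (h1 : e ≠ c) (h2 : e ≠ c') :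
    u' (b e) = u (b e) :=
  h _ (hR.ab.ab _ hc _ he).symm (fun h => h1 (hR.bd.ia _ he _ hc h)) (hR.bd.ab _ he _ hc)
    (hR.ab.ab _ hc' _ he).symm (fun h => h2 (hR.bd.ia _ he _ hc' h)) (hR.bd.ab _ he _ hc')

lemma rel_loc2 (hR : Rows3 a b d S) {c c' : γ} (hc : c ∈ S) (hc' : c' ∈ S) (hne : c ≠ c')
    {u v u' v' : ι → Bool} (h : rel b d S u v) (hu : loc2 a b d c c' u u')
    (hv : loc2 a b d c c' v v') (h1 : u' (a c) = v' (a c)) (h2 : u' (a c') = v' (a c'))
    (h3 : (u' (b c)).toNat + (u' (d c)).toNat = (v' (b c)).toNat + (v' (d c)).toNat)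
    (h4 : (u' (b c')).toNat + (u' (d c')).toNat = (v' (b c')).toNat + (v' (d c')).toNat)
    (h5 : (u' (b c)).toNat + (u' (b c')).toNat + (v (b c)).toNat + (v (b c')).toNat
      = (v' (b c)).toNat + (v' (b c')).toNat + (u (b c)).toNat + (u (b c')).toNat) :
    rel b d S u' v' := by
  refine ⟨⟨fun t ht => ?_, fun e he => ?_⟩, ?_⟩
  · by_cases t1 : t = a c
    · rw [t1, h1]
    by_cases t2 : t = a c'
    · rw [t2, h2]
    rw [hu t t1 (ht c hc).1 (ht c hc).2 t2 (ht c' hc').1 (ht c' hc').2,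
      hv t t1 (ht c hc).1 (ht c hc).2 t2 (ht c' hc').1 (ht c' hc').2]
    exact h.1.1 t ht
  · by_cases e1 : e = c
    · rw [e1, h3]
    by_cases e2 : e = c'
    · rw [e2, h4]
    rw [hu.row hR hc hc' he e1 e2, hv.row hR hc hc' he e1 e2, hu.s23.row hR.s23 hc hc' he e1 e2,
      hv.s23.row hR.s23 hc hc' he e1 e2]
    exact h.1.2 e he
  · have hc'' : c' ∈ S.erase c := mem_erase.mpr ⟨hne.symm, hc'⟩
    have := h.2
    rw [← add_sum_erase S _ hc, ← add_sum_erase S _ hc, ← add_sum_erase _ _ hc'',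
      ← add_sum_erase _ _ hc''] at this ⊢
    have e1 : ∑ e ∈ (S.erase c).erase c', (u' (b e)).toNat
        = ∑ e ∈ (S.erase c).erase c', (u (b e)).toNat := by
      apply sum_congr rfl; intro e he; simp only [mem_erase] at he
      rw [hu.row hR hc hc' he.2.2 he.2.1 he.1]
    have e2 : ∑ e ∈ (S.erase c).erase c', (v' (b e)).toNat
        = ∑ e ∈ (S.erase c).erase c', (v (b e)).toNat := by
      apply sum_congr rfl; intro e he; simp only [mem_erase] at he
      rw [hv.row hR hc hc' he.2.2 he.2.1 he.1]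
    omega

lemma rel_sum_act {u v : ι → Bool} (h : rel b d S u v) :
    ∑ e ∈ act b d S u, (u (b e)).toNat = ∑ e ∈ act b d S u, (v (b e)).toNat := by
  have h1 := h.2
  rw [← sum_filter_add_sum_filter_not S (fun c => u (b c) ≠ u (d c)),
    ← sum_filter_add_sum_filter_not S (fun c => u (b c) ≠ u (d c))] at h1
  have : ∑ e ∈ S.filter (fun c => ¬ u (b c) ≠ u (d c)), (u (b e)).toNat
      = ∑ e ∈ S.filter (fun c => ¬ u (b c) ≠ u (d c)), (v (b e)).toNat := by
    apply sum_congr rfl; intro e he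
    rw [mem_filter] at he
    have h2 := h.1.2 e he.1
    have h3 := he.2
    revert h2 h3
    cases u (b e) <;> cases u (d e) <;> cases v (b e) <;> cases v (d e) <;> simp
  unfold act
  omega

/-- the base configuration and a reference point of the enlarged class -/
structure Base (a b d : γ → ι) (S : Finset γ) (c c' : γ) (x y : ι → Bool) : Prop where
  hc : c ∈ S
  hc' : c' ∈ S
  x1 : x (a c) = true
  x2 : x (b c) = false
  x3 : x (d c) = false
  x4 : x (a c') = false
  x5 : x (b c') = true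
  x6 : x (d c') = true
  loc : loc2 a b d c c' x y
  y1 : y (a c) = false
  y2 : y (a c') = true
  y3 : y (b c) ≠ y (d c)
  y4 : y (b c') ≠ y (d c')
  y5 : y (b c) ≠ y (b c')

lemma Base.s23 {c c' : γ} {x x1 : ι → Bool} (h : Base a b d S c c' x x1) :
    Base a d b S c c' x x1 := by
  refine ⟨h.hc, h.hc', h.x1, h.x3, h.x2, h.x4, h.x6, h.x5, h.loc.s23, h.y1, h.y2, h.y3.symm,
    h.y4.symm, ?_⟩
  have h3 := h.y3; have h4 := h.y4; have h5 := h.y5
  revert h3 h4 h5
  cases x1 (b c) <;> cases x1 (b c') <;> cases x1 (d c) <;> cases x1 (d c') <;> simp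

lemma Base.ne {c c' : γ} {x x1 : ι → Bool} (h : Base a b d S c c' x x1) : c ≠ c' := by
  rintro rfl; have := h.x1; rw [h.x4] at this; simp at this

lemma Base.vals1 (hR : Rows3 a b d S) {c c' : γ} {x x1 y : ι → Bool} (h : Base a b d S c c' x x1)
    (hy : rel b d S x1 y) : y (a c) = false ∧ y (a c') = true ∧ y (b c) ≠ y (d c) ∧
      y (b c') ≠ y (d c') := by
  have h1 := hy.1.1 _ (hR.off_a h.hc)
  have h2 := hy.1.1 _ (hR.off_a h.hc')
  have h3 := hy.1.2 _ h.hc
  have h4 := hy.1.2 _ h.hc'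
  have h5 := h.y3
  have h6 := h.y4
  refine ⟨h1 ▸ h.y1, h2 ▸ h.y2, ?_, ?_⟩
  · revert h3 h5; cases x1 (b c) <;> cases x1 (d c) <;> cases y (b c) <;> cases y (d c) <;> simp
  · revert h4 h6; cases x1 (b c') <;> cases x1 (d c') <;> cases y (b c') <;> cases y (d c') <;> simp

lemma Base.vals (hR : Rows3 a b d S) {c c' : γ} {x x1 w : ι → Bool} (h : Base a b d S c c' x x1)
    (hw : rel b d S x w) : w (a c) = true ∧ w (a c') = false ∧ w (b c) = false ∧ w (d c) = false ∧
      w (b c') = true ∧ w (d c') = true := by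
  have h1 := hw.1.1 _ (hR.off_a h.hc)
  have h2 := hw.1.1 _ (hR.off_a h.hc')
  have h3 := hw.1.2 _ h.hc
  have h4 := hw.1.2 _ h.hc'
  rw [h.x2, h.x3] at h3
  rw [h.x5, h.x6] at h4
  refine ⟨h1 ▸ h.x1, h2 ▸ h.x4, ?_⟩
  revert h3 h4
  cases w (b c) <;> cases w (d c) <;> cases w (b c') <;> cases w (d c') <;> simp

lemma Rows3.sw_d (hR : Rows3 a b d S) {c c' e : γ} (hc : c ∈ S) (hc' : c' ∈ S) (he : e ∈ S)
    (y : ι → Bool) : sw a b c c' y (d e) = y (d e) :=
  sw_other y (hR.ad.ab _ hc _ he).symm (hR.bd.ab _ hc _ he).symm (hR.ad.ab _ hc' _ he).symm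
    (hR.bd.ab _ hc' _ he).symm

lemma Base.P1 (h : Trip a b d S ga gb gd lam) {c c' : γ} {x x1 : ι → Bool}
    (hB : Base a b d S c c' x x1) (L α : ℝ) (hL : ∀ y, gb y - gb (sw a b c c' y) ≤ L)
    (ρ : (ι → Bool) → Prop) [DecidablePred ρ] (hρ : ∀ y, ρ (sw a b c c' y) ↔ ρ y) :
    ∑ y ∈ (cls (rel b d S) x1).filter (fun y => (y (b c) = true ∧ y (b c') = false) ∧ ρ y),
        (gb y + gd y - α - L)
      ≤ ∑ w ∈ (cls (rel b d S) x).filter ρ, (gb w + gd w - α) := by
  have hR := h.R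
  have hc := hB.hc
  have hc' := hB.hc'
  have e : ∑ y ∈ (cls (rel b d S) x1).filter (fun y => (y (b c) = true ∧ y (b c') = false) ∧ ρ y),
      (gb (sw a b c c' y) + gd (sw a b c c' y) - α)
      = ∑ w ∈ (cls (rel b d S) x).filter ρ, (gb w + gd w - α) := by
    apply sum_nbij' (sw a b c c') (sw a b c c')
    · intro y hy
      simp only [mem_filter, mem_cls] at hy ⊢
      obtain ⟨hy, ⟨b1, b2⟩, hr⟩ := hy
      obtain ⟨v1, v2, v3, v4⟩ := hB.vals1 hR hy
      have hD : Dc a b c c' y := by unfold Dc D4; simp [v1, v2, b1, b2]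
      refine ⟨rel_loc2 hR hc hc' hB.ne hy hB.loc.symm (loc2_sw a b d c c' y) ?_ ?_ ?_ ?_ ?_,
        (hρ y).mpr hr⟩
      · rw [sw_1 hD, v1, hB.x1]; rfl
      · rw [sw_3 hD, v2, hB.x4]; rfl
      · rw [sw_2 hD, hR.sw_d hc hc' hc, hB.x2, hB.x3, b1]
        rw [b1] at v3; revert v3; cases y (d c) <;> simp
      · rw [sw_4 hD, hR.sw_d hc hc' hc', hB.x5, hB.x6, b2]
        rw [b2] at v4; revert v4; cases y (d c') <;> simp
      · rw [sw_2 hD, sw_4 hD, hB.x2, hB.x5, b1, b2]
        have := hB.y5; revert this; cases x1 (b c) <;> cases x1 (b c') <;> simp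
    · intro w hw
      simp only [mem_filter, mem_cls] at hw ⊢
      obtain ⟨hw, hr⟩ := hw
      obtain ⟨v1, v2, v3, v4, v5, v6⟩ := hB.vals hR hw
      have hD : Dc a b c c' w := by unfold Dc D4; simp [v1, v2, v3, v5]
      refine ⟨rel_loc2 hR hc hc' hB.ne hw hB.loc (loc2_sw a b d c c' w) ?_ ?_ ?_ ?_ ?_,
        ⟨?_, ?_⟩, (hρ w).mpr hr⟩
      · rw [sw_1 hD, v1, hB.y1]; rfl
      · rw [sw_3 hD, v2, hB.y2]; rfl
      · rw [sw_2 hD, hR.sw_d hc hc' hc, v3, v4]
        have := hB.y3; revert this; cases x1 (b c) <;> cases x1 (d c) <;> simp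
      · rw [sw_4 hD, hR.sw_d hc hc' hc', v5, v6]
        have := hB.y4; revert this; cases x1 (b c') <;> cases x1 (d c') <;> simp
      · rw [sw_2 hD, sw_4 hD, hB.x2, hB.x5, v3, v5]
        have := hB.y5; revert this; cases x1 (b c) <;> cases x1 (b c') <;> simp
      · rw [sw_2 hD, v3]; rfl
      · rw [sw_4 hD, v5]; rfl
    · intro y _; exact sw_sw a b c c' y
    · intro y _; exact sw_sw a b c c' y
    · intro y _; rfl
  rw [← e]
  apply sum_le_sum
  intro y _
  have := hL y
  rw [← h.id _ _ (rel_sw hR.ab hc hc' y)]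
  linarith

lemma Base.P2 (h : Trip a b d S ga gb gd lam) (hlam : 1 < lam) {c c' : γ} {x x1 : ι → Bool}
    (hB : Base a b d S c c' x x1) (L : ℝ) (hLb : ∀ y, gb y - gb (sw a b c c' y) ≤ L)
    (hLd : ∀ y, gd y - gd (sw a d c c' y) ≤ L) :
    ∑ y ∈ (cls (rel b d S) x1).filter (fun y => y (b c) = true ∧ y (b c') = true),
        (gb y + gd y - Eop (rel b d S) (gb + gd) x - L) ≤ 0 := by
  have hR := h.R
  have hc := hB.hc
  have hc' := hB.hc'
  set α := Eop (rel b d S) (gb + gd) x with hα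
  set Y := act b d S x with hY
  have hYm : ∀ z ∈ Y, z ∈ S ∧ z ≠ c ∧ z ≠ c' ∧ x (b z) ≠ x (d z) := by
    intro z hz
    rw [hY, act, mem_filter] at hz
    refine ⟨hz.1, ?_, ?_, hz.2⟩
    · rintro rfl; exact hz.2 (by rw [hB.x2, hB.x3])
    · rintro rfl; exact hz.2 (by rw [hB.x5, hB.x6])
  have hact : ∀ z ∈ Y, ∀ y, rel b d S x1 y → y (b z) ≠ y (d z) ∧ y (a z) = x (a z) := by
    intro z hz y hy
    obtain ⟨z1, z2, z3, z4⟩ := hYm z hz
    have h1 := hy.1.2 z z1
    rw [hB.loc.row hR hc hc' z1 z2 z3, hB.loc.s23.row hR.s23 hc hc' z1 z2 z3] at h1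
    constructor
    · revert h1 z4; cases x (b z) <;> cases x (d z) <;> cases y (b z) <;> cases y (d z) <;> simp
    · rw [← hy.1.1 _ (hR.off_a z1)]
      exact hB.loc _ (fun e => z2 (hR.ab.ia _ z1 _ hc e)) (hR.ab.ab _ z1 _ hc) (hR.ad.ab _ z1 _ hc)
        (fun e => z3 (hR.ab.ia _ z1 _ hc' e)) (hR.ab.ab _ z1 _ hc') (hR.ad.ab _ z1 _ hc')
  have key : ∀ z ∈ Y,
      ∑ y ∈ (cls (rel b d S) x1).filter
          (fun y => (y (b c) = true ∧ y (b c') = true) ∧ y (b z) = false), (gb y + gd y - α - L)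
        ≤ ∑ w ∈ (cls (rel b d S) x).filter (fun w => w (b z) = true), (gb w + gd w - α) := by
    intro z hz
    obtain ⟨z1, z2, z3, z4⟩ := hYm z hz
    have bz1 : b z ≠ b c := fun e => z2 (hR.bd.ia _ z1 _ hc e)
    have bz2 : b z ≠ b c' := fun e => z3 (hR.bd.ia _ z1 _ hc' e)
    have bcc : b c ≠ b c' := fun e => hB.ne (hR.bd.ia _ hc _ hc' e)
    cases hxz : x (a z)
    · -- same type as `c`
      have P := hB.s23.P1 h.s23 L α hLd (fun w => w (b z) = true)
        (fun y => by rw [hR.s23.sw_d hc hc' z1])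
      rw [rel_comm d b] at P
      simp only [add_comm (gd _) (gb _)] at P
      refine le_trans (le_of_eq ?_) P
      apply sum_nbij' (sw b d c z) (sw b d c z)
      · intro y hy
        simp only [mem_filter, mem_cls] at hy ⊢
        obtain ⟨hy, ⟨b1, b2⟩, b3⟩ := hy
        obtain ⟨v1, v2, v3, v4⟩ := hB.vals1 hR hy
        have v5 := (hact z hz y hy).1
        have hD : Dc b d c z y := ⟨v3, v5, by simp [b1, b3]⟩
        refine ⟨(rel_equiv b d S).trans hy (rel_sw hR.bd hc z1 y), ⟨?_, ?_⟩, ?_⟩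
        · rw [sw_2 hD]; rw [b1] at v3; revert v3; cases y (d c) <;> simp
        · rw [sw_other y (hR.bd.ab _ hc _ hc').symm (fun e => hB.ne (hR.bd.ib _ hc' _ hc e).symm)
            (hR.bd.ab _ z1 _ hc').symm (fun e => z3 (hR.bd.ib _ hc' _ z1 e).symm)]
          rw [b2] at v4; revert v4; cases y (d c') <;> simp
        · rw [sw_3 hD, b3]; rfl
      · intro y hy
        simp only [mem_filter, mem_cls] at hy ⊢
        obtain ⟨hy, ⟨b1, b2⟩, b3⟩ := hy
        obtain ⟨v1, v2, v3, v4⟩ := hB.vals1 hR hy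
        have v5 := (hact z hz y hy).1
        have b1' : y (b c) = false := by rw [b1] at v3; revert v3; cases y (b c) <;> simp
        have b2' : y (b c') = true := by rw [b2] at v4; revert v4; cases y (b c') <;> simp
        have hD : Dc b d c z y := ⟨v3, v5, by simp [b1', b3]⟩
        refine ⟨(rel_equiv b d S).trans hy (rel_sw hR.bd hc z1 y), ⟨?_, ?_⟩, ?_⟩
        · rw [sw_1 hD, b1']; rfl
        · rw [sw_other y bcc.symm (hR.bd.ab _ hc' _ hc) bz2.symm (hR.bd.ab _ hc' _ z1), b2']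
        · rw [sw_3 hD, b3]; rfl
      · intro y _; exact sw_sw b d c z y
      · intro y _; exact sw_sw b d c z y
      · intro y hy
        simp only [mem_filter, mem_cls] at hy
        have := h.s12.s23.inv_same hlam hc z1 y (by
          rw [(hB.vals1 hR hy.1).1, (hact z hz y hy.1).2, hxz])
        rw [this.1, this.2]
    · -- same type as `c'`
      have P := hB.P1 h L α hLb (fun w => w (b z) = true)
        (fun y => by rw [sw_other y (hR.ab.ab _ hc _ z1).symm bz1 (hR.ab.ab _ hc' _ z1).symm bz2])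
      refine le_trans (le_of_eq ?_) P
      apply sum_nbij' (sw b d c' z) (sw b d c' z)
      · intro y hy
        simp only [mem_filter, mem_cls] at hy ⊢
        obtain ⟨hy, ⟨b1, b2⟩, b3⟩ := hy
        obtain ⟨v1, v2, v3, v4⟩ := hB.vals1 hR hy
        have v5 := (hact z hz y hy).1
        have hD : Dc b d c' z y := ⟨v4, v5, by simp [b2, b3]⟩
        refine ⟨(rel_equiv b d S).trans hy (rel_sw hR.bd hc' z1 y), ⟨?_, ?_⟩, ?_⟩
        · rw [sw_other y bcc (hR.bd.ab _ hc _ hc') bz1.symm (hR.bd.ab _ hc _ z1), b1]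
        · rw [sw_1 hD, b2]; rfl
        · rw [sw_3 hD, b3]; rfl
      · intro y hy
        simp only [mem_filter, mem_cls] at hy ⊢
        obtain ⟨hy, ⟨b1, b2⟩, b3⟩ := hy
        obtain ⟨v1, v2, v3, v4⟩ := hB.vals1 hR hy
        have v5 := (hact z hz y hy).1
        have hD : Dc b d c' z y := ⟨v4, v5, by simp [b2, b3]⟩
        refine ⟨(rel_equiv b d S).trans hy (rel_sw hR.bd hc' z1 y), ⟨?_, ?_⟩, ?_⟩
        · rw [sw_other y bcc (hR.bd.ab _ hc _ hc') bz1.symm (hR.bd.ab _ hc _ z1), b1]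
        · rw [sw_1 hD, b2]; rfl
        · rw [sw_3 hD, b3]; rfl
      · intro y _; exact sw_sw b d c' z y
      · intro y _; exact sw_sw b d c' z y
      · intro y hy
        simp only [mem_filter, mem_cls] at hy
        have := h.s12.s23.inv_same hlam hc' z1 y (by
          rw [(hB.vals1 hR hy.1).2.1, (hact z hz y hy.1).2, hxz])
        rw [this.1, this.2]
  have tot := sum_le_sum key
  set n0 := ∑ z ∈ Y, (x (b z)).toNat with hn0
  have hn0le : n0 ≤ Y.card := by
    rw [hn0, card_eq_sum_ones]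
    exact sum_le_sum fun z _ => Bool.toNat_le _
  have R : ∑ z ∈ Y, ∑ w ∈ (cls (rel b d S) x).filter (fun w => w (b z) = true), (gb w + gd w - α)
      = 0 := by
    simp only [sum_filter]
    rw [sum_comm]
    have : ∀ w ∈ cls (rel b d S) x, ∑ z ∈ Y, (if w (b z) = true then gb w + gd w - α else 0)
        = (n0 : ℝ) * ((gb + gd) w - α) := by
      intro w hw
      rw [hn0, rel_sum_act (mem_cls.mp hw), Nat.cast_sum, sum_mul]
      exact sum_congr rfl fun z _ => by cases w (b z) <;> simp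
    rw [sum_congr rfl this, ← mul_sum, hα, sum_cls_sub_Eop (rel_equiv b d S), mul_zero]
  have hact1 : act b d S x1 = insert c (insert c' Y) := by
    ext e
    simp only [mem_insert, hY, act, mem_filter]
    by_cases e1 : e = c
    · subst e1; simp [hc, hB.y3]
    by_cases e2 : e = c'
    · subst e2; simp [hc', hB.y4]
    simp only [e1, e2, false_or]
    apply and_congr_right
    intro he
    rw [hB.loc.row hR hc hc' he e1 e2, hB.loc.s23.row hR.s23 hc hc' he e1 e2]
  have hcY : c ∉ insert c' Y := by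
    simp only [mem_insert, not_or]
    exact ⟨hB.ne, fun h => (hYm c h).2.1 rfl⟩
  have hc'Y : c' ∉ Y := fun h => (hYm c' h).2.2.1 rfl
  have Lh : ∑ z ∈ Y, ∑ y ∈ (cls (rel b d S) x1).filter
          (fun y => (y (b c) = true ∧ y (b c') = true) ∧ y (b z) = false), (gb y + gd y - α - L)
      = ((Y.card : ℝ) - n0 + 1) * ∑ y ∈ (cls (rel b d S) x1).filter
          (fun y => y (b c) = true ∧ y (b c') = true), (gb y + gd y - α - L) := by
    simp only [← filter_filter]
    simp only [sum_filter (p := fun y : ι → Bool => y (b _) = false)]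
    rw [sum_comm, mul_sum]
    apply sum_congr rfl
    intro y hy
    simp only [mem_filter, mem_cls] at hy
    obtain ⟨⟨hy, b1⟩, b2⟩ := hy
    have h1 := rel_sum_act hy
    rw [hact1, sum_insert hcY, sum_insert hc'Y, sum_insert hcY, sum_insert hc'Y, b1, b2] at h1
    have h2 : ∑ z ∈ Y, (x1 (b z)).toNat = n0 := by
      apply sum_congr rfl; intro z hz
      obtain ⟨z1, z2, z3, -⟩ := hYm z hz
      rw [hB.loc.row hR hc hc' z1 z2 z3]
    have h3 : (x1 (b c)).toNat + (x1 (b c')).toNat = 1 := by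
      have := hB.y5; revert this; cases x1 (b c) <;> cases x1 (b c') <;> simp
    have h4 : ∑ z ∈ Y, (y (b z)).toNat + 1 = n0 := by
      simp only [Bool.toNat_true] at h1; omega
    have h5 : ((Y.card : ℝ) - n0 + 1) = ∑ z ∈ Y, (1 - ((y (b z)).toNat : ℝ)) := by
      rw [← h4, sum_sub_distrib]; simp; ring
    rw [h5, sum_mul]
    exact sum_congr rfl fun z _ => by cases y (b z) <;> simp
  rw [R, Lh] at tot
  have hpos : (0 : ℝ) < (Y.card : ℝ) - n0 + 1 := by
    have : (n0 : ℝ) ≤ Y.card := by exact_mod_cast hn0le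
    linarith
  by_contra hcon
  push Not at hcon
  nlinarith [mul_pos hpos hcon]

lemma Base.step (h : Trip a b d S ga gb gd lam) (hlam : 1 < lam) {c c' : γ} {x x1 : ι → Bool}
    (hB : Base a b d S c c' x x1) (L : ℝ) (hLb : ∀ y, gb y - gb (sw a b c c' y) ≤ L)
    (hLd : ∀ y, gd y - gd (sw a d c c' y) ≤ L) : lam * (ga x1 - ga x) ≤ L := by
  have hR := h.R
  set α := Eop (rel b d S) (gb + gd) x with hα
  have hK : ∑ w ∈ (cls (rel b d S) x).filter (fun _ => True), (gb w + gd w - α) = 0 := by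
    rw [filter_true]; exact sum_cls_sub_Eop (rel_equiv b d S) (gb + gd) x
  have p1 := hB.P1 h L α hLb (fun _ => True) (fun _ => Iff.rfl)
  have p2 := hB.s23.P1 h.s23 L α hLd (fun _ => True) (fun _ => Iff.rfl)
  have p3 := hB.P2 h hlam L hLb hLd
  have p4 := hB.s23.P2 h.s23 hlam L hLd hLb
  rw [rel_comm d b] at p2 p4
  rw [add_comm gd gb] at p4
  simp only [add_comm (gd _) (gb _)] at p2 p4
  rw [hK] at p1 p2
  rw [← hα] at p3 p4
  have tot : ∑ y ∈ cls (rel b d S) x1, (gb y + gd y - α - L) ≤ 0 := by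
    rw [sum_filter] at p1 p2 p3 p4
    refine le_trans (le_of_eq ?_) (add_nonpos (add_nonpos p1 p2) (add_nonpos p3 p4))
    simp only [← sum_add_distrib]
    apply sum_congr rfl
    intro y hy
    obtain ⟨-, -, v3, v4⟩ := hB.vals1 hR (mem_cls.mp hy)
    revert v3 v4
    cases y (b c) <;> cases y (d c) <;> cases y (b c') <;> cases y (d c') <;> simp
  have z := sum_cls_sub_Eop (rel_equiv b d S) (gb + gd) x1
  have hp := card_cls_pos (rel_equiv b d S) x1
  rw [mul_sub, h.ea, h.ea, ← hα]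
  simp only [sum_sub_distrib, sum_const, nsmul_eq_mul, Pi.add_apply] at tot z
  by_contra hcon
  push Not at hcon
  nlinarith [mul_pos hp (sub_pos.mpr hcon)]

lemma Trip.step1 (h : Trip a b d S ga gb gd lam) (hlam : 1 < lam) {c c' : γ} (hc : c ∈ S)
    (hc' : c' ∈ S) (L : ℝ)
    (hLb : ∀ c ∈ S, ∀ c' ∈ S, ∀ y, |gb (sw a b c c' y) - gb y| ≤ L)
    (hLd : ∀ c ∈ S, ∀ c' ∈ S, ∀ y, |gd (sw a d c c' y) - gd y| ≤ L) (x : ι → Bool) :
    lam * |ga (sw a b c c' x) - ga x| ≤ L := by
  have hR := h.R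
  have hL0 : 0 ≤ L := (abs_nonneg _).trans (hLb c hc c' hc' x)
  have base : ∀ c ∈ S, ∀ c' ∈ S, ∀ x : ι → Bool, x (a c) = true → x (b c) = false →
      x (d c) = false → x (a c') = false → x (b c') = true → x (d c') = true →
      lam * |ga (sw a b c c' x) - ga x| ≤ L := by
    intro c hc c' hc' x x1 x2 x3 x4 x5 x6
    have hD : Dc a b c c' x := by unfold Dc D4; simp [x1, x2, x4, x5]
    have hB : Base a b d S c c' x (sw a b c c' x) := by
      refine ⟨hc, hc', x1, x2, x3, x4, x5, x6, loc2_sw a b d c c' x, ?_, ?_, ?_, ?_, ?_⟩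
      · rw [sw_1 hD, x1]; rfl
      · rw [sw_3 hD, x4]; rfl
      · rw [sw_2 hD, hR.sw_d hc hc' hc, x2, x3]; simp
      · rw [sw_4 hD, hR.sw_d hc hc' hc', x5, x6]; simp
      · rw [sw_2 hD, sw_4 hD, x2, x5]; simp
    have q1 := hB.step h hlam L
      (fun y => by have := hLb c hc c' hc' y; rw [abs_le] at this; linarith)
      (fun y => by have := hLd c hc c' hc' y; rw [abs_le] at this; linarith)
    have q2 := hB.step h.neg hlam L
      (fun y => by have := hLb c hc c' hc' y; rw [abs_le] at this; simp only [Pi.neg_apply]; linarith)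
      (fun y => by have := hLd c hc c' hc' y; rw [abs_le] at this; simp only [Pi.neg_apply]; linarith)
    simp only [Pi.neg_apply] at q2
    rw [← abs_of_nonneg (by linarith : 0 ≤ lam), ← abs_mul, abs_le]
    constructor <;> linarith
  by_cases hD : Dc a b c c' x
  swap
  · rw [sw_of_not hD]; simpa using hL0
  by_cases hd : x (d c) = x (d c')
  · rw [(h.inv_same hlam hc hc' x hd).1]; simpa using hL0
  obtain ⟨h1, h2, h3⟩ := _root_.id hD
  have flip : |ga (sw a b c c' x) - ga x|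
      = |ga (sw a b c c' (sw a b c c' x)) - ga (sw a b c c' x)| := by
    rw [sw_sw, abs_sub_comm]
  have s1 := sw_1 hD
  have s2 := sw_2 hD
  have s3 := sw_3 hD
  have s4 := sw_4 hD
  have s5 := hR.sw_d hc hc' hc x
  have s6 := hR.sw_d hc hc' hc' x
  cases e1 : x (a c) <;> cases e2 : x (d c)
  all_goals
    have e3 : x (b c) = !x (a c) := by revert h1; cases x (a c) <;> cases x (b c) <;> simp
    have e4 : x (a c') = !x (a c) := by revert h3; cases x (a c) <;> cases x (a c') <;> simp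
    have e5 : x (b c') = !x (a c') := by revert h2; cases x (a c') <;> cases x (b c') <;> simp
    have e6 : x (d c') = !x (d c) := by revert hd; cases x (d c) <;> cases x (d c') <;> simp
    rw [e4] at e5
    rw [e1] at e3 e4 e5 s1
    rw [e2] at e6 s5
    rw [e3] at s2
    rw [e4] at s3
    rw [e5] at s4
    rw [e6] at s6
  · rw [flip]; exact base c hc c' hc' _ s1 s2 s5 s3 s4 s6
  · rw [← sw_cols]; exact base c' hc' c hc _ e4 e5 e6 e1 e3 e2
  · exact base c hc c' hc' _ e1 e3 e2 e4 e5 e6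
  · have := base c' hc' c hc _ s3 s4 s6 s1 s2 s5
    rw [sw_cols] at this
    rw [flip]; exact this

lemma Trip.inv_all (h : Trip a b d S ga gb gd lam) (hlam : 1 < lam) {c c' : γ} (hc : c ∈ S)
    (hc' : c' ∈ S) (x : ι → Bool) :
    ga (sw a b c c' x) = ga x ∧ gb (sw a b c c' x) = gb x := by
  obtain ⟨B1, hB1⟩ := exists_bound ga
  obtain ⟨B2, hB2⟩ := exists_bound gb
  obtain ⟨B3, hB3⟩ := exists_bound gd
  have := contr (fun t : γ × γ × (ι → Bool) => t.1 ∈ S ∧ t.2.1 ∈ S)
    (fun t => max (max (max |ga (sw a b t.1 t.2.1 t.2.2) - ga t.2.2|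
        |ga (sw a d t.1 t.2.1 t.2.2) - ga t.2.2|)
      (max |gb (sw a b t.1 t.2.1 t.2.2) - gb t.2.2| |gb (sw b d t.1 t.2.1 t.2.2) - gb t.2.2|))
      (max |gd (sw a d t.1 t.2.1 t.2.2) - gd t.2.2| |gd (sw b d t.1 t.2.1 t.2.2) - gd t.2.2|))
    lam hlam (max (max B1 B2) B3)
    (fun t _ => max_le_max (max_le_max (max_le (hB1 _ _) (hB1 _ _)) (max_le (hB2 _ _) (hB2 _ _)))
      (max_le (hB3 _ _) (hB3 _ _))) (by
      rintro L hL ⟨e, e', y⟩ ⟨he, he'⟩
      simp only [max_le_iff, Prod.forall, and_imp] at hL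
      have h0 : 0 ≤ lam := by linarith
      have a1 := fun c hc c' hc' y => (hL c c' y hc hc').1.1.1
      have a2 := fun c hc c' hc' y => (hL c c' y hc hc').1.1.2
      have a3 := fun c hc c' hc' y => (hL c c' y hc hc').1.2.1
      have a4 := fun c hc c' hc' y => (hL c c' y hc hc').1.2.2
      have a5 := fun c hc c' hc' y => (hL c c' y hc hc').2.1
      have a6 := fun c hc c' hc' y => (hL c c' y hc hc').2.2
      simp only [mul_max_of_nonneg _ _ h0, max_le_iff]
      refine ⟨⟨⟨h.step1 hlam he he' L a3 a5 y, h.s23.step1 hlam he he' L a5 a3 y⟩, ?_, ?_⟩, ?_, ?_⟩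
      · rw [← sw_rows]
        exact h.s12.step1 hlam he he' L (by simpa only [sw_rows a b] using a1) a6 y
      · exact h.s12.s23.step1 hlam he he' L a6 (by simpa only [sw_rows a b] using a1) y
      · rw [← sw_rows]
        exact h.s23.s12.step1 hlam he he' L (by simpa only [sw_rows a d] using a2)
          (by simpa only [sw_rows b d] using a4) y
      · rw [← sw_rows]
        exact h.s23.s12.s23.step1 hlam he he' L (by simpa only [sw_rows b d] using a4)
          (by simpa only [sw_rows a d] using a2) y) (c, c', x) ⟨hc, hc'⟩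
  simp only [max_le_iff, abs_nonpos_iff, sub_eq_zero] at this
  exact ⟨this.1.1.1, this.1.2.1⟩

lemma Eop_eq_of_sw (hR : Rows a b S) (F : (ι → Bool) → ℝ)
    (hF : ∀ c ∈ S, ∀ c' ∈ S, ∀ x, F (sw a b c c' x) = F x) : Eop (rel a b S) F = F := by
  have := twoRow_poincare hR F
  rw [sum_eq_zero (fun x _ => sum_eq_zero fun c hc => sum_eq_zero fun c' hc' => by
    rw [hF c hc c' hc' x]; simp)] at this
  have h2 := eq_zero_of_ip_self (F - Eop (rel a b S) F) (by linarith)
  exact (sub_eq_zero.mp h2).symm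

/-- the heat-bath complement -/
noncomputable def Aop (a b : γ → ι) (S : Finset γ) : ((ι → Bool) → ℝ) →ₗ[ℝ] ((ι → Bool) → ℝ) :=
  LinearMap.id - Eop (rel a b S)

lemma Aop_apply (a b : γ → ι) (S : Finset γ) (f : (ι → Bool) → ℝ) :
    Aop a b S f = f - Eop (rel a b S) f := rfl

lemma Aop_isProj (a b : γ → ι) (S : Finset γ) : IsProj (Aop a b S) :=
  (Eop_isProj (rel_equiv a b S)).one_sub

theorem threeRow (hR : Rows3 a b d S) (f : (ι → Bool) → ℝ) :
    0 ≤ ip (Aop a b S f) (Aop a d S f) + ip (Aop a b S f) (Aop b d S f)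
      + ip (Aop a d S f) (Aop b d S f) := by
  have p1 := Aop_isProj a b S
  have p2 := Aop_isProj a d S
  have p3 := Aop_isProj b d S
  obtain ⟨key, -⟩ := spectral (Aop a b S + Aop a d S + Aop b d S) (by
    intro f g
    simp only [LinearMap.add_apply, ip_add_left, ip_add_right, p1.symm, p2.symm, p3.symm])
    1 zero_le_one (by
    intro η F hF he
    by_contra hcon
    push Not at hcon
    obtain ⟨h0, h1⟩ := hcon
    simp only [LinearMap.add_apply, Aop_apply] at he
    set ga := Eop (rel b d S) F with hga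
    set gb := Eop (rel a d S) F with hgb
    set gd := Eop (rel a b S) F with hgd
    have hsum : ga + gb + gd = (3 - η) • F := by
      rw [sub_smul, ← he, show (3 : ℝ) • F = F + F + F by
        funext x; simp only [Pi.smul_apply, Pi.add_apply, smul_eq_mul]; ring]
      abel
    have T : Trip a b d S ga gb gd (2 - η) := by
      refine ⟨hR, fun x y h => Eop_congr (rel_equiv _ _ _) F h,
        fun x y h => Eop_congr (rel_equiv _ _ _) F h,
        fun x y h => Eop_congr (rel_equiv _ _ _) F h, fun x => ?_, fun x => ?_, fun x => ?_⟩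
      · have : gb + gd = (3 - η) • F - ga := by rw [← hsum]; abel
        rw [this, map_sub, map_smul, hga, (Eop_isProj (rel_equiv b d S)).idem]
        simp only [Pi.sub_apply, Pi.smul_apply, smul_eq_mul]; ring
      · have : ga + gd = (3 - η) • F - gb := by rw [← hsum]; abel
        rw [this, map_sub, map_smul, hgb, (Eop_isProj (rel_equiv a d S)).idem]
        simp only [Pi.sub_apply, Pi.smul_apply, smul_eq_mul]; ring
      · have : ga + gb = (3 - η) • F - gd := by rw [← hsum]; abel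
        rw [this, map_sub, map_smul, hgd, (Eop_isProj (rel_equiv a b S)).idem]
        simp only [Pi.sub_apply, Pi.smul_apply, smul_eq_mul]; ring
    have hl : 1 < 2 - η := by linarith
    have hFx : ∀ x y, ga x = ga y → gb x = gb y → gd x = gd y → F x = F y := by
      intro x y e1 e2 e3
      have hx := congrFun hsum x
      have hy := congrFun hsum y
      simp only [Pi.smul_apply, Pi.add_apply, smul_eq_mul] at hx hy
      have : (3 - η) * F x = (3 - η) * F y := by rw [← hx, ← hy, e1, e2, e3]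
      exact mul_left_cancel₀ (by linarith) this
    have q1 : gd = F := Eop_eq_of_sw hR.ab F fun c hc c' hc' x =>
      hFx _ _ (T.inv_all hl hc hc' x).1 (T.inv_all hl hc hc' x).2
        (T.id _ _ (rel_sw hR.ab hc hc' x)).symm
    have q2 : gb = F := Eop_eq_of_sw hR.ad F fun c hc c' hc' x =>
      hFx _ _ (T.s23.inv_all hl hc hc' x).1 (T.ib _ _ (rel_sw hR.ad hc hc' x)).symm
        (T.s23.inv_all hl hc hc' x).2
    have q3 : ga = F := Eop_eq_of_sw hR.bd F fun c hc c' hc' x =>
      hFx _ _ (T.ia _ _ (rel_sw hR.bd hc hc' x)).symm (T.s12.s23.inv_all hl hc hc' x).1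
        (T.s12.s23.inv_all hl hc hc' x).2
    rw [q1, q2, q3] at he
    simp only [sub_self, add_zero] at he
    rcases smul_eq_zero.mp he.symm with h | h
    · exact h0 h
    · exact hF h) f
  simp only [LinearMap.add_apply, ip_add_left, ip_add_right, one_mul, p1.ip_self f, p2.ip_self f,
    p3.ip_self f] at key
  rw [ip_comm (Aop a d S f) (Aop a b S f), ip_comm (Aop b d S f) (Aop a b S f),
    ip_comm (Aop b d S f) (Aop a d S f)] at key
  linarith

end Crest.Agent.R299
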