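import Crest.Agent.R299.Johnson

set_option autoImplicit false
set_option linter.unusedSectionVars false
open Finset

namespace Crest.Agent.R299

variable {ι γ : Type*} [Fintype ι] [DecidableEq ι] [DecidableEq γ]

/-- two rows of coordinates, indexed by the columns in `S` -/
structure Rows (a b : γ → ι) (S : Finset γ) : Prop where
  ia : ∀ c ∈ S, ∀ c' ∈ S, a c = a c' → c = c'
  ib : ∀ c ∈ S, ∀ c' ∈ S, b c = b c' → c = c'
  ab : ∀ c ∈ S, ∀ c' ∈ S, a c ≠ b c'

lemma Rows.symm {a b : γ → ι} {S : Finset γ} (h : Rows a b S) : Rows b a S :=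
  ⟨h.ib, h.ia, fun c hc c' hc' e => h.ab c' hc' c hc e.symm⟩

/-- a coordinate outside the two rows -/
def off (a b : γ → ι) (S : Finset γ) (e : ι) : Prop := ∀ c ∈ S, e ≠ a c ∧ e ≠ b c

/-- same outside, same column sums -/
def cube (a b : γ → ι) (S : Finset γ) (x y : ι → Bool) : Prop :=
  (∀ e, off a b S e → x e = y e) ∧
    ∀ c ∈ S, (x (a c)).toNat + (x (b c)).toNat = (y (a c)).toNat + (y (b c)).toNat

/-- same outside, same column sums, same row sums -/
def rel (a b : γ → ι) (S : Finset γ) (x y : ι → Bool) : Prop :=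
  cube a b S x y ∧ ∑ c ∈ S, (x (a c)).toNat = ∑ c ∈ S, (y (a c)).toNat

lemma cube_equiv (a b : γ → ι) (S : Finset γ) : Equivalence (cube a b S) :=
  ⟨fun _ => ⟨fun _ _ => rfl, fun _ _ => rfl⟩,
    fun h => ⟨fun e he => (h.1 e he).symm, fun c hc => (h.2 c hc).symm⟩,
    fun h h' => ⟨fun e he => (h.1 e he).trans (h'.1 e he), fun c hc => (h.2 c hc).trans (h'.2 c hc)⟩⟩

lemma rel_equiv (a b : γ → ι) (S : Finset γ) : Equivalence (rel a b S) :=
  ⟨fun _ => ⟨(cube_equiv a b S).refl _, rfl⟩, fun h => ⟨(cube_equiv a b S).symm h.1, h.2.symm⟩,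
    fun h h' => ⟨(cube_equiv a b S).trans h.1 h'.1, h.2.trans h'.2⟩⟩

lemma rel.symm_rows {a b : γ → ι} {S : Finset γ} {x y : ι → Bool} (h : rel a b S x y) :
    rel b a S x y := by
  refine ⟨⟨fun e he => h.1.1 e fun c hc => (he c hc).symm, fun c hc => ?_⟩, ?_⟩
  · have := h.1.2 c hc; omega
  · have h1 := sum_congr rfl h.1.2
    rw [sum_add_distrib, sum_add_distrib] at h1
    have := h.2
    omega

lemma rel_comm (a b : γ → ι) (S : Finset γ) : rel a b S = rel b a S := by
  funext x y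
  exact propext ⟨rel.symm_rows, rel.symm_rows⟩

/-- alternating pattern on four coordinates -/
def D4 (e1 e2 e3 e4 : ι) (x : ι → Bool) : Prop := x e1 ≠ x e2 ∧ x e3 ≠ x e4 ∧ x e1 ≠ x e3

instance (e1 e2 e3 e4 : ι) (x : ι → Bool) : Decidable (D4 e1 e2 e3 e4 x) := by
  unfold D4; infer_instance

/-- the switch on four coordinates -/
def sw4 (e1 e2 e3 e4 : ι) (x : ι → Bool) : ι → Bool := fun e =>
  if D4 e1 e2 e3 e4 x ∧ (e = e1 ∨ e = e2 ∨ e = e3 ∨ e = e4) then !x e else x e

lemma sw4_of_not {e1 e2 e3 e4 : ι} {x : ι → Bool} (h : ¬ D4 e1 e2 e3 e4 x) :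
    sw4 e1 e2 e3 e4 x = x := by
  funext e; simp [sw4, h]

lemma sw4_1 {e1 e2 e3 e4 : ι} {x : ι → Bool} (h : D4 e1 e2 e3 e4 x) :
    sw4 e1 e2 e3 e4 x e1 = !x e1 := by simp [sw4, h]
lemma sw4_2 {e1 e2 e3 e4 : ι} {x : ι → Bool} (h : D4 e1 e2 e3 e4 x) :
    sw4 e1 e2 e3 e4 x e2 = !x e2 := by simp [sw4, h]
lemma sw4_3 {e1 e2 e3 e4 : ι} {x : ι → Bool} (h : D4 e1 e2 e3 e4 x) :
    sw4 e1 e2 e3 e4 x e3 = !x e3 := by simp [sw4, h]
lemma sw4_4 {e1 e2 e3 e4 : ι} {x : ι → Bool} (h : D4 e1 e2 e3 e4 x) :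
    sw4 e1 e2 e3 e4 x e4 = !x e4 := by simp [sw4, h]
lemma sw4_other {e1 e2 e3 e4 e : ι} (x : ι → Bool) (h1 : e ≠ e1) (h2 : e ≠ e2) (h3 : e ≠ e3)
    (h4 : e ≠ e4) : sw4 e1 e2 e3 e4 x e = x e := by simp [sw4, h1, h2, h3, h4]

lemma D4_sw4 {e1 e2 e3 e4 : ι} (x : ι → Bool) :
    D4 e1 e2 e3 e4 (sw4 e1 e2 e3 e4 x) ↔ D4 e1 e2 e3 e4 x := by
  by_cases h : D4 e1 e2 e3 e4 x
  · have h' := h
    unfold D4 at h' ⊢
    rw [sw4_1 h, sw4_2 h, sw4_3 h, sw4_4 h]
    simp only [ne_eq, Bool.not_inj_iff]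
  · rw [sw4_of_not h]

lemma sw4_sw4 (e1 e2 e3 e4 : ι) (x : ι → Bool) : sw4 e1 e2 e3 e4 (sw4 e1 e2 e3 e4 x) = x := by
  by_cases h : D4 e1 e2 e3 e4 x
  · funext e
    have h' := (D4_sw4 x).mpr h
    by_cases he : e = e1 ∨ e = e2 ∨ e = e3 ∨ e = e4
    · rw [sw4, if_pos ⟨h', he⟩, sw4, if_pos ⟨h, he⟩]; simp
    · rw [sw4, if_neg (fun hh => he hh.2), sw4, if_neg (fun hh => he hh.2)]
  · rw [sw4_of_not h, sw4_of_not h]

lemma D4_trans (e1 e2 e3 e4 : ι) (x : ι → Bool) : D4 e1 e3 e2 e4 x ↔ D4 e1 e2 e3 e4 x := by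
  unfold D4; cases x e1 <;> cases x e2 <;> cases x e3 <;> cases x e4 <;> simp

lemma sw4_trans (e1 e2 e3 e4 : ι) : sw4 e1 e3 e2 e4 = sw4 e1 e2 e3 e4 := by
  funext x e
  simp only [sw4, D4_trans e1 e2 e3 e4]
  congr 1
  apply propext; tauto

lemma D4_rows (e1 e2 e3 e4 : ι) (x : ι → Bool) : D4 e2 e1 e4 e3 x ↔ D4 e1 e2 e3 e4 x := by
  unfold D4; cases x e1 <;> cases x e2 <;> cases x e3 <;> cases x e4 <;> simp

lemma sw4_rows (e1 e2 e3 e4 : ι) : sw4 e2 e1 e4 e3 = sw4 e1 e2 e3 e4 := by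
  funext x e
  simp only [sw4, D4_rows e1 e2 e3 e4]
  congr 1
  apply propext; tauto

lemma D4_cols (e1 e2 e3 e4 : ι) (x : ι → Bool) : D4 e3 e4 e1 e2 x ↔ D4 e1 e2 e3 e4 x := by
  unfold D4; cases x e1 <;> cases x e2 <;> cases x e3 <;> cases x e4 <;> simp

lemma sw4_cols (e1 e2 e3 e4 : ι) : sw4 e3 e4 e1 e2 = sw4 e1 e2 e3 e4 := by
  funext x e
  simp only [sw4, D4_cols e1 e2 e3 e4]
  congr 1
  apply propext; tauto

/-- the switch of two rows on two columns -/
abbrev sw (a b : γ → ι) (c c' : γ) : (ι → Bool) → (ι → Bool) := sw4 (a c) (b c) (a c') (b c')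

/-- the two columns are active and split -/
abbrev Dc (a b : γ → ι) (c c' : γ) (x : ι → Bool) : Prop := D4 (a c) (b c) (a c') (b c') x

section wrappers
variable {a b : γ → ι} {c c' : γ} {x : ι → Bool}
lemma sw_of_not (h : ¬ Dc a b c c' x) : sw a b c c' x = x := sw4_of_not h
lemma sw_1 (h : Dc a b c c' x) : sw a b c c' x (a c) = !x (a c) := sw4_1 h
lemma sw_2 (h : Dc a b c c' x) : sw a b c c' x (b c) = !x (b c) := sw4_2 h
lemma sw_3 (h : Dc a b c c' x) : sw a b c c' x (a c') = !x (a c') := sw4_3 h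
lemma sw_4 (h : Dc a b c c' x) : sw a b c c' x (b c') = !x (b c') := sw4_4 h
lemma sw_other {e : ι} (x : ι → Bool) (h1 : e ≠ a c) (h2 : e ≠ b c) (h3 : e ≠ a c')
    (h4 : e ≠ b c') : sw a b c c' x e = x e := sw4_other x h1 h2 h3 h4
lemma sw_sw (a b : γ → ι) (c c' : γ) (x : ι → Bool) : sw a b c c' (sw a b c c' x) = x :=
  sw4_sw4 _ _ _ _ x
lemma Dc_sw (x : ι → Bool) : Dc a b c c' (sw a b c c' x) ↔ Dc a b c c' x := D4_sw4 x
lemma sw_rows (a b : γ → ι) (c c' : γ) : sw b a c c' = sw a b c c' := sw4_rows _ _ _ _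
lemma sw_cols (a b : γ → ι) (c c' : γ) : sw a b c' c = sw a b c c' := sw4_cols _ _ _ _
end wrappers

/-- same class, same split status -/
def relD (a b : γ → ι) (S : Finset γ) (c c' : γ) (x y : ι → Bool) : Prop :=
  rel a b S x y ∧ (Dc a b c c' x ↔ Dc a b c c' y)

lemma relD_equiv (a b : γ → ι) (S : Finset γ) (c c' : γ) : Equivalence (relD a b S c c') :=
  ⟨fun _ => ⟨(rel_equiv a b S).refl _, Iff.rfl⟩, fun h => ⟨(rel_equiv a b S).symm h.1, h.2.symm⟩,
    fun h h' => ⟨(rel_equiv a b S).trans h.1 h'.1, h.2.trans h'.2⟩⟩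

lemma Dc_ne {a b : γ → ι} {c c' : γ} {x : ι → Bool} (h : Dc a b c c' x) : c ≠ c' := by
  rintro rfl; exact h.2.2 rfl

lemma rel_sw {a b : γ → ι} {S : Finset γ} (hR : Rows a b S) {c c' : γ} (hc : c ∈ S) (hc' : c' ∈ S)
    (x : ι → Bool) : rel a b S x (sw a b c c' x) := by
  by_cases h : Dc a b c c' x
  swap
  · rw [sw_of_not h]; exact (rel_equiv a b S).refl _
  have hne := Dc_ne h
  have ha : ∀ d ∈ S, d ≠ c → d ≠ c' → sw a b c c' x (a d) = x (a d) := fun d hd h1 h2 =>
    sw_other x (fun e => h1 (hR.ia _ hd _ hc e)) (hR.ab _ hd _ hc)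
      (fun e => h2 (hR.ia _ hd _ hc' e)) (hR.ab _ hd _ hc')
  have hb : ∀ d ∈ S, d ≠ c → d ≠ c' → sw a b c c' x (b d) = x (b d) := fun d hd h1 h2 =>
    sw_other x (hR.ab _ hc _ hd).symm (fun e => h1 (hR.ib _ hd _ hc e))
      (hR.ab _ hc' _ hd).symm (fun e => h2 (hR.ib _ hd _ hc' e))
  obtain ⟨h1, h2, h3⟩ := id h
  refine ⟨⟨fun e he => ?_, fun d hd => ?_⟩, ?_⟩
  · exact (sw_other x (he c hc).1 (he c hc).2 (he c' hc').1 (he c' hc').2).symm
  · by_cases hdc : d = c
    · subst hdc; rw [sw_1 h, sw_2 h]; revert h1; cases x (a d) <;> cases x (b d) <;> simp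
    by_cases hdc' : d = c'
    · subst hdc'; rw [sw_3 h, sw_4 h]; revert h2; cases x (a d) <;> cases x (b d) <;> simp
    · rw [ha d hd hdc hdc', hb d hd hdc hdc']
  · have hc'' : c' ∈ S.erase c := mem_erase.mpr ⟨hne.symm, hc'⟩
    rw [← add_sum_erase S _ hc, ← add_sum_erase S _ hc, ← add_sum_erase _ _ hc'',
      ← add_sum_erase _ _ hc'', sw_1 h, sw_3 h]
    have : ∑ d ∈ (S.erase c).erase c', (x (a d)).toNat
        = ∑ d ∈ (S.erase c).erase c', (sw a b c c' x (a d)).toNat := by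
      apply sum_congr rfl
      intro d hd
      simp only [mem_erase] at hd
      rw [ha d hd.2.2 hd.2.1 hd.1]
    rw [this]
    revert h3; cases x (a c) <;> cases x (a c') <;> simp

section param
variable {a b : γ → ι} {S : Finset γ}

/-- active columns -/
def act (a b : γ → ι) (S : Finset γ) (x : ι → Bool) : Finset γ :=
  S.filter fun c => x (a c) ≠ x (b c)

/-- parametrisation of a cube class -/
noncomputable def par (a b : γ → ι) (S : Finset γ) (x : ι → Bool) (z : act a b S x → Bool) :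
    ι → Bool :=
  Function.extend (fun c : act a b S x => a c) z
    (Function.extend (fun c : act a b S x => b c) (fun c => !z c) x)

lemma act_mem {x : ι → Bool} (c : act a b S x) : (c : γ) ∈ S := (mem_filter.mp c.2).1
lemma act_ne {x : ι → Bool} (c : act a b S x) : x (a c) ≠ x (b c) := (mem_filter.mp c.2).2

lemma par_a (hR : Rows a b S) (x : ι → Bool) (z : act a b S x → Bool) (c : act a b S x) :
    par a b S x z (a c) = z c := by
  unfold par
  exact Function.Injective.extend_apply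
    (fun c c' e => Subtype.ext (hR.ia _ (act_mem c) _ (act_mem c') e)) _ _ c

lemma par_b (hR : Rows a b S) (x : ι → Bool) (z : act a b S x → Bool) (c : act a b S x) :
    par a b S x z (b c) = !z c := by
  unfold par
  rw [Function.extend_apply']
  · exact Function.Injective.extend_apply
      (fun c c' e => Subtype.ext (hR.ib _ (act_mem c) _ (act_mem c') e)) _ _ c
  · rintro ⟨c', e⟩; exact hR.ab _ (act_mem c') _ (act_mem c) e

lemma par_other (x : ι → Bool) (z : act a b S x → Bool) (e : ι)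
    (he : ∀ c : act a b S x, e ≠ a c ∧ e ≠ b c) : par a b S x z e = x e := by
  unfold par
  rw [Function.extend_apply', Function.extend_apply']
  · rintro ⟨c', h⟩; exact (he c').2 h.symm
  · rintro ⟨c', h⟩; exact (he c').1 h.symm

lemma par_a' (hR : Rows a b S) (x : ι → Bool) (z : act a b S x → Bool) {c : γ} (hc : c ∈ S)
    (h : c ∉ act a b S x) : par a b S x z (a c) = x (a c) :=
  par_other x z _ fun c' => ⟨fun e => h (by rw [hR.ia _ hc _ (act_mem c') e]; exact c'.2),
    hR.ab _ hc _ (act_mem c')⟩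

lemma par_b' (hR : Rows a b S) (x : ι → Bool) (z : act a b S x → Bool) {c : γ} (hc : c ∈ S)
    (h : c ∉ act a b S x) : par a b S x z (b c) = x (b c) :=
  par_other x z _ fun c' => ⟨(hR.ab _ (act_mem c') _ hc).symm,
    fun e => h (by rw [hR.ib _ hc _ (act_mem c') e]; exact c'.2)⟩

lemma par_inj (hR : Rows a b S) (x : ι → Bool) : Function.Injective (par a b S x) := by
  intro z z' h
  funext c
  rw [← par_a hR x z c, ← par_a hR x z' c, h]

lemma cube_par (hR : Rows a b S) (x : ι → Bool) (z : act a b S x → Bool) :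
    cube a b S x (par a b S x z) := by
  refine ⟨fun e he => (par_other x z e fun c => he c (act_mem c)).symm, fun c hc => ?_⟩
  by_cases h : c ∈ act a b S x
  · have h1 := par_a hR x z ⟨c, h⟩
    have h2 := par_b hR x z ⟨c, h⟩
    have h3 := act_ne ⟨c, h⟩
    simp only at h1 h2 h3
    rw [h1, h2]
    revert h3; cases x (a c) <;> cases x (b c) <;> cases z ⟨c, h⟩ <;> simp
  · rw [par_a' hR x z hc h, par_b' hR x z hc h]

lemma exists_par (hR : Rows a b S) {x y : ι → Bool} (h : cube a b S x y) :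
    ∃ z, par a b S x z = y := by
  refine ⟨fun c => y (a c), ?_⟩
  funext e
  by_cases h1 : ∃ c : act a b S x, e = a c
  · obtain ⟨c, rfl⟩ := h1; rw [par_a hR]
  by_cases h2 : ∃ c : act a b S x, e = b c
  · obtain ⟨c, rfl⟩ := h2
    rw [par_b hR]
    have h3 := act_ne c
    have h4 := h.2 c (act_mem c)
    revert h3 h4
    cases x (a c) <;> cases x (b c) <;> cases y (a c) <;> cases y (b c) <;> simp
  push Not at h1 h2
  rw [par_other x _ e fun c => ⟨h1 c, h2 c⟩]
  by_cases h3 : off a b S e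
  · exact h.1 e h3
  · unfold off at h3
    push Not at h3
    obtain ⟨c, hc, h4⟩ := h3
    have hna : x (a c) = x (b c) := by
      by_contra hne
      have hm : c ∈ act a b S x := mem_filter.mpr ⟨hc, hne⟩
      exact h2 ⟨c, hm⟩ (h4 (h1 ⟨c, hm⟩))
    have h5 := h.2 c hc
    by_cases h6 : e = a c
    · subst h6; revert hna h5
      cases x (a c) <;> cases x (b c) <;> cases y (a c) <;> cases y (b c) <;> simp
    · rw [h4 h6]; revert hna h5
      cases x (a c) <;> cases x (b c) <;> cases y (a c) <;> cases y (b c) <;> simp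

lemma sum_par (hR : Rows a b S) (x : ι → Bool) (z : act a b S x → Bool) :
    ∑ c ∈ S, (par a b S x z (a c)).toNat
      = cnt z + ∑ c ∈ S.filter (fun c => ¬ x (a c) ≠ x (b c)), (x (a c)).toNat := by
  rw [← sum_filter_add_sum_filter_not S (fun c => x (a c) ≠ x (b c))]
  congr 1
  · change ∑ c ∈ act a b S x, _ = _
    rw [cnt, ← sum_coe_sort (act a b S x)]
    exact sum_congr rfl fun c _ => by rw [par_a hR]
  · apply sum_congr rfl
    intro c hc
    rw [mem_filter] at hc
    rw [par_a' hR x z hc.1 (fun h => hc.2 (mem_filter.mp h).2)]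

lemma rel_par (hR : Rows a b S) (x : ι → Bool) (z z' : act a b S x → Bool) :
    rel a b S (par a b S x z) (par a b S x z') ↔ rc z z' := by
  unfold rel rc
  rw [sum_par hR, sum_par hR]
  constructor
  · intro h; have := h.2; omega
  · intro h
    exact ⟨(cube_equiv a b S).trans ((cube_equiv a b S).symm (cube_par hR x z)) (cube_par hR x z'),
      by rw [h]⟩

lemma Dc_par (hR : Rows a b S) (x : ι → Bool) (z : act a b S x → Bool) (c c' : act a b S x) :
    Dc a b c c' (par a b S x z) ↔ z c ≠ z c' := by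
  unfold Dc D4
  rw [par_a hR, par_a hR, par_b hR, par_b hR]
  cases z c <;> cases z c' <;> simp

lemma Dc_par' (hR : Rows a b S) (x : ι → Bool) (z : act a b S x → Bool) {c c' : γ} (hc : c ∈ S)
    (hc' : c' ∈ S) (h : Dc a b c c' (par a b S x z)) : c ∈ act a b S x ∧ c' ∈ act a b S x := by
  constructor
  · by_contra hn
    have h1 := h.1
    rw [par_a' hR x z hc hn, par_b' hR x z hc hn] at h1
    exact hn (mem_filter.mpr ⟨hc, h1⟩)
  · by_contra hn
    have h1 := h.2.1
    rw [par_a' hR x z hc' hn, par_b' hR x z hc' hn] at h1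
    exact hn (mem_filter.mpr ⟨hc', h1⟩)

lemma sw_par (hR : Rows a b S) (x : ι → Bool) (z : act a b S x → Bool) (c c' : act a b S x) :
    sw a b c c' (par a b S x z) = par a b S x (tau c c' z) := by
  by_cases h : Dc a b c c' (par a b S x z)
  · have hz := (Dc_par hR x z c c').mp h
    have hflip : ∀ d : act a b S x, tau c c' z d = if d = c ∨ d = c' then !z d else z d := by
      intro d
      rw [tau_apply, Function.comp]
      by_cases h1 : d = c
      · subst h1; simp only [Equiv.swap_apply_left, true_or, if_true]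
        revert hz; cases z d <;> cases z c' <;> simp
      by_cases h2 : d = c'
      · subst h2; simp only [Equiv.swap_apply_right, or_true, if_true]
        revert hz; cases z d <;> cases z c <;> simp
      · rw [Equiv.swap_apply_of_ne_of_ne h1 h2]; simp [h1, h2]
    funext e
    by_cases h1 : ∃ d : act a b S x, e = a d
    · obtain ⟨d, rfl⟩ := h1
      rw [par_a hR, hflip]
      by_cases h2 : d = c
      · subst h2; rw [sw_1 h, par_a hR]; simp
      by_cases h3 : d = c'
      · subst h3; rw [sw_3 h, par_a hR]; simp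
      · rw [sw_other _ (fun e => h2 (Subtype.ext (hR.ia _ (act_mem d) _ (act_mem c) e)))
          (hR.ab _ (act_mem d) _ (act_mem c))
          (fun e => h3 (Subtype.ext (hR.ia _ (act_mem d) _ (act_mem c') e)))
          (hR.ab _ (act_mem d) _ (act_mem c')), par_a hR]
        simp [h2, h3]
    by_cases h2 : ∃ d : act a b S x, e = b d
    · obtain ⟨d, rfl⟩ := h2
      rw [par_b hR, hflip]
      by_cases h2 : d = c
      · subst h2; rw [sw_2 h, par_b hR]; simp
      by_cases h3 : d = c'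
      · subst h3; rw [sw_4 h, par_b hR]; simp
      · rw [sw_other _ (hR.ab _ (act_mem c) _ (act_mem d)).symm
          (fun e => h2 (Subtype.ext (hR.ib _ (act_mem d) _ (act_mem c) e)))
          (hR.ab _ (act_mem c') _ (act_mem d)).symm
          (fun e => h3 (Subtype.ext (hR.ib _ (act_mem d) _ (act_mem c') e))), par_b hR]
        simp [h2, h3]
    push Not at h1 h2
    rw [sw_other _ (h1 c) (h2 c) (h1 c') (h2 c'), par_other x _ e fun d => ⟨h1 d, h2 d⟩,
      par_other x _ e fun d => ⟨h1 d, h2 d⟩]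
  · rw [sw_of_not h]
    have hz : z c = z c' := by
      by_contra hne; exact h ((Dc_par hR x z c c').mpr hne)
    congr 1
    funext d
    rw [tau_apply, Function.comp]
    by_cases h1 : d = c
    · subst h1; simp [hz]
    by_cases h2 : d = c'
    · subst h2; simp [hz]
    · rw [Equiv.swap_apply_of_ne_of_ne h1 h2]

lemma sum_cls_cube (hR : Rows a b S) (x : ι → Bool) (F : (ι → Bool) → ℝ) :
    ∑ y ∈ cls (cube a b S) x, F y = ∑ z, F (par a b S x z) := by
  have : cls (cube a b S) x = univ.image (par a b S x) := by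
    ext y
    simp only [mem_cls, mem_image, mem_univ, true_and]
    exact ⟨exists_par hR, by rintro ⟨z, rfl⟩; exact cube_par hR x z⟩
  rw [this, sum_image (fun _ _ _ _ h => par_inj hR x h)]

lemma Eop_par (hR : Rows a b S) (x : ι → Bool) (z : act a b S x → Bool) (f : (ι → Bool) → ℝ) :
    Eop (rel a b S) f (par a b S x z) = Eop rc (f ∘ par a b S x) z := by
  apply Eop_transfer _ (par_inj hR x)
  intro y
  constructor
  · intro h
    obtain ⟨z', rfl⟩ := exists_par hR ((cube_equiv a b S).trans (cube_par hR x z) h.1)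
    exact ⟨z', (rel_par hR x z z').mp h, rfl⟩
  · rintro ⟨z', h, rfl⟩; exact (rel_par hR x z z').mpr h

lemma EopD_par (hR : Rows a b S) (x : ι → Bool) (z : act a b S x → Bool) (f : (ι → Bool) → ℝ)
    (c c' : act a b S x) :
    Eop (relD a b S c c') f (par a b S x z) = Eop (rD c c') (f ∘ par a b S x) z := by
  apply Eop_transfer _ (par_inj hR x)
  intro y
  constructor
  · intro h
    obtain ⟨z', rfl⟩ := exists_par hR ((cube_equiv a b S).trans (cube_par hR x z) h.1.1)
    refine ⟨z', ⟨(rel_par hR x z z').mp h.1, ?_⟩, rfl⟩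
    rw [← Dc_par hR, ← Dc_par hR]; exact h.2
  · rintro ⟨z', h, rfl⟩
    refine ⟨(rel_par hR x z z').mpr h.1, ?_⟩
    rw [Dc_par hR, Dc_par hR]; exact h.2

lemma sum_act_le (x : ι → Bool) (φ : γ → γ → ℝ) (hφ : ∀ c c', 0 ≤ φ c c') :
    ∑ c : act a b S x, ∑ c' : act a b S x, φ c c' ≤ ∑ c ∈ S, ∑ c' ∈ S, φ c c' := by
  rw [sum_coe_sort (act a b S x) (fun c => ∑ c' : act a b S x, φ c c')]
  calc ∑ c ∈ act a b S x, ∑ c' : act a b S x, φ c c'
      ≤ ∑ c ∈ act a b S x, ∑ c' ∈ S, φ c c' := by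
        apply sum_le_sum; intro c _
        rw [sum_coe_sort (act a b S x) (fun c' => φ c c')]
        exact sum_le_sum_of_subset_of_nonneg (filter_subset _ _) fun c' _ _ => hφ c c'
    _ ≤ _ := sum_le_sum_of_subset_of_nonneg (filter_subset _ _)
        fun c _ _ => sum_nonneg fun c' _ => hφ c c'

theorem twoRow_poincare (hR : Rows a b S) (f : (ι → Bool) → ℝ) :
    8 * ip (f - Eop (rel a b S) f) (f - Eop (rel a b S) f)
      ≤ ∑ x, ∑ c ∈ S, ∑ c' ∈ S, (f x - f (sw a b c c' x)) ^ 2 := by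
  rw [ip_self_eq, mul_sum]
  apply sum_le_of_cls (cube_equiv a b S)
  intro x
  rw [sum_cls_cube hR, sum_cls_cube hR]
  have := cube_poincare (f ∘ par a b S x)
  rw [ip_self_eq, mul_sum, sum_congr rfl (fun u _ => sum_comm), sum_comm] at this
  simp only [Pi.sub_apply, Eop_par hR]
  refine this.trans (sum_le_sum fun z _ => ?_)
  refine le_trans (le_of_eq ?_) (sum_act_le (a := a) (b := b) x
    (fun c c' => (f (par a b S x z) - f (sw a b c c' (par a b S x z))) ^ 2) fun _ _ => sq_nonneg _)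
  simp only [sw_par hR, Function.comp]

theorem twoRow_J (hR : Rows a b S) (f : (ι → Bool) → ℝ) :
    ∑ x, ∑ c ∈ S, ∑ c' ∈ S,
        (if Dc a b c c' x then (Eop (relD a b S c c') f x - Eop (rel a b S) f x) ^ 2 else 0)
      ≤ ∑ x, ∑ c ∈ S, ∑ c' ∈ S, ((f x - f (sw a b c c' x)) / 2) ^ 2 := by
  apply sum_le_of_cls (cube_equiv a b S)
  intro x
  rw [sum_cls_cube hR, sum_cls_cube hR]
  have := cube_J (f ∘ par a b S x)
  refine le_trans (le_of_eq ?_) (this.trans (sum_le_sum fun z _ => ?_))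
  · apply sum_congr rfl; intro z _
    have hsub : act a b S x ⊆ S := filter_subset _ _
    rw [← sum_subset hsub, ← sum_coe_sort (act a b S x)]
    · apply sum_congr rfl; intro c _
      rw [← sum_subset hsub, ← sum_coe_sort (act a b S x)]
      · apply sum_congr rfl; intro c' _
        rw [EopD_par hR, Eop_par hR, spl]
        simp only [Dc_par hR]
        split_ifs <;> simp
      · intro c' hc' hn
        rw [if_neg]
        intro h; exact hn (Dc_par' hR x z (act_mem c) hc' h).2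
    · intro c hc hn
      apply sum_eq_zero; intro c' hc'
      rw [if_neg]
      intro h; exact hn (Dc_par' hR x z hc hc' h).1
  · refine le_trans (le_of_eq ?_) (sum_act_le (a := a) (b := b) x
      (fun c c' => ((f (par a b S x z) - f (sw a b c c' (par a b S x z))) / 2) ^ 2)
      fun _ _ => sq_nonneg _)
    simp only [sw_par hR, Function.comp]

end param

end Crest.Agent.R299
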